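import Mathlib

/-! TYPE LEMMA, local part (80 #19622 (iii)). Mathlib only.

`V` carries a linear action `ρ` of a vector space `G` (a Lie algebra), `f i` are functions which vanish
along the orbit directions; if at `θ₀` the common kernel of the `d f i` is exactly the orbit direction
`ρ G θ₀`, then every common zero `θ + w` of the `f i` near a zero `θ` near `θ₀` satisfies
`w = ρ ξ θ + O(|w|²)`, `|ξ| ≤ C |w|`. -/

set_option linter.all false

namespace Vale.Agent.P207.H376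

open Set Filter Topology Metric
open scoped ContDiff

/-- the exactness `ker D₀ ⊆ range R₀` in the form of a homotopy `1 = R₀ P + Q D₀`, with `D₀` bounded
below on the range of `Q` -/
theorem exists_homotopy {V G F : Type*} [NormedAddCommGroup V] [NormedSpace ℝ V]
    [FiniteDimensional ℝ V] [NormedAddCommGroup G] [NormedSpace ℝ G] [FiniteDimensional ℝ G]
    [NormedAddCommGroup F] [NormedSpace ℝ F] [FiniteDimensional ℝ F]
    (R : G →L[ℝ] V) (D : V →L[ℝ] F) (h : ∀ v, D v = 0 → ∃ ξ, R ξ = v) :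
    ∃ (P : V →L[ℝ] G) (Q : F →L[ℝ] V), (∀ v, R (P v) + Q (D v) = v) ∧ ∀ y, Q (D (Q y)) = Q y := by
  obtain ⟨K, hK⟩ := (LinearMap.ker (D : V →ₗ[ℝ] F)).exists_isCompl
  -- the left inverse of `D` on `K`
  have hinj : LinearMap.ker ((D : V →ₗ[ℝ] F).domRestrict K) = ⊥ := by
    rw [LinearMap.ker_eq_bot']
    intro k hk
    have h1 : (k : V) ∈ LinearMap.ker (D : V →ₗ[ℝ] F) := hk
    have h2 : (k : V) ∈ LinearMap.ker (D : V →ₗ[ℝ] F) ⊓ K := ⟨h1, k.2⟩
    rw [hK.inf_eq_bot] at h2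
    exact Subtype.ext h2
  obtain ⟨g, hg⟩ := ((D : V →ₗ[ℝ] F).domRestrict K).exists_leftInverse_of_injective hinj
  -- the right inverse of `R`
  obtain ⟨s, hs⟩ := (R : G →ₗ[ℝ] V).rangeRestrict.exists_rightInverse_of_surjective
    (LinearMap.range_rangeRestrict _)
  have hg' : ∀ k : K, g (D (k : V)) = k := fun k => by
    have := congrArg (fun T : K →ₗ[ℝ] K => T k) hg
    simpa using this
  have hs' : ∀ a : LinearMap.range (R : G →ₗ[ℝ] V), R (s a) = a := fun a => by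
    have h3 : (R : G →ₗ[ℝ] V).rangeRestrict (s a) = a := by
      have := congrArg (fun T : LinearMap.range (R : G →ₗ[ℝ] V) →ₗ[ℝ]
        LinearMap.range (R : G →ₗ[ℝ] V) => T a) hs
      exact this
    exact congrArg Subtype.val h3
  set q : F →ₗ[ℝ] V := K.subtype ∘ₗ g with hq
  have hqD : ∀ k ∈ K, q (D k) = k := fun k hk => by
    have := congrArg Subtype.val (hg' ⟨k, hk⟩)
    exact this
  have hqK : ∀ y, q y ∈ K := fun y => (g y).2
  have hkey : ∀ v, v - q (D v) ∈ LinearMap.range (R : G →ₗ[ℝ] V) := by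
    intro v
    have hv : v ∈ LinearMap.ker (D : V →ₗ[ℝ] F) ⊔ K := by rw [hK.sup_eq_top]; trivial
    obtain ⟨a, ha, k, hk, rfl⟩ := Submodule.mem_sup.1 hv
    have ha' : D a = 0 := ha
    have h1 : a + k - q (D (a + k)) = a := by
      rw [map_add, ha', zero_add, hqD k hk]; abel
    rw [h1]
    obtain ⟨ξ, hξ⟩ := h a ha'
    exact ⟨ξ, hξ⟩
  set m : V →ₗ[ℝ] LinearMap.range (R : G →ₗ[ℝ] V) :=
    LinearMap.codRestrict _ (LinearMap.id - q ∘ₗ (D : V →ₗ[ℝ] F)) hkey with hm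
  refine ⟨LinearMap.toContinuousLinearMap (s ∘ₗ m), LinearMap.toContinuousLinearMap q, ?_, ?_⟩
  · intro v
    have h1 : R (s (m v)) = v - q (D v) := hs' (m v)
    change R (s (m v)) + q (D v) = v
    rw [h1]; abel
  · intro y
    exact hqD _ (hqK y)

/-- a map near the identity is onto -/
theorem onto_near {V : Type*} [NormedAddCommGroup V] [NormedSpace ℝ V] [FiniteDimensional ℝ V]
    {T : V →L[ℝ] V} (hT : ‖T - 1‖ ≤ 1 / 2) (v : V) : ∃ u, T u = v ∧ ‖u‖ ≤ 2 * ‖v‖ := by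
  haveI : CompleteSpace V := FiniteDimensional.complete ℝ V
  have h1 : ‖(1 : V →L[ℝ] V) - T‖ < 1 := by rw [norm_sub_rev]; linarith
  set U := Units.oneSub ((1 : V →L[ℝ] V) - T) h1 with hU
  have hUv : (U : V →L[ℝ] V) = T := by rw [hU, Units.val_oneSub]; abel
  have h2 : T * (↑U⁻¹ : V →L[ℝ] V) = 1 := by rw [← hUv]; exact Units.mul_inv U
  have h3 : T ((↑U⁻¹ : V →L[ℝ] V) v) = v := by
    have := congrArg (fun S : V →L[ℝ] V => S v) h2
    simpa using this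
  refine ⟨(↑U⁻¹ : V →L[ℝ] V) v, h3, ?_⟩
  set u := (↑U⁻¹ : V →L[ℝ] V) v with hu
  have h4 : u = v - (T - 1) u := by
    rw [ContinuousLinearMap.sub_apply, ContinuousLinearMap.one_apply, h3]; abel
  have h5 : ‖(T - 1) u‖ ≤ 1 / 2 * ‖u‖ := (T - 1).le_of_opNorm_le hT u
  have h6 : ‖u‖ ≤ ‖v‖ + ‖(T - 1) u‖ := by
    have := norm_sub_le v ((T - 1) u)
    rwa [← h4] at this
  linarith

/-- the exactness persists: for `(R, D)` close to `(R₀, D₀)` with `D R = 0` -/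
theorem exact_near {V G F : Type*} [NormedAddCommGroup V] [NormedSpace ℝ V]
    [FiniteDimensional ℝ V] [NormedAddCommGroup G] [NormedSpace ℝ G] [FiniteDimensional ℝ G]
    [NormedAddCommGroup F] [NormedSpace ℝ F] [FiniteDimensional ℝ F]
    (R₀ : G →L[ℝ] V) (D₀ : V →L[ℝ] F) (h : ∀ v, D₀ v = 0 → ∃ ξ, R₀ ξ = v) :
    ∃ C δ : ℝ, 0 < C ∧ 0 < δ ∧ ∀ (R : G →L[ℝ] V) (D : V →L[ℝ] F), ‖R - R₀‖ ≤ δ → ‖D - D₀‖ ≤ δ →
      (∀ ξ, D (R ξ) = 0) → ∀ v, ∃ ξ, ‖ξ‖ ≤ C * ‖v‖ ∧ ‖v - R ξ‖ ≤ C * ‖D v‖ := by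
  obtain ⟨P, Q, h1, h2⟩ := exists_homotopy R₀ D₀ h
  set p := ‖P‖ with hp
  set q := ‖Q‖ with hq
  have hp0 : 0 ≤ p := norm_nonneg _
  have hq0 : 0 ≤ q := norm_nonneg _
  refine ⟨2 * (p + q) + 1, 1 / (2 * (p + q) + 1), by positivity, by positivity, ?_⟩
  intro R D hR hD hDR v
  set δ := 1 / (2 * (p + q) + 1) with hδ
  have hδ0 : 0 < δ := by positivity
  have hδp : δ * (p + q) ≤ 1 / 2 := by
    rw [hδ, div_mul_eq_mul_div, one_mul, div_le_iff₀ (by positivity)]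
    linarith
  have hT : ‖R ∘L P + Q ∘L D - 1‖ ≤ 1 / 2 := by
    refine ContinuousLinearMap.opNorm_le_bound _ (by norm_num) fun w => ?_
    have e1 : (R ∘L P + Q ∘L D - 1) w = (R - R₀) (P w) + Q ((D - D₀) w) := by
      simp only [ContinuousLinearMap.sub_apply, ContinuousLinearMap.add_apply,
        ContinuousLinearMap.comp_apply, ContinuousLinearMap.one_apply, map_sub]
      nth_rw 3 [← h1 w]
      abel
    rw [e1]
    have e2 : ‖(R - R₀) (P w)‖ ≤ δ * (p * ‖w‖) :=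
      ((R - R₀).le_opNorm _).trans (mul_le_mul hR (P.le_opNorm w) (norm_nonneg _) hδ0.le)
    have e3 : ‖Q ((D - D₀) w)‖ ≤ q * (δ * ‖w‖) :=
      (Q.le_opNorm _).trans (mul_le_mul_of_nonneg_left ((D - D₀).le_of_opNorm_le hD w) hq0)
    have e4 : δ * (p + q) * ‖w‖ ≤ 1 / 2 * ‖w‖ := mul_le_mul_of_nonneg_right hδp (norm_nonneg _)
    have e5 := norm_add_le ((R - R₀) (P w)) (Q ((D - D₀) w))
    linarith
  obtain ⟨u, hu, hun⟩ := onto_near hT v
  have hu' : R (P u) + Q (D u) = v := hu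
  refine ⟨P u, ?_, ?_⟩
  · have e1 : ‖P u‖ ≤ p * (2 * ‖v‖) := (P.le_opNorm u).trans (mul_le_mul_of_nonneg_left hun hp0)
    have e2 : 0 ≤ (2 * q + 1) * ‖v‖ := by positivity
    linarith
  · set z := v - R (P u) with hz
    have hz1 : z = Q (D u) := by rw [hz, ← hu']; abel
    have hz2 : D z = D v := by rw [hz, map_sub, hDR, sub_zero]
    have hz3 : z = Q (D v) - Q ((D - D₀) z) := by
      rw [ContinuousLinearMap.sub_apply, map_sub, hz2]
      have : Q (D₀ z) = z := by rw [hz1, h2]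
      rw [this]; abel
    have e1 : ‖Q (D v)‖ ≤ q * ‖D v‖ := Q.le_opNorm _
    have e2 : ‖Q ((D - D₀) z)‖ ≤ q * (δ * ‖z‖) :=
      (Q.le_opNorm _).trans (mul_le_mul_of_nonneg_left ((D - D₀).le_of_opNorm_le hD z) hq0)
    have e3 : ‖z‖ ≤ ‖Q (D v)‖ + ‖Q ((D - D₀) z)‖ := by
      have := norm_sub_le (Q (D v)) (Q ((D - D₀) z))
      rwa [← hz3] at this
    have e4 : q * (δ * ‖z‖) ≤ 1 / 2 * ‖z‖ := by
      have : q * δ ≤ 1 / 2 := by nlinarith
      calc q * (δ * ‖z‖) = q * δ * ‖z‖ := by ring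
        _ ≤ 1 / 2 * ‖z‖ := mul_le_mul_of_nonneg_right this (norm_nonneg _)
    have e5 : 0 ≤ (2 * p + 1) * ‖D v‖ := by positivity
    linarith

/-- second order Taylor estimate near a point -/
theorem taylor_near {V F : Type*} [NormedAddCommGroup V] [NormedSpace ℝ V] [FiniteDimensional ℝ V]
    [NormedAddCommGroup F] [NormedSpace ℝ F] {g : V → F} (hg : ContDiff ℝ 2 g) (θ₀ : V) :
    ∃ M : ℝ, 0 ≤ M ∧ ∀ y ∈ ball θ₀ 1, ∀ y' ∈ ball θ₀ 1,
      ‖g y' - g y - fderiv ℝ g y (y' - y)‖ ≤ M * ‖y' - y‖ ^ 2 := by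
  haveI : ProperSpace V := FiniteDimensional.proper ℝ V
  have h1 : ContDiff ℝ 1 (fderiv ℝ g) := hg.fderiv_right (by norm_num)
  obtain ⟨M, hM⟩ := (isCompact_closedBall θ₀ 1).exists_bound_of_continuousOn
    (f := fderiv ℝ (fderiv ℝ g)) (h1.continuous_fderiv (by norm_num)).continuousOn
  refine ⟨|M|, abs_nonneg _, fun y hy y' hy' => ?_⟩
  have hseg : segment ℝ y y' ⊆ ball θ₀ 1 := (convex_ball θ₀ 1).segment_subset hy hy'
  have hlip : ∀ x ∈ segment ℝ y y', ‖fderiv ℝ g x - fderiv ℝ g y‖ ≤ |M| * ‖y' - y‖ := by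
    intro x hx
    have h2 := (convex_ball θ₀ 1).norm_image_sub_le_of_norm_fderiv_le (f := fderiv ℝ g) (C := |M|)
      (fun z _ => (h1.differentiable (by norm_num)) z)
      (fun z hz => (hM z (ball_subset_closedBall hz)).trans (le_abs_self _)) hy (hseg hx)
    refine h2.trans (mul_le_mul_of_nonneg_left ?_ (abs_nonneg _))
    obtain ⟨a, b, ha, hb, hab, rfl⟩ := hx
    have h3 : a • y + b • y' - y = b • (y' - y) := by
      have : a = 1 - b := by linarith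
      rw [this]; module
    rw [h3, norm_smul, Real.norm_of_nonneg hb]
    have hb1 : b ≤ 1 := by linarith
    calc b * ‖y' - y‖ ≤ 1 * ‖y' - y‖ := mul_le_mul_of_nonneg_right hb1 (norm_nonneg _)
      _ = ‖y' - y‖ := one_mul _
  have h2 : ∀ x ∈ segment ℝ y y', HasFDerivWithinAt (fun x => g x - fderiv ℝ g y x)
      (fderiv ℝ g x - fderiv ℝ g y) (segment ℝ y y') x := by
    intro x _
    exact (((hg.differentiable (by norm_num)) x).hasFDerivAt.sub
      (fderiv ℝ g y).hasFDerivAt).hasFDerivWithinAt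
  have h3 := (convex_segment y y').norm_image_sub_le_of_norm_hasFDerivWithin_le h2 hlip
    (left_mem_segment ℝ y y') (right_mem_segment ℝ y y')
  have h4 : g y' - fderiv ℝ g y y' - (g y - fderiv ℝ g y y) = g y' - g y - fderiv ℝ g y (y' - y) := by
    rw [map_sub]; abel
  rw [h4] at h3
  rw [sq, ← mul_assoc]
  exact h3

/-- **TYPE LEMMA, local part** -/
theorem ty_local {V G : Type*} [NormedAddCommGroup V] [NormedSpace ℝ V] [FiniteDimensional ℝ V]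
    [NormedAddCommGroup G] [NormedSpace ℝ G] [FiniteDimensional ℝ G] (ρ : G →L[ℝ] V →L[ℝ] V)
    {ι : Type*} [Fintype ι] (f : ι → V → ℝ) (hf : ∀ i, ContDiff ℝ 2 (f i)) (θ₀ : V)
    (hker : ∀ v, (∀ i, fderiv ℝ (f i) θ₀ v = 0) → ∃ ξ, ρ ξ θ₀ = v) :
    ∃ C δ : ℝ, 0 < C ∧ 0 < δ ∧ ∀ θ, ‖θ - θ₀‖ ≤ δ → (∀ i, f i θ = 0) →
      (∀ i ξ, fderiv ℝ (f i) θ (ρ ξ θ) = 0) → ∀ w, ‖w‖ ≤ δ → (∀ i, f i (θ + w) = 0) →
      ∃ ξ, ‖ξ‖ ≤ C * ‖w‖ ∧ ‖w - ρ ξ θ‖ ≤ C * ‖w‖ ^ 2 := by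
  set g : V → (ι → ℝ) := fun θ i => f i θ with hg
  have hgc : ContDiff ℝ 2 g := contDiff_pi.2 hf
  have hgd : ∀ θ v i, fderiv ℝ g θ v i = fderiv ℝ (f i) θ v := by
    intro θ v i
    have h1 : HasFDerivAt g (ContinuousLinearMap.pi fun i => fderiv ℝ (f i) θ) θ :=
      hasFDerivAt_pi.2 fun i => (((hf i).differentiable (by norm_num)) θ).hasFDerivAt
    rw [h1.fderiv]
    rfl
  set R : V → G →L[ℝ] V := fun θ => ρ.flip θ with hR
  obtain ⟨C, δ, hC, hδ, hex⟩ := exact_near (R θ₀) (fderiv ℝ g θ₀) (by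
    intro v hv
    obtain ⟨ξ, hξ⟩ := hker v (fun i => by rw [← hgd θ₀ v i, hv]; rfl)
    exact ⟨ξ, hξ⟩)
  obtain ⟨M, hM0, hM⟩ := taylor_near hgc θ₀
  have hDc : ∀ᶠ θ in 𝓝 θ₀, ‖fderiv ℝ g θ - fderiv ℝ g θ₀‖ ≤ δ := by
    have h1 : ContinuousAt (fderiv ℝ g) θ₀ := (hgc.continuous_fderiv (by norm_num)).continuousAt
    have h2 := h1.sub_const (fderiv ℝ g θ₀)
    have h3 := h2.norm
    have h4 : ‖fderiv ℝ g θ₀ - fderiv ℝ g θ₀‖ < δ := by rw [sub_self, norm_zero]; exact hδ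
    filter_upwards [h3.eventually_lt continuousAt_const h4] with θ hθ using hθ.le
  have hRc : ∀ᶠ θ in 𝓝 θ₀, ‖R θ - R θ₀‖ ≤ δ := by
    have h1 : ContinuousAt R θ₀ := (ρ.flip.continuous).continuousAt
    have h3 := (h1.sub_const (R θ₀)).norm
    have h4 : ‖R θ₀ - R θ₀‖ < δ := by rw [sub_self, norm_zero]; exact hδ
    filter_upwards [h3.eventually_lt continuousAt_const h4] with θ hθ using hθ.le
  obtain ⟨e, he, hb⟩ := Metric.eventually_nhds_iff_ball.1 (hDc.and hRc)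
  refine ⟨C * (M + 1), min (e / 2) (1 / 3), by positivity, by positivity, ?_⟩
  intro θ hθ hfθ htan w hw hfw
  have hθe : θ ∈ ball θ₀ e := by
    rw [mem_ball_iff_norm]
    have := min_le_left (e / 2) (1 / 3)
    linarith
  have hθ1 : ‖θ - θ₀‖ ≤ 1 / 3 := hθ.trans (min_le_right _ _)
  have hw1 : ‖w‖ ≤ 1 / 3 := hw.trans (min_le_right _ _)
  obtain ⟨h1, h2⟩ := hb θ hθe
  obtain ⟨ξ, h3, h4⟩ := hex (R θ) (fderiv ℝ g θ) h2 h1 (by
    intro ξ
    funext i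
    rw [hgd]
    exact htan i ξ) w
  have hy : θ ∈ ball θ₀ 1 := by rw [mem_ball_iff_norm]; linarith
  have hy' : θ + w ∈ ball θ₀ 1 := by
    rw [mem_ball_iff_norm]
    have h5 : θ + w - θ₀ = (θ - θ₀) + w := by abel
    rw [h5]
    have := norm_add_le (θ - θ₀) w
    linarith
  have h5 := hM θ hy (θ + w) hy'
  have h6 : g (θ + w) = 0 := by funext i; exact hfw i
  have h7 : g θ = 0 := by funext i; exact hfθ i
  rw [h6, h7, add_sub_cancel_left, sub_zero, zero_sub, norm_neg] at h5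
  refine ⟨ξ, ?_, ?_⟩
  · have h8 : C * ‖w‖ ≤ C * (M + 1) * ‖w‖ := by
      have : 0 ≤ C * M * ‖w‖ := by positivity
      linarith
    exact h3.trans h8
  · have h8 : C * ‖fderiv ℝ g θ w‖ ≤ C * (M * ‖w‖ ^ 2) := mul_le_mul_of_nonneg_left h5 hC.le
    have h9 : 0 ≤ C * ‖w‖ ^ 2 := by positivity
    have h10 : ‖w - ρ ξ θ‖ ≤ C * ‖fderiv ℝ g θ w‖ := h4
    linarith

/-- functions vanishing on a curve of the orbit have derivative zero in the orbit direction -/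
theorem tangent_of_orbit {V : Type*} [NormedAddCommGroup V] [NormedSpace ℝ V] {f : V → ℝ}
    (hf : Differentiable ℝ f) {θ v : V} {c : ℝ → V} (h0 : c 0 = θ) (hc : HasDerivAt c v 0)
    (hz : ∀ s, f (c s) = 0) : fderiv ℝ f θ v = 0 := by
  have h1 : HasDerivAt (fun s => f (c s)) (fderiv ℝ f (c 0) v) 0 :=
    (hf (c 0)).hasFDerivAt.comp_hasDerivAt 0 hc
  have h2 : (fun s => f (c s)) = fun _ => (0 : ℝ) := funext hz
  rw [h2, h0] at h1
  exact (h1.unique (hasDerivAt_const (0 : ℝ) (0 : ℝ)))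

end Vale.Agent.P207.H376
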