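import Vale.Agent.P207.H376.Lie
import Vale.Agent.P207.H61.Log

/-! SYS: from `κ⁻¹ A(h x) Dh(x)` in the stabiliser to the approximate first order system. -/

set_option linter.all false

namespace Vale.Agent.P207.H376

open Set Filter Topology Metric
open scoped ContDiff Nat

variable {E : Type*} [NormedAddCommGroup E] [NormedSpace ℝ E] [FiniteDimensional ℝ E]

/-- on a smaller ball all derivatives of the logarithm are bounded -/
theorem lg_bounds : ∃ e : ℝ, 0 < e ∧ e ≤ 1 ∧ ∃ C : ℝ, 0 ≤ C ∧ ∃ M : ℕ → ℝ, (∀ k, 0 ≤ M k) ∧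
    ContDiffOn ℝ ⊤ (lg : (E →L[ℝ] E) → (E →L[ℝ] E)) (ball 1 e) ∧
    (∀ g ∈ ball (1 : E →L[ℝ] E) e, ‖lg g - (g - 1)‖ ≤ C * ‖g - 1‖ ^ 2) ∧
    (∀ g ∈ ball (1 : E →L[ℝ] E) e, ∀ g' ∈ ball (1 : E →L[ℝ] E) e, ‖lg g - lg g'‖ ≤ C * ‖g - g'‖) ∧
    (∀ g ∈ ball (1 : E →L[ℝ] E) e, ∀ g' ∈ ball (1 : E →L[ℝ] E) e,
      ‖lg (g * g') - lg g - lg g'‖ ≤ C * ‖g - 1‖ * ‖g' - 1‖) ∧
    ∀ k, ∀ g ∈ ball (1 : E →L[ℝ] E) e,
      ‖iteratedFDeriv ℝ k (lg : (E →L[ℝ] E) → (E →L[ℝ] E)) g‖ ≤ M k := by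
  obtain ⟨e, he, he1, C, hC0, hcd, -, h1, h2, h3⟩ := lg_spec (𝔸 := E →L[ℝ] E)
  have hsub : closedBall (1 : E →L[ℝ] E) (e / 2) ⊆ ball 1 e := closedBall_subset_ball (by linarith)
  have hsub' : ball (1 : E →L[ℝ] E) (e / 2) ⊆ ball 1 e := ball_subset_closedBall.trans hsub
  have hM : ∀ k : ℕ, ∃ M : ℝ, ∀ g ∈ closedBall (1 : E →L[ℝ] E) (e / 2),
      ‖iteratedFDeriv ℝ k (lg : (E →L[ℝ] E) → (E →L[ℝ] E)) g‖ ≤ M := by
    intro k
    have hc : ContinuousOn (iteratedFDeriv ℝ k (lg : (E →L[ℝ] E) → (E →L[ℝ] E)))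
        (closedBall (1 : E →L[ℝ] E) (e / 2)) := by
      intro g hg
      have h4 : ContDiffAt ℝ ⊤ (lg : (E →L[ℝ] E) → (E →L[ℝ] E)) g :=
        hcd.contDiffAt (isOpen_ball.mem_nhds (hsub hg))
      have h5 : ContDiffAt ℝ 0 (iteratedFDeriv ℝ k (lg : (E →L[ℝ] E) → (E →L[ℝ] E))) g :=
        h4.iteratedFDeriv_right (m := 0) le_top
      exact h5.continuousAt.continuousWithinAt
    exact (isCompact_closedBall _ _).exists_bound_of_continuousOn hc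
  choose M hM using hM
  refine ⟨e / 2, by positivity, by linarith, C, hC0, fun k => |M k|, fun k => abs_nonneg _,
    hcd.mono hsub', fun g hg => h1 g (hsub' hg), fun g hg g' hg' => h2 g (hsub' hg) g' (hsub' hg'),
    fun g hg g' hg' => h3 g (hsub' hg) g' (hsub' hg'), fun k g hg => ?_⟩
  exact (hM k g (ball_subset_closedBall hg)).trans (le_abs_self _)

/-- iterated derivatives of a left multiple -/
theorem norm_iter_mul_left {s : Set E} (hs : IsOpen s) (κ : E →L[ℝ] E) {A : E → (E →L[ℝ] E)}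
    (hA : ContDiffOn ℝ ∞ A s) (k : ℕ) {x : E} (hx : x ∈ s) :
    ‖iteratedFDeriv ℝ k (fun y => κ * A y) x‖ ≤ ‖κ‖ * ‖iteratedFDeriv ℝ k A x‖ := by
  have hA' : ContDiffAt ℝ ∞ A x := hA.contDiffAt (hs.mem_nhds hx)
  have h1 := ContinuousLinearMap.iteratedFDeriv_comp_left
    (ContinuousLinearMap.mul ℝ (E →L[ℝ] E) κ) hA' (i := k) (by exact_mod_cast le_top)
  have h2 : (fun y => κ * A y) = (ContinuousLinearMap.mul ℝ (E →L[ℝ] E) κ) ∘ A := rfl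
  rw [h2, h1]
  refine (ContinuousLinearMap.norm_compContinuousMultilinearMap_le _ _).trans ?_
  apply mul_le_mul_of_nonneg_right _ (norm_nonneg _)
  exact ContinuousLinearMap.opNorm_mul_apply_le ℝ (E →L[ℝ] E) κ

/-- Faa di Bruno bound, on open sets, with constants which only depend on the bounds -/
theorem norm_iter_comp {F G : Type*} [NormedAddCommGroup F] [NormedSpace ℝ F]
    [NormedAddCommGroup G] [NormedSpace ℝ G] {s : Set E} {t : Set F} (hs : IsOpen s) (ht : IsOpen t)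
    {g : F → G} {f : E → F} (hg : ContDiffOn ℝ ∞ g t) (hf : ContDiffOn ℝ ∞ f s)
    (hst : MapsTo f s t) (M Q : ℕ → ℝ) (hQ : ∀ k, 0 ≤ Q k) (hM : ∀ k, 0 ≤ M k)
    (hgM : ∀ k, ∀ y ∈ t, ‖iteratedFDeriv ℝ k g y‖ ≤ M k)
    (hfQ : ∀ k, ∀ y ∈ s, ‖iteratedFDeriv ℝ k f y‖ ≤ Q k) (k : ℕ) {x : E} (hx : x ∈ s) :
    ‖iteratedFDeriv ℝ k (g ∘ f) x‖ ≤
      k ! * (∑ i ∈ Finset.range (k + 1), M i) * (1 + ∑ i ∈ Finset.range (k + 1), Q i) ^ k := by
  rw [← iteratedFDerivWithin_of_isOpen k hs hx]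
  have hD1 : 1 ≤ 1 + ∑ i ∈ Finset.range (k + 1), Q i := by
    have : 0 ≤ ∑ i ∈ Finset.range (k + 1), Q i := Finset.sum_nonneg fun i _ => hQ i
    linarith
  apply norm_iteratedFDerivWithin_comp_le hg hf (by exact_mod_cast le_top) ht.uniqueDiffOn
    hs.uniqueDiffOn hst hx
  · intro i hi
    rw [iteratedFDerivWithin_of_isOpen i ht (hst hx)]
    refine (hgM i _ (hst hx)).trans ?_
    exact Finset.single_le_sum (f := M) (fun i _ => hM i) (Finset.mem_range.2 (by omega))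
  · intro i hi1 hi
    rw [iteratedFDerivWithin_of_isOpen i hs hx]
    have h1 : Q i ≤ 1 + ∑ i ∈ Finset.range (k + 1), Q i := by
      have := Finset.single_le_sum (f := Q) (fun i _ => hQ i)
        (Finset.mem_range.2 (by omega : i < k + 1))
      linarith
    exact ((hfQ i x hx).trans h1).trans (le_self_pow₀ hD1 (by omega))

/-- SYS: the approximate system from the holonomy in the stabiliser. `κ' = κ⁻¹`. -/
theorem sys (S : Submodule ℝ (E →L[ℝ] E →L[ℝ] ℝ)) (J : Submodule ℝ (E →L[ℝ] E))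
    (hJ : ∃ e : ℝ, 0 < e ∧ ∀ g : E →L[ℝ] E, ‖g - 1‖ < e → H61.Stab S g → lg g ∈ J)
    (C θ : ℝ) (Ck : ℕ → ℝ) (hC : 0 ≤ C) (hCk : ∀ k, 0 ≤ Ck k) (hθ : 0 < θ) (hθ1 : θ ≤ 1) :
    ∃ t1 : ℝ, 0 < t1 ∧ t1 ≤ 1 ∧ ∃ C' : ℝ, 0 ≤ C' ∧ ∃ Ck' : ℕ → ℝ, (∀ k, 0 ≤ Ck' k) ∧
      ∀ t, 0 < t → t < t1 → ∀ (h : E → E) (A : E → (E →L[ℝ] E)) (κ' : E →L[ℝ] E),
        ‖κ' - 1‖ ≤ C * t ^ θ →
        (∀ x ∈ ball (0 : E) 1, ‖h x - x‖ ≤ C * t) →
        (∀ x ∈ ball (0 : E) 1, ‖fderiv ℝ h x - 1‖ ≤ C * t) →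
        ContDiffOn ℝ ∞ A (ball 0 2) →
        (∀ x ∈ ball (0 : E) 2, ‖A x - 1‖ ≤ C * t ^ θ) →
        (∀ x ∈ ball (0 : E) 2, ‖fderiv ℝ A x‖ ≤ C * t ^ θ) →
        (∀ k, ∀ x ∈ ball (0 : E) 2, ‖iteratedFDeriv ℝ k A x‖ ≤ Ck k) →
        (∀ x ∈ ball (0 : E) 1, H61.Stab S (κ' * A (h x) * fderiv ℝ h x)) →
        ∃ F : E → (E →L[ℝ] E), ContDiffOn ℝ ∞ F (ball 0 1) ∧
          (∀ k, ∀ x ∈ ball (0 : E) 1, ‖iteratedFDeriv ℝ k F x‖ ≤ Ck' k) ∧
          ∀ x ∈ ball (0 : E) 1, ∃ j ∈ J, ‖fderiv ℝ h x - 1 - F x - j‖ ≤ C' * t ^ (1 + θ) := by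
  obtain ⟨eJ, heJ, hJm⟩ := hJ
  obtain ⟨e, he, he1, Cl, hCl, M, hM, hcd, hq1, hq2, hq3, hMk⟩ := lg_bounds (E := E)
  set C1 : ℝ := C * (2 + C) with hC1
  set C2 : ℝ := C1 * (1 + C) + C with hC2
  have hC10 : 0 ≤ C1 := by positivity
  have hC20 : 0 ≤ C2 := by positivity
  set m : ℝ := min e eJ / (C1 + C2 + C + 1) with hm
  have hm0 : 0 < m := by
    have : 0 < min e eJ := lt_min he heJ
    positivity
  set t1 : ℝ := min (min 1 (1 / (C + 1))) (m ^ (1 / θ)) with ht1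
  have ht10 : 0 < t1 := by
    apply lt_min (lt_min one_pos (by positivity))
    exact Real.rpow_pos_of_pos hm0 _
  refine ⟨t1, ht10, (min_le_left _ _).trans (min_le_left _ _), Cl * (C ^ 2) + Cl * ((1 + C) * (C * C)) + Cl * (C1 * C), by positivity,
    fun k => k ! * (∑ i ∈ Finset.range (k + 1), M i) *
      (1 + ∑ i ∈ Finset.range (k + 1), (1 + C) * Ck i) ^ k, ?_, ?_⟩
  · intro k
    have h1 : 0 ≤ ∑ i ∈ Finset.range (k + 1), M i := Finset.sum_nonneg fun i _ => hM i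
    have h2 : 0 ≤ ∑ i ∈ Finset.range (k + 1), (1 + C) * Ck i :=
      Finset.sum_nonneg fun i _ => mul_nonneg (by linarith) (hCk i)
    positivity
  intro t ht ht' h A κ' hκ hh hDh hA hA1 hDA hAk hst
  have htle1 : t ≤ 1 := (ht'.le.trans (min_le_left _ _)).trans (min_le_left _ _)
  have htC : C * t ≤ 1 := by
    have h1 : t ≤ 1 / (C + 1) := (ht'.le.trans (min_le_left _ _)).trans (min_le_right _ _)
    have h2 : (C + 1) * t ≤ 1 := by
      rw [le_div_iff₀ (by positivity)] at h1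
      linarith
    nlinarith
  set s : ℝ := t ^ θ with hs
  have hs0 : 0 < s := Real.rpow_pos_of_pos ht _
  have hs1 : s ≤ 1 := Real.rpow_le_one ht.le htle1 hθ.le
  have hts : t ≤ s := by
    have := Real.rpow_le_rpow_of_exponent_ge ht htle1 hθ1
    rwa [Real.rpow_one] at this
  have hsm : s < m := by
    have h1 : t < m ^ (1 / θ) := lt_of_lt_of_le ht' (min_le_right _ _)
    have h2 : t ^ θ < (m ^ (1 / θ)) ^ θ := Real.rpow_lt_rpow ht.le h1 hθ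
    rwa [← Real.rpow_mul hm0.le, one_div, inv_mul_cancel₀ hθ.ne', Real.rpow_one] at h2
  have hsm' : (C1 + C2 + C + 1) * s < min e eJ := by
    have h1 : s < min e eJ / (C1 + C2 + C + 1) := hsm
    rw [lt_div_iff₀ (by positivity)] at h1
    linarith
  have hsC1 : C1 * s < e := by
    have := min_le_left e eJ
    nlinarith
  have hsC : C * s < e := by
    have := min_le_left e eJ
    nlinarith
  have hsC2 : C2 * s < eJ := by
    have := min_le_right e eJ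
    nlinarith
  have ht1θ : t ^ (1 + θ) = t * s := by
    rw [Real.rpow_add ht, Real.rpow_one]
  have hone : ‖(1 : E →L[ℝ] E)‖ ≤ 1 := ContinuousLinearMap.norm_id_le
  have hκn : ‖κ'‖ ≤ 1 + C := by
    have h1 : ‖κ'‖ ≤ ‖κ' - 1‖ + ‖(1 : E →L[ℝ] E)‖ := by
      have := norm_add_le (κ' - 1) (1 : E →L[ℝ] E)
      simpa using this
    have h2 : C * s ≤ C * 1 := mul_le_mul_of_nonneg_left hs1 hC
    linarith
  have hsub12 : ball (0 : E) 1 ⊆ ball 0 2 := ball_subset_ball (by norm_num)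
  have hκA : ∀ y ∈ ball (0 : E) 2, ‖κ' * A y - 1‖ ≤ C1 * s := by
    intro y hy
    have h1 : κ' * A y - 1 = (κ' - 1) * (A y - 1) + (κ' - 1) + (A y - 1) := by noncomm_ring
    rw [h1]
    have h2 : ‖(κ' - 1) * (A y - 1)‖ ≤ (C * s) * (C * 1) := by
      refine (norm_mul_le _ _).trans ?_
      apply mul_le_mul hκ _ (norm_nonneg _) (by positivity)
      exact (hA1 y hy).trans (mul_le_mul_of_nonneg_left hs1 hC)
    have h3 := norm_add_le ((κ' - 1) * (A y - 1) + (κ' - 1)) (A y - 1)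
    have h4 := norm_add_le ((κ' - 1) * (A y - 1)) (κ' - 1)
    have h5 := hA1 y hy
    rw [hC1]
    nlinarith
  have hhx : ∀ x ∈ ball (0 : E) 1, h x ∈ ball (0 : E) 2 := by
    intro x hx
    have h1 := hh x hx
    have h2 : ‖x‖ < 1 := mem_ball_zero_iff.1 hx
    rw [mem_ball_zero_iff]
    have h3 : ‖h x‖ ≤ ‖h x - x‖ + ‖x‖ := by
      have := norm_add_le (h x - x) x
      simpa using this
    linarith
  refine ⟨fun x => -lg (κ' * A x), ?_, ?_, ?_⟩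
  · have h1 : ContDiffOn ℝ ∞ (fun x => κ' * A x) (ball 0 1) :=
      (ContinuousLinearMap.mul ℝ (E →L[ℝ] E) κ').contDiff.comp_contDiffOn (hA.mono hsub12)
    have h2 : ContDiffOn ℝ ∞ (lg : (E →L[ℝ] E) → (E →L[ℝ] E)) (ball 1 e) :=
      hcd.of_le le_top
    refine (h2.comp h1 ?_).neg
    intro x hx
    rw [mem_ball_iff_norm]
    exact (hκA x (hsub12 hx)).trans_lt hsC1
  · intro k x hx
    have h1 : ContDiffOn ℝ ∞ (fun x => κ' * A x) (ball 0 1) :=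
      (ContinuousLinearMap.mul ℝ (E →L[ℝ] E) κ').contDiff.comp_contDiffOn (hA.mono hsub12)
    have h2 : ContDiffOn ℝ ∞ (lg : (E →L[ℝ] E) → (E →L[ℝ] E)) (ball 1 e) :=
      hcd.of_le le_top
    have h3 : MapsTo (fun x => κ' * A x) (ball (0 : E) 1) (ball 1 e) := by
      intro x hx
      rw [mem_ball_iff_norm]
      exact (hκA x (hsub12 hx)).trans_lt hsC1
    have h4 := norm_iter_comp isOpen_ball isOpen_ball h2 h1 h3 M (fun i => (1 + C) * Ck i)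
      (fun i => mul_nonneg (by linarith) (hCk i)) hM hMk (fun i y hy => by
        refine (norm_iter_mul_left isOpen_ball κ' hA i (hsub12 hy)).trans ?_
        exact mul_le_mul hκn (hAk i y (hsub12 hy)) (norm_nonneg _) (by linarith)) k hx
    have h5 : (fun x => -lg (κ' * A x)) = -((lg : (E →L[ℝ] E) → (E →L[ℝ] E)) ∘ fun x => κ' * A x) := rfl
    rw [h5, iteratedFDeriv_neg_apply, norm_neg]
    exact h4
  · intro x hx
    have hx2 := hsub12 hx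
    have hX1 : ‖κ' * A (h x) - 1‖ ≤ C1 * s := hκA _ (hhx x hx)
    have hY := hDh x hx
    have hYs : ‖fderiv ℝ h x - 1‖ ≤ C * s := hY.trans (mul_le_mul_of_nonneg_left hts hC)
    have hg : ‖κ' * A (h x) * fderiv ℝ h x - 1‖ < eJ := by
      have h1 : κ' * A (h x) * fderiv ℝ h x - 1 = (κ' * A (h x) - 1) * (fderiv ℝ h x - 1) +
          (κ' * A (h x) - 1) + (fderiv ℝ h x - 1) := by noncomm_ring
      rw [h1]
      have h2 : ‖(κ' * A (h x) - 1) * (fderiv ℝ h x - 1)‖ ≤ (C1 * s) * (C * 1) := by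
        refine (norm_mul_le _ _).trans ?_
        apply mul_le_mul hX1 _ (norm_nonneg _) (by positivity)
        exact hYs.trans (mul_le_mul_of_nonneg_left hs1 hC)
      have h3 := norm_add_le ((κ' * A (h x) - 1) * (fderiv ℝ h x - 1) + (κ' * A (h x) - 1))
        (fderiv ℝ h x - 1)
      have h4 := norm_add_le ((κ' * A (h x) - 1) * (fderiv ℝ h x - 1)) (κ' * A (h x) - 1)
      have h5 : C1 * s * (C * 1) + C1 * s + C * s = C2 * s := by rw [hC2]; ring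
      linarith
    refine ⟨lg (κ' * A (h x) * fderiv ℝ h x), hJm _ hg (hst x hx), ?_⟩
    have hX1b : κ' * A (h x) ∈ ball (1 : E →L[ℝ] E) e := by
      rw [mem_ball_iff_norm]; exact hX1.trans_lt hsC1
    have hX0b : κ' * A x ∈ ball (1 : E →L[ℝ] E) e := by
      rw [mem_ball_iff_norm]; exact (hκA x hx2).trans_lt hsC1
    have hYb : fderiv ℝ h x ∈ ball (1 : E →L[ℝ] E) e := by
      rw [mem_ball_iff_norm]; exact hYs.trans_lt hsC
    have e1 := hq1 _ hYb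
    have e2 := hq2 _ hX0b _ hX1b
    have e3 := hq3 _ hX1b _ hYb
    have hAA : ‖A x - A (h x)‖ ≤ C * s * (C * t) := by
      have h1 := (convex_ball (0 : E) 2).norm_image_sub_le_of_norm_fderiv_le
        (f := A) (C := C * s) (fun y hy => (hA.contDiffAt (isOpen_ball.mem_nhds hy)).differentiableAt
          (by simp)) hDA (hhx x hx) hx2
      refine h1.trans ?_
      apply mul_le_mul_of_nonneg_left _ (by positivity)
      rw [norm_sub_rev]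
      exact hh x hx
    have hX01 : ‖κ' * A x - κ' * A (h x)‖ ≤ (1 + C) * (C * s * (C * t)) := by
      rw [← mul_sub]
      exact (norm_mul_le _ _).trans (mul_le_mul hκn hAA (norm_nonneg _) (by linarith))
    have hdec : fderiv ℝ h x - 1 - (-lg (κ' * A x)) - lg (κ' * A (h x) * fderiv ℝ h x) =
        -(lg (fderiv ℝ h x) - (fderiv ℝ h x - 1)) + (lg (κ' * A x) - lg (κ' * A (h x))) -
        (lg (κ' * A (h x) * fderiv ℝ h x) - lg (κ' * A (h x)) - lg (fderiv ℝ h x)) := by abel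
    have hfin : ‖fderiv ℝ h x - 1 - (-lg (κ' * A x)) - lg (κ' * A (h x) * fderiv ℝ h x)‖ ≤
        Cl * ‖fderiv ℝ h x - 1‖ ^ 2 + Cl * ‖κ' * A x - κ' * A (h x)‖ +
        Cl * ‖κ' * A (h x) - 1‖ * ‖fderiv ℝ h x - 1‖ := by
      rw [hdec]
      refine (norm_sub_le _ _).trans (add_le_add ((norm_add_le _ _).trans (add_le_add ?_ e2)) e3)
      rw [norm_neg]; exact e1
    refine hfin.trans ?_
    rw [ht1θ]
    have f1 : Cl * ‖fderiv ℝ h x - 1‖ ^ 2 ≤ Cl * (C ^ 2) * (t * s) := by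
      have h1 : ‖fderiv ℝ h x - 1‖ ^ 2 ≤ (C * t) * (C * s) := by
        rw [sq]
        exact mul_le_mul hY hYs (norm_nonneg _) (by positivity)
      calc Cl * ‖fderiv ℝ h x - 1‖ ^ 2 ≤ Cl * ((C * t) * (C * s)) :=
            mul_le_mul_of_nonneg_left h1 hCl
        _ = Cl * (C ^ 2) * (t * s) := by ring
    have f2 : Cl * ‖κ' * A x - κ' * A (h x)‖ ≤ Cl * ((1 + C) * (C * C)) * (t * s) := by
      calc Cl * ‖κ' * A x - κ' * A (h x)‖ ≤ Cl * ((1 + C) * (C * s * (C * t))) :=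
            mul_le_mul_of_nonneg_left hX01 hCl
        _ = Cl * ((1 + C) * (C * C)) * (t * s) := by ring
    have f3 : Cl * ‖κ' * A (h x) - 1‖ * ‖fderiv ℝ h x - 1‖ ≤ Cl * (C1 * C) * (t * s) := by
      have h1 : ‖κ' * A (h x) - 1‖ * ‖fderiv ℝ h x - 1‖ ≤ (C1 * s) * (C * t) :=
        mul_le_mul hX1 hY (norm_nonneg _) (by positivity)
      calc Cl * ‖κ' * A (h x) - 1‖ * ‖fderiv ℝ h x - 1‖ =
            Cl * (‖κ' * A (h x) - 1‖ * ‖fderiv ℝ h x - 1‖) := by ring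
        _ ≤ Cl * ((C1 * s) * (C * t)) := mul_le_mul_of_nonneg_left h1 hCl
        _ = Cl * (C1 * C) * (t * s) := by ring
    have f4 : (Cl * (C ^ 2) + Cl * ((1 + C) * (C * C)) + Cl * (C1 * C)) * (t * s) =
        Cl * (C ^ 2) * (t * s) + Cl * ((1 + C) * (C * C)) * (t * s) + Cl * (C1 * C) * (t * s) := by
      ring
    rw [f4]
    linarith

/-- the logarithm of an element of the stabiliser close to `1` lies in the stabiliser algebra -/
theorem lg_mem_J : ∃ e : ℝ, 0 < e ∧ ∀ g : E →L[ℝ] E, ‖g - 1‖ < e →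
    ∀ S : Submodule ℝ (E →L[ℝ] E →L[ℝ] ℝ), H61.Stab S g → lg g ∈ H61.J S := by
  haveI : CompleteSpace E := FiniteDimensional.complete ℝ E
  rcases subsingleton_or_nontrivial E with hE | hE
  · refine ⟨1, one_pos, fun g _ S _ s hs => ⟨0, S.zero_mem, fun u w => ?_⟩⟩
    have h1 : u = 0 := Subsingleton.elim _ _
    have h2 : w = 0 := Subsingleton.elim _ _
    rw [h1, h2]
    simp
  · have h1 : ∀ᶠ g in 𝓝 (1 : E →L[ℝ] E), ‖lg g‖ < 1 / 16 := by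
      have h2 : ContinuousAt (fun g : E →L[ℝ] E => ‖lg g‖) 1 :=
        (lg_contDiffAt (𝔸 := E →L[ℝ] E)).continuousAt.norm
      have h3 : ‖lg (1 : E →L[ℝ] E)‖ < 1 / 16 := by rw [lg_one, norm_zero]; norm_num
      exact h2.eventually_lt continuousAt_const h3
    obtain ⟨e, he, hb⟩ := Metric.eventually_nhds_iff_ball.1 (h1.and (exp_lg (𝔸 := E →L[ℝ] E)))
    refine ⟨e, he, fun g hg S hS => ?_⟩
    have h4 := hb g (by rw [mem_ball_iff_norm]; exact hg)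
    apply H61.mem_J_of_exp h4.1.le
    rw [h4.2]
    exact hS

/-- **SYS**, with 61's stabiliser and algebra -/
theorem sysJ (S : Submodule ℝ (E →L[ℝ] E →L[ℝ] ℝ)) (C θ : ℝ) (Ck : ℕ → ℝ) (hC : 0 ≤ C)
    (hCk : ∀ k, 0 ≤ Ck k) (hθ : 0 < θ) (hθ1 : θ ≤ 1) :
    ∃ t1 : ℝ, 0 < t1 ∧ t1 ≤ 1 ∧ ∃ C' : ℝ, 0 ≤ C' ∧ ∃ Ck' : ℕ → ℝ, (∀ k, 0 ≤ Ck' k) ∧
      ∀ t, 0 < t → t < t1 → ∀ (h u : E → E) (A : E → (E →L[ℝ] E)) (κ' : E →L[ℝ] E),
        ‖κ' - 1‖ ≤ C * t ^ θ →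
        DifferentiableOn ℝ h (ball 0 1) →
        (∀ x ∈ ball (0 : E) 1, ‖h x - x‖ ≤ C * t) →
        (∀ x ∈ ball (0 : E) 1, ‖h x - x - t • u x‖ ≤ C * t ^ (1 + θ)) →
        (∀ x ∈ ball (0 : E) 1, ‖fderiv ℝ h x - 1‖ ≤ C * t) →
        ContDiffOn ℝ ∞ A (ball 0 2) →
        (∀ x ∈ ball (0 : E) 2, ‖A x - 1‖ ≤ C * t ^ θ) →
        (∀ x ∈ ball (0 : E) 2, ‖fderiv ℝ A x‖ ≤ C * t ^ θ) →
        (∀ k, ∀ x ∈ ball (0 : E) 2, ‖iteratedFDeriv ℝ k A x‖ ≤ Ck k) →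
        (∀ x ∈ ball (0 : E) 1, H61.Stab S (κ' * A (h x) * fderiv ℝ h x)) →
        ∃ F : E → (E →L[ℝ] E), DifferentiableOn ℝ h (ball 0 1) ∧
          (∀ x ∈ ball (0 : E) 1, ‖fderiv ℝ h x‖ ≤ C') ∧ ContDiffOn ℝ ∞ F (ball 0 1) ∧
          (∀ k, ∀ x ∈ ball (0 : E) 1, ‖iteratedFDeriv ℝ k F x‖ ≤ Ck' k) ∧
          (∀ x ∈ ball (0 : E) 1, ‖h x - x - t • u x‖ ≤ C' * t ^ (1 + θ)) ∧
          (∀ x ∈ ball (0 : E) 1, ∃ Y ∈ H61.J S,
            ‖fderiv ℝ h x - ContinuousLinearMap.id ℝ E - F x - Y‖ ≤ C' * t ^ (1 + θ)) := by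
  obtain ⟨eJ, heJ, hJ⟩ := lg_mem_J (E := E)
  obtain ⟨t1, ht1, ht11, C', hC', Ck', hCk', hs⟩ := sys S (H61.J S)
    ⟨eJ, heJ, fun g hg hS => hJ g hg S hS⟩ C θ Ck hC hCk hθ hθ1
  refine ⟨t1, ht1, ht11, C' + C + 1, by positivity, Ck', hCk', ?_⟩
  intro t ht ht' h u A κ' hκ hd hh hu hDh hA hA1 hDA hAk hst
  obtain ⟨F, hF1, hF2, hF3⟩ := hs t ht ht' h A κ' hκ hh hDh hA hA1 hDA hAk hst
  have htp : 0 ≤ t ^ (1 + θ) := Real.rpow_nonneg ht.le _
  refine ⟨F, hd, ?_, hF1, hF2, ?_, ?_⟩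
  · intro x hx
    have h1 := hDh x hx
    have h2 : ‖fderiv ℝ h x‖ ≤ ‖fderiv ℝ h x - 1‖ + ‖(1 : E →L[ℝ] E)‖ := by
      have := norm_add_le (fderiv ℝ h x - 1) (1 : E →L[ℝ] E)
      simpa using this
    have h3 : ‖(1 : E →L[ℝ] E)‖ ≤ 1 := ContinuousLinearMap.norm_id_le
    have h4 : C * t ≤ C * 1 := mul_le_mul_of_nonneg_left (by linarith) hC
    linarith
  · intro x hx
    refine (hu x hx).trans (mul_le_mul_of_nonneg_right ?_ htp)
    linarith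
  · intro x hx
    obtain ⟨j, hj, hj'⟩ := hF3 x hx
    refine ⟨j, hj, hj'.trans (mul_le_mul_of_nonneg_right ?_ htp)⟩
    linarith

end Vale.Agent.P207.H376
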