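import Vale.Agent.P207.H376.Sys
import Vale.Agent.P207.H253.Ell3

/-! Steps 5 combined: holonomies near the identity whose derivatives lie in the stabiliser give
either smoothness of `u` or a rank one element of the stabiliser algebra. -/

set_option linter.all false

namespace Vale.Agent.P207.H376

open Set Filter Topology Metric
open scoped ContDiff Nat

variable {E : Type*} [NormedAddCommGroup E] [InnerProductSpace ℝ E] [FiniteDimensional ℝ E]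

theorem ellJ (S : Submodule ℝ (E →L[ℝ] E →L[ℝ] ℝ)) {u : E → E} (hu : ContinuousOn u (ball 0 1))
    {C θ t₀ : ℝ} {Ck : ℕ → ℝ} (hC : 0 ≤ C) (hub : ∀ x ∈ ball (0 : E) 1, ‖u x‖ ≤ C) (hθ : 0 < θ)
    (ht₀ : 0 < t₀)
    (hS : ∀ t, 0 < t → t < t₀ → ∃ (h : E → E) (A : E → (E →L[ℝ] E)) (κ' : E →L[ℝ] E),
      DifferentiableOn ℝ h (ball 0 1) ∧
      (∀ x ∈ ball (0 : E) 1, ‖h x - x - t • u x‖ ≤ C * t ^ (1 + θ)) ∧
      (∀ x ∈ ball (0 : E) 1, ‖fderiv ℝ h x - 1‖ ≤ C * t) ∧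
      ContDiffOn ℝ ∞ A (ball 0 2) ∧
      (∀ x ∈ ball (0 : E) 2, ‖A x - 1‖ ≤ C * t ^ θ) ∧
      (∀ x ∈ ball (0 : E) 2, ‖fderiv ℝ A x‖ ≤ C * t ^ θ) ∧
      (∀ k, ∀ x ∈ ball (0 : E) 2, ‖iteratedFDeriv ℝ k A x‖ ≤ Ck k) ∧
      κ' * (A (h 0) * fderiv ℝ h 0) = 1 ∧
      ∀ x ∈ ball (0 : E) 1, H61.Stab S (κ' * A (h x) * fderiv ℝ h x)) :
    ContDiffOn ℝ ∞ u (ball 0 1) ∨ ∃ ζ w : E, ζ ≠ 0 ∧ w ≠ 0 ∧ H253.rk ζ w ∈ H61.J S := by
  by_cases hJ : ∀ ζ w : E, ζ ≠ 0 → w ≠ 0 → H253.rk ζ w ∉ H61.J S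
  swap
  · right
    push Not at hJ
    exact hJ
  left
  letI : MeasurableSpace E := borel E
  haveI : BorelSpace E := ⟨rfl⟩
  -- exponent at most one
  set η : ℝ := min θ 1 with hη
  have hη0 : 0 < η := lt_min hθ one_pos
  have hη1 : η ≤ 1 := min_le_right _ _
  have hηθ : η ≤ θ := min_le_left _ _
  set D : ℝ := 8 * (C + 1) ^ 2 with hD
  have hD0 : 0 ≤ D := by positivity
  have hCD : C ≤ D := by rw [hD]; nlinarith
  have hCD2 : 2 * C ≤ D := by rw [hD]; nlinarith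
  obtain ⟨t1, ht1, ht11, C', hC', Ck', hCk', hs⟩ := sysJ (E := E) S D η (fun k => |Ck k|) hD0
    (fun k => abs_nonneg _) hη0 hη1
  -- smallness for the inverse of κ
  set t2 : ℝ := min (min t1 t₀) (min 1 (1 / (4 * (C + 1) ^ 2)) ^ (1 / η)) with ht2
  have ht20 : 0 < t2 := by
    apply lt_min (lt_min ht1 ht₀)
    apply Real.rpow_pos_of_pos
    apply lt_min one_pos
    positivity
  refine H253.ell (J := H61.J S) (θ := η) (t₀ := t2) (C := C') (Ck := Ck') isOpen_ball hu hJ hη0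
    ht20 hC' ?_
  intro t ht ht'
  have htt1 : t < t1 := (ht'.trans_le (min_le_left _ _)).trans_le (min_le_left _ _)
  have htt0 : t < t₀ := (ht'.trans_le (min_le_left _ _)).trans_le (min_le_right _ _)
  have htle1 : t ≤ 1 := htt1.le.trans ht11
  obtain ⟨h, A, κ', hd, hu', hDh, hA, hA1, hDA, hAk, hκ, hst⟩ := hS t ht htt0
  set s : ℝ := t ^ η with hsdef
  have hs0 : 0 < s := Real.rpow_pos_of_pos ht _
  have hθη : t ^ θ ≤ s := Real.rpow_le_rpow_of_exponent_ge ht htle1 hηθ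
  have hθη1 : t ^ (1 + θ) ≤ t ^ (1 + η) :=
    Real.rpow_le_rpow_of_exponent_ge ht htle1 (by linarith)
  have hts : t ≤ s := by
    have := Real.rpow_le_rpow_of_exponent_ge ht htle1 hη1
    rwa [Real.rpow_one] at this
  have hs1 : s ≤ 1 := Real.rpow_le_one ht.le htle1 hη0.le
  have hsq : 4 * (C + 1) ^ 2 * s ≤ 1 := by
    have h1 : t ≤ min 1 (1 / (4 * (C + 1) ^ 2)) ^ (1 / η) := ht'.le.trans (min_le_right _ _)
    have h0 : 0 < min 1 (1 / (4 * (C + 1) ^ 2)) := lt_min one_pos (by positivity)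
    have h2 : t ^ η ≤ (min 1 (1 / (4 * (C + 1) ^ 2)) ^ (1 / η)) ^ η :=
      Real.rpow_le_rpow ht.le h1 hη0.le
    rw [← Real.rpow_mul h0.le, one_div_mul_cancel hη0.ne', Real.rpow_one] at h2
    have h3 : s ≤ 1 / (4 * (C + 1) ^ 2) := h2.trans (min_le_right _ _)
    rwa [le_div_iff₀ (by positivity), mul_comm] at h3
  have h0m : (0 : E) ∈ ball (0 : E) 1 := mem_ball_self one_pos
  have hhx : ∀ x ∈ ball (0 : E) 1, ‖h x - x‖ ≤ 2 * C * t := by
    intro x hx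
    have h1 := hu' x hx
    have h2 : t ^ (1 + θ) ≤ t := by
      have := Real.rpow_le_rpow_of_exponent_ge ht htle1 (by linarith : (1 : ℝ) ≤ 1 + θ)
      rwa [Real.rpow_one] at this
    have h3 : ‖h x - x‖ ≤ ‖h x - x - t • u x‖ + ‖t • u x‖ := by
      have := norm_add_le (h x - x - t • u x) (t • u x)
      simpa using this
    have h4 : ‖t • u x‖ ≤ t * C := by
      rw [norm_smul, Real.norm_of_nonneg ht.le]
      exact mul_le_mul_of_nonneg_left (hub x hx) ht.le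
    have h5 : C * t ^ (1 + θ) ≤ C * t := mul_le_mul_of_nonneg_left h2 hC
    linarith
  have h0in : h 0 ∈ ball (0 : E) 2 := by
    have h1 := hhx 0 h0m
    rw [mem_ball_zero_iff]
    rw [sub_zero] at h1
    have h2 : 2 * C * t ≤ 2 * C * s := mul_le_mul_of_nonneg_left hts (by positivity)
    have h3 : 2 * C * s ≤ 4 * (C + 1) ^ 2 * s := mul_le_mul_of_nonneg_right (by nlinarith) hs0.le
    linarith
  have hone : ‖(1 : E →L[ℝ] E)‖ ≤ 1 := ContinuousLinearMap.norm_id_le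
  have hκ1 : ‖A (h 0) * fderiv ℝ h 0 - 1‖ ≤ 2 * (C + 1) ^ 2 * s := by
    have h1 : A (h 0) * fderiv ℝ h 0 - 1 = (A (h 0) - 1) * (fderiv ℝ h 0 - 1) + (A (h 0) - 1) +
        (fderiv ℝ h 0 - 1) := by noncomm_ring
    have h2 : ‖A (h 0) - 1‖ ≤ C * s := (hA1 _ h0in).trans (mul_le_mul_of_nonneg_left hθη hC)
    have h3 : ‖fderiv ℝ h 0 - 1‖ ≤ C * s := (hDh 0 h0m).trans (mul_le_mul_of_nonneg_left hts hC)
    have h4 : ‖(A (h 0) - 1) * (fderiv ℝ h 0 - 1)‖ ≤ (C * s) * (C * 1) := by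
      refine (norm_mul_le _ _).trans ?_
      apply mul_le_mul h2 _ (norm_nonneg _) (by positivity)
      exact h3.trans (mul_le_mul_of_nonneg_left hs1 hC)
    rw [h1]
    have h5 := norm_add_le ((A (h 0) - 1) * (fderiv ℝ h 0 - 1) + (A (h 0) - 1)) (fderiv ℝ h 0 - 1)
    have h6 := norm_add_le ((A (h 0) - 1) * (fderiv ℝ h 0 - 1)) (A (h 0) - 1)
    have h7 : C * s * (C * 1) + C * s + C * s ≤ 2 * (C + 1) ^ 2 * s := by nlinarith
    linarith
  have hκ' : ‖κ' - 1‖ ≤ D * s := by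
    set K := A (h 0) * fderiv ℝ h 0 with hK
    have h1 : κ' - 1 = -(κ' - 1) * (K - 1) - (K - 1) := by
      have : -(κ' - 1) * (K - 1) - (K - 1) = -(κ' * K) + κ' := by noncomm_ring
      rw [this, hκ]; abel
    have h2 : ‖κ' - 1‖ ≤ ‖κ' - 1‖ * ‖K - 1‖ + ‖K - 1‖ := by
      calc ‖κ' - 1‖ = ‖-(κ' - 1) * (K - 1) - (K - 1)‖ := by rw [← h1]
        _ ≤ ‖-(κ' - 1) * (K - 1)‖ + ‖K - 1‖ := norm_sub_le _ _
        _ ≤ ‖κ' - 1‖ * ‖K - 1‖ + ‖K - 1‖ := by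
            have := norm_mul_le (-(κ' - 1)) (K - 1)
            rw [norm_neg] at this
            linarith
    have h3 : ‖K - 1‖ ≤ 1 / 2 := by
      have : 2 * (C + 1) ^ 2 * s = (4 * (C + 1) ^ 2 * s) / 2 := by ring
      linarith
    have h4 : ‖κ' - 1‖ * ‖K - 1‖ ≤ ‖κ' - 1‖ * (1 / 2) := mul_le_mul_of_nonneg_left h3 (norm_nonneg _)
    have h5 : ‖κ' - 1‖ ≤ 2 * ‖K - 1‖ := by linarith
    have h6 : D * s = 8 * (C + 1) ^ 2 * s := rfl
    have h7 : 0 ≤ (C + 1) ^ 2 * s := by positivity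
    rw [h6]
    linarith
  obtain ⟨F, e1, e2, e3, e4, e5, e6⟩ := hs t ht htt1 h u A κ' hκ' hd
    (fun x hx => (hhx x hx).trans (mul_le_mul_of_nonneg_right hCD2 ht.le))
    (fun x hx => (hu' x hx).trans (mul_le_mul hCD hθη1 (Real.rpow_nonneg ht.le _) hD0))
    (fun x hx => (hDh x hx).trans (mul_le_mul_of_nonneg_right hCD ht.le)) hA
    (fun x hx => (hA1 x hx).trans (mul_le_mul hCD hθη (Real.rpow_nonneg ht.le _) hD0))
    (fun x hx => (hDA x hx).trans (mul_le_mul hCD hθη (Real.rpow_nonneg ht.le _) hD0))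
    (fun k x hx => (hAk k x hx).trans (le_abs_self _)) hst
  exact ⟨h, F, e1, e2, e3, e4, e5, e6⟩

end Vale.Agent.P207.H376
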