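import Vale.Agent.P207.H376.Sys2

/-! L-GLUE: from the data in the affine coordinate (generating function, holonomy in the coordinate
`q`, affine charts) to the hypotheses of `ellJ2`. -/

set_option linter.all false

namespace Vale.Agent.P207.H376

open Set Filter Topology Metric Asymptotics
open scoped ContDiff

variable {E : Type*} [NormedAddCommGroup E] [InnerProductSpace ℝ E] [FiniteDimensional ℝ E]

/-- an inner function with a differentiable composition is differentiable -/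
theorem hasFDerivAt_of_comp {f g : E → E} {L L' D : E →L[ℝ] E} {x : E} (hL : L' * L = 1)
    (hf : HasFDerivAt f L (g x)) (hg : ContinuousAt g x)
    (hO : (fun y => g y - g x) =O[𝓝 x] (fun y => f (g y) - f (g x)))
    (h : HasFDerivAt (fun y => f (g y)) D x) : HasFDerivAt g (L' * D) x := by
  have h1 : (fun y => f (g y) - f (g x) - L (g y - g x)) =o[𝓝 x] (fun y => g y - g x) :=
    hf.isLittleO.comp_tendsto hg
  have h2 : (fun y => f (g y) - f (g x)) =O[𝓝 x] (fun y => y - x) := h.isBigO_sub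
  have h3 : (fun y => f (g y) - f (g x) - D (y - x)) =o[𝓝 x] (fun y => y - x) := h.isLittleO
  have h4 : (fun y => f (g y) - f (g x) - L (g y - g x)) =o[𝓝 x] (fun y => y - x) :=
    h1.trans_isBigO (hO.trans h2)
  have h5 : (fun y => L' ((f (g y) - f (g x) - D (y - x)) - (f (g y) - f (g x) - L (g y - g x))))
      =o[𝓝 x] (fun y => y - x) :=
    (L'.isBigO_comp _ _).trans_isLittleO (h3.sub h4)
  refine HasFDerivAt.of_isLittleO (h5.congr_left fun y => ?_)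
  have h6 : ∀ v, L' (L v) = v := fun v => by
    have := congrArg (fun T : E →L[ℝ] E => T v) hL
    simpa using this
  have h7 : (f (g y) - f (g x) - D (y - x)) - (f (g y) - f (g x) - L (g y - g x)) =
      L (g y - g x) - D (y - x) := by abel
  rw [h7, map_sub L', h6]
  rfl

/-- the holonomy in the coordinate `q` is differentiable, since it is so in the affine charts -/
theorem comp_der {Aq Hq hh : E → E} {a b c : ℝ} (ha : 0 ≤ a) (hAs : ContDiffOn ℝ ∞ Aq (ball 0 1))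
    (hfg : ∀ y ∈ ball (0 : E) 1, ‖fderiv ℝ (fun q => Aq q - q) y‖ ≤ 1 / 2)
    (hfg2 : ∀ y ∈ ball (0 : E) 1, ‖fderiv ℝ (fderiv ℝ (fun q => Aq q - q)) y‖ ≤ a)
    (hHm : ∀ q ∈ ball (0 : E) (1 / 2), Hq q ∈ ball (0 : E) 1)
    (hHB : ∀ q ∈ ball (0 : E) (1 / 2), ‖Hq q - q‖ ≤ b)
    (hH : ∀ q ∈ ball (0 : E) (1 / 2), hh q = Aq (Hq q))
    (hhd : ∀ q ∈ ball (0 : E) (1 / 2), DifferentiableAt ℝ hh q ∧ ‖fderiv ℝ hh q - fderiv ℝ Aq q‖ ≤ c) :
    ∀ q ∈ ball (0 : E) (1 / 2), DifferentiableAt ℝ Hq q ∧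
      (fderiv ℝ (fun q => Aq q - q) (Hq q) + 1) * fderiv ℝ Hq q = fderiv ℝ hh q ∧
      ‖fderiv ℝ Hq q - 1‖ ≤ 2 * (c + a * b) := by
  have hsub : ball (0 : E) (1 / 2) ⊆ ball 0 1 := ball_subset_ball (by norm_num)
  set g : E → E := fun q => Aq q - q with hg
  have hgs : ContDiffOn ℝ ∞ g (ball 0 1) := hAs.sub contDiffOn_id
  have hgd : ∀ y ∈ ball (0 : E) 1, DifferentiableAt ℝ g y := fun y hy =>
    (hgs.contDiffAt (isOpen_ball.mem_nhds hy)).differentiableAt (by simp)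
  have hAd : ∀ y ∈ ball (0 : E) 1, HasFDerivAt Aq (fderiv ℝ g y + 1) y := by
    intro y hy
    have h1 : HasFDerivAt (fun q => g q + q) (fderiv ℝ g y + ContinuousLinearMap.id ℝ E) y :=
      (hgd y hy).hasFDerivAt.add (hasFDerivAt_id y)
    have h2 : (fun q => g q + q) = Aq := by
      funext q
      simp [hg]
    rwa [h2] at h1
  have hfgs : ContDiffOn ℝ ∞ (fderiv ℝ g) (ball 0 1) := by
    have := hgs.fderiv_of_isOpen isOpen_ball (m := ∞) (by simp)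
    exact this
  have hfgd : ∀ y ∈ ball (0 : E) 1, DifferentiableAt ℝ (fderiv ℝ g) y := fun y hy =>
    (hfgs.contDiffAt (isOpen_ball.mem_nhds hy)).differentiableAt (by simp)
  have hlip : ∀ y ∈ ball (0 : E) 1, ∀ y' ∈ ball (0 : E) 1, ‖y - y'‖ ≤ 2 * ‖Aq y - Aq y'‖ := by
    intro y hy y' hy'
    have h1 := (convex_ball (0 : E) 1).norm_image_sub_le_of_norm_fderiv_le
      (f := g) (C := 1 / 2) hgd hfg hy' hy
    have h2 : y - y' = (Aq y - Aq y') - (g y - g y') := by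
      simp only [hg]; abel
    have h3 : ‖y - y'‖ ≤ ‖Aq y - Aq y'‖ + ‖g y - g y'‖ := by
      have := norm_sub_le (Aq y - Aq y') (g y - g y')
      rwa [← h2] at this
    linarith
  -- the derivative of `Hq`
  have hder : ∀ q ∈ ball (0 : E) (1 / 2), ∃ D : E →L[ℝ] E, HasFDerivAt Hq D q := by
    intro q hq
    set L : E →L[ℝ] E := fderiv ℝ g (Hq q) + 1 with hL
    haveI : CompleteSpace E := FiniteDimensional.complete ℝ E
    have hL1 : ‖-fderiv ℝ g (Hq q)‖ < 1 := by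
      rw [norm_neg]
      exact (hfg _ (hHm q hq)).trans_lt (by norm_num)
    obtain ⟨L', hL'⟩ : ∃ L' : E →L[ℝ] E, L' * L = 1 := by
      refine ⟨((Units.oneSub (-fderiv ℝ g (Hq q)) hL1)⁻¹ : (E →L[ℝ] E)ˣ), ?_⟩
      have h1 : L = ((Units.oneSub (-fderiv ℝ g (Hq q)) hL1 : (E →L[ℝ] E)ˣ) : E →L[ℝ] E) := by
        rw [Units.val_oneSub, sub_neg_eq_add, hL, add_comm]
      rw [h1]
      exact Units.inv_mul _
    have hnear : ∀ᶠ y in 𝓝 q, y ∈ ball (0 : E) (1 / 2) := isOpen_ball.mem_nhds hq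
    have hO : (fun y => Hq y - Hq q) =O[𝓝 q] (fun y => Aq (Hq y) - Aq (Hq q)) := by
      refine IsBigO.of_bound 2 ?_
      filter_upwards [hnear] with y hy
      exact hlip _ (hHm y hy) _ (hHm q hq)
    have hcomp : HasFDerivAt (fun y => Aq (Hq y)) (fderiv ℝ hh q) q := by
      refine (hhd q hq).1.hasFDerivAt.congr_of_eventuallyEq ?_
      filter_upwards [hnear] with y hy
      exact (hH y hy).symm
    have hcont : ContinuousAt Hq q := by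
      have h1 : (fun y => Hq y - Hq q) =O[𝓝 q] (fun y => y - q) := hO.trans hcomp.isBigO_sub
      have h2 : Tendsto (fun y => Hq y - Hq q) (𝓝 q) (𝓝 0) := by
        refine h1.trans_tendsto ?_
        have : Tendsto (fun y : E => y - q) (𝓝 q) (𝓝 (q - q)) :=
          (continuous_id.sub continuous_const).continuousAt
        rwa [sub_self] at this
      have h3 : Tendsto (fun y => (Hq y - Hq q) + Hq q) (𝓝 q) (𝓝 (0 + Hq q)) :=
        h2.add_const _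
      rw [zero_add] at h3
      refine h3.congr fun y => ?_
      rw [sub_add_cancel]
    exact ⟨_, hasFDerivAt_of_comp hL' (hAd _ (hHm q hq)) hcont hO hcomp⟩
  have hchain : ∀ q ∈ ball (0 : E) (1 / 2), (fderiv ℝ g (Hq q) + 1) * fderiv ℝ Hq q = fderiv ℝ hh q := by
    intro q hq
    obtain ⟨D, hD⟩ := hder q hq
    have h1 : HasFDerivAt (fun y => Aq (Hq y)) ((fderiv ℝ g (Hq q) + 1).comp D) q :=
      (hAd _ (hHm q hq)).comp q hD
    have h2 : HasFDerivAt hh ((fderiv ℝ g (Hq q) + 1).comp D) q := by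
      refine h1.congr_of_eventuallyEq ?_
      filter_upwards [isOpen_ball.mem_nhds hq] with y hy
      exact hH y hy
    rw [h2.fderiv, hD.fderiv]
    rfl
  intro q hq
  refine ⟨(hder q hq).choose_spec.differentiableAt, hchain q hq, ?_⟩
  have h0 : ‖fderiv ℝ g (Hq q)‖ ≤ 1 / 2 := hfg _ (hHm q hq)
  set G := fderiv ℝ g (Hq q) with hG
  set D := fderiv ℝ Hq q with hD
  have hGD : (G + 1) * D = fderiv ℝ hh q := hchain q hq
  have h1 : D - 1 = (fderiv ℝ hh q - (G + 1)) - G * (D - 1) := by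
    rw [← hGD]; noncomm_ring
  have h2 : fderiv ℝ hh q - (G + 1) = (fderiv ℝ hh q - fderiv ℝ Aq q) + (fderiv ℝ g q - G) := by
    rw [(hAd q (hsub hq)).fderiv]; abel
  have h3 : ‖fderiv ℝ g q - G‖ ≤ a * b := by
    have h4 := (convex_ball (0 : E) 1).norm_image_sub_le_of_norm_fderiv_le
      (f := fderiv ℝ g) (C := a) hfgd hfg2 (hHm q hq) (hsub hq)
    refine h4.trans (mul_le_mul_of_nonneg_left ?_ ha)
    rw [norm_sub_rev]
    exact hHB q hq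
  have h6 : ‖fderiv ℝ hh q - (G + 1)‖ ≤ c + a * b := by
    rw [h2]
    exact (norm_add_le _ _).trans (add_le_add (hhd q hq).2 h3)
  have h10 : ‖G * (D - 1)‖ ≤ 1 / 2 * ‖D - 1‖ :=
    (norm_mul_le _ _).trans (mul_le_mul_of_nonneg_right h0 (norm_nonneg _))
  have h11 : ‖D - 1‖ ≤ ‖fderiv ℝ hh q - (G + 1)‖ + ‖G * (D - 1)‖ := by
    have := norm_sub_le (fderiv ℝ hh q - (G + 1)) (G * (D - 1))
    rwa [← h1] at this
  linarith

theorem iter_add_one {g : E → E} (hgs : ContDiffOn ℝ ∞ (fderiv ℝ g) (ball 0 1)) (k : ℕ) {q : E}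
    (hq : q ∈ ball (0 : E) 1) {c : ℝ} (hc : ‖iteratedFDeriv ℝ (k + 1) g q‖ ≤ c) :
    ‖iteratedFDeriv ℝ k (fun q => fderiv ℝ g q + (1 : E →L[ℝ] E)) q‖ ≤ c + 1 := by
  rcases Nat.eq_zero_or_pos k with hk | hk
  · subst hk
    rw [norm_iteratedFDeriv_zero]
    rw [zero_add, norm_iteratedFDeriv_one] at hc
    have h2 : ‖(1 : E →L[ℝ] E)‖ ≤ 1 := ContinuousLinearMap.norm_id_le
    exact (norm_add_le _ _).trans (add_le_add hc h2)
  · have h1 : (fun q => fderiv ℝ g q + (1 : E →L[ℝ] E)) = fderiv ℝ g + fun _ => 1 := rfl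
    have h2 : ContDiffAt ℝ k (fderiv ℝ g) q :=
      (hgs.contDiffAt (isOpen_ball.mem_nhds hq)).of_le (by exact_mod_cast le_top)
    rw [h1, iteratedFDeriv_add_apply h2 contDiffAt_const, iteratedFDeriv_const_of_ne hk.ne',
      Pi.zero_apply, add_zero, norm_iteratedFDeriv_fderiv]
    linarith

/-- the displacement of the holonomy -/
theorem disp {N0 : E → (E →L[ℝ] E)} {α : E} {C θ t : ℝ} {gr Hq : E → E} (hC : 0 ≤ C) (ht : 0 < t)
    (htle1 : t ≤ 1) (hθ : 0 < θ) (hθ1 : θ ≤ 1)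
    (hNb : ∀ q ∈ ball (0 : E) (1 / 2), ‖N0 q‖ ≤ C) (hgr0 : gr 0 = t • α)
    (hgr : ∀ q ∈ ball (0 : E) 1, DifferentiableAt ℝ gr q ∧ ‖fderiv ℝ gr q‖ ≤ C * t ^ (1 + θ))
    (hHq : ∀ q ∈ ball (0 : E) (1 / 2), ‖Hq q - q + N0 q (gr q)‖ ≤ C * t ^ 2) :
    ∀ q ∈ ball (0 : E) (1 / 2), ‖Hq q - q - t • -N0 q α‖ ≤ (C + C ^ 2) * t ^ (1 + θ) ∧
      ‖Hq q - q‖ ≤ (C + C * ‖α‖ + C ^ 2) * t := by
  have hsub : ball (0 : E) (1 / 2) ⊆ ball 0 1 := ball_subset_ball (by norm_num)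
  have ht1θ : t ^ (1 + θ) = t * t ^ θ := by rw [Real.rpow_add ht, Real.rpow_one]
  have hs0 : 0 < t ^ θ := Real.rpow_pos_of_pos ht _
  have hs1 : t ^ θ ≤ 1 := Real.rpow_le_one ht.le htle1 hθ.le
  have ht1θ' : t ^ (1 + θ) ≤ t := by rw [ht1θ]; nlinarith
  have ht2 : t ^ 2 ≤ t ^ (1 + θ) := by
    rw [← Real.rpow_natCast]
    exact Real.rpow_le_rpow_of_exponent_ge ht htle1 (by push_cast; linarith)
  have htθ0 : 0 ≤ t ^ (1 + θ) := Real.rpow_nonneg ht.le _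
  have h01 : (0 : E) ∈ ball (0 : E) 1 := mem_ball_self one_pos
  have hgr' : ∀ q ∈ ball (0 : E) 1, ‖gr q - t • α‖ ≤ C * t ^ (1 + θ) := by
    intro q hq
    have h1 := (convex_ball (0 : E) 1).norm_image_sub_le_of_norm_fderiv_le
      (fun y hy => (hgr y hy).1) (fun y hy => (hgr y hy).2) h01 hq
    rw [hgr0, sub_zero] at h1
    refine h1.trans ?_
    have h2 : ‖q‖ ≤ 1 := (mem_ball_zero_iff.1 hq).le
    have h3 : 0 ≤ C * t ^ (1 + θ) := by positivity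
    nlinarith
  intro q hq
  have hu : ‖Hq q - q - t • -N0 q α‖ ≤ (C + C ^ 2) * t ^ (1 + θ) := by
    have h1 : Hq q - q - t • -N0 q α = (Hq q - q + N0 q (gr q)) - N0 q (gr q - t • α) := by
      rw [map_sub, map_smul, smul_neg]; abel
    rw [h1]
    have h2 := hHq q hq
    have h3 : ‖N0 q (gr q - t • α)‖ ≤ C * (C * t ^ (1 + θ)) :=
      ((N0 q).le_opNorm _).trans (mul_le_mul (hNb q hq) (hgr' q (hsub hq)) (norm_nonneg _) hC)
    have h4 : C * t ^ 2 ≤ C * t ^ (1 + θ) := mul_le_mul_of_nonneg_left ht2 hC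
    have h5 := norm_sub_le (Hq q - q + N0 q (gr q)) (N0 q (gr q - t • α))
    have h6 : (C + C ^ 2) * t ^ (1 + θ) = C * t ^ (1 + θ) + C * (C * t ^ (1 + θ)) := by ring
    linarith
  refine ⟨hu, ?_⟩
  have h2 : ‖Hq q - q‖ ≤ ‖Hq q - q - t • -N0 q α‖ + ‖t • -N0 q α‖ := by
    have := norm_add_le (Hq q - q - t • -N0 q α) (t • -N0 q α)
    simpa using this
  have h3 : ‖t • -N0 q α‖ ≤ t * (C * ‖α‖) := by
    rw [norm_smul, Real.norm_of_nonneg ht.le, norm_neg]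
    exact mul_le_mul_of_nonneg_left ((N0 q).le_of_opNorm_le (hNb q hq) α) ht.le
  have h4 : (C + C ^ 2) * t ^ (1 + θ) ≤ (C + C ^ 2) * t :=
    mul_le_mul_of_nonneg_left ht1θ' (by positivity)
  linarith

theorem lglue (S : Submodule ℝ (E →L[ℝ] E →L[ℝ] ℝ)) {N0 : E → (E →L[ℝ] E)} {α : E}
    {C θ κ t₀ : ℝ} {Ck : ℕ → ℝ} (hC : 0 ≤ C) (hθ : 0 < θ) (hκ1 : κ ≤ 1) (hθ1 : θ ≤ 1) (hκ2 : 1 < 2 * κ)
    (hθκ : 1 < θ + κ) (ht₀ : 0 < t₀)
    (hN : ContinuousOn (fun q => N0 q α) (ball 0 (1 / 2))) (hNb : ∀ q ∈ ball (0 : E) (1 / 2), ‖N0 q‖ ≤ C)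
    (hS : ∀ t, 0 < t → t < t₀ → ∃ (gr hh Aq Hq : E → E) (κ' : E →L[ℝ] E),
      gr 0 = t • α ∧
      (∀ q ∈ ball (0 : E) 1, DifferentiableAt ℝ gr q ∧ ‖fderiv ℝ gr q‖ ≤ C * t ^ (1 + θ)) ∧
      ContDiffOn ℝ ∞ Aq (ball 0 1) ∧
      (∀ k, 1 ≤ k → ∀ q ∈ ball (0 : E) 1, ‖iteratedFDeriv ℝ k (fun q => Aq q - q) q‖ ≤ Ck k * t ^ θ) ∧
      (∀ q ∈ ball (0 : E) 1, hh q = Aq (Hq q) ∧ ‖Hq q - q + N0 q (gr q)‖ ≤ C * t ^ 2) ∧
      (∀ q ∈ ball (0 : E) 1, DifferentiableAt ℝ hh q ∧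
        ‖fderiv ℝ hh q - fderiv ℝ Aq q‖ ≤ C * t ^ κ) ∧
      κ' * fderiv ℝ hh 0 = 1 ∧ ∀ q ∈ ball (0 : E) (1 / 2), H61.Stab S (κ' * fderiv ℝ hh q)) :
    ContDiffOn ℝ ∞ (fun q => N0 q α) (ball 0 (1 / 2)) ∨
      ∃ ζ w : E, ζ ≠ 0 ∧ w ≠ 0 ∧ H253.rk ζ w ∈ H61.J S := by
  have hα := norm_nonneg α
  set B : ℝ := C + C * ‖α‖ + C ^ 2 with hB
  have hB0 : 0 ≤ B := by positivity
  set K : ℝ := C * ‖α‖ + C + C ^ 2 + 2 * (C + |Ck 2| * B) + |Ck 1| + |Ck 2| with hK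
  have hK1 := abs_nonneg (Ck 1)
  have hK2 := abs_nonneg (Ck 2)
  have hK0 : 0 ≤ K := by positivity
  have hKB : 0 ≤ |Ck 2| * B := by positivity
  have hCα : 0 ≤ C * ‖α‖ := by positivity
  set m : ℝ := 1 / (2 * (|Ck 1| + 1)) with hm
  have hm0 : 0 < m := by positivity
  set t1 : ℝ := min (min t₀ (1 / (4 * (B + 1)))) (min 1 (m ^ (1 / θ))) with ht1
  have ht10 : 0 < t1 :=
    lt_min (lt_min ht₀ (by positivity)) (lt_min one_pos (Real.rpow_pos_of_pos hm0 _))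
  have hsub : ball (0 : E) (1 / 2) ⊆ ball 0 1 := ball_subset_ball (by norm_num)
  have hneg : ContDiffOn ℝ ∞ (fun q => -N0 q α) (ball 0 (1 / 2)) →
      ContDiffOn ℝ ∞ (fun q => N0 q α) (ball 0 (1 / 2)) := fun h => by
    have := h.neg
    simpa only [neg_neg] using this
  refine (ellJ2 S (r := 1 / 2) (R := 1) (by norm_num) (by norm_num) (u := fun q => -N0 q α) hN.neg
    (C := K) (θ := θ) (κ := κ) (t₀ := t1) (Ck := fun k => |Ck (k + 1)| + 1) hK0 ?_ hθ hκ2 hθκ ht10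
    ?_).imp_left hneg
  · intro x hx
    rw [norm_neg]
    have h1 : ‖N0 x α‖ ≤ C * ‖α‖ :=
      (N0 x).le_of_opNorm_le (hNb x hx) α
    have : 0 ≤ C ^ 2 := sq_nonneg C
    linarith
  intro t ht ht'
  have htt0 : t < t₀ := (ht'.trans_le (min_le_left _ _)).trans_le (min_le_left _ _)
  have htB' : t < 1 / (4 * (B + 1)) := (ht'.trans_le (min_le_left _ _)).trans_le (min_le_right _ _)
  have htle1 : t ≤ 1 := (ht'.le.trans (min_le_right _ _)).trans (min_le_left _ _)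
  have htm : t ≤ m ^ (1 / θ) := (ht'.le.trans (min_le_right _ _)).trans (min_le_right _ _)
  have htB : B * t < 1 / 4 := by
    rw [lt_div_iff₀ (by positivity)] at htB'
    nlinarith
  set s : ℝ := t ^ θ with hs
  have hs0 : 0 < s := Real.rpow_pos_of_pos ht _
  have hs1 : s ≤ 1 := Real.rpow_le_one ht.le htle1 hθ.le
  have hsm : |Ck 1| * s ≤ 1 / 2 := by
    have h2 : t ^ θ ≤ (m ^ (1 / θ)) ^ θ := Real.rpow_le_rpow ht.le htm hθ.le
    rw [← Real.rpow_mul hm0.le, one_div_mul_cancel hθ.ne', Real.rpow_one] at h2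
    have h3 : s ≤ 1 / (2 * (|Ck 1| + 1)) := h2
    rw [le_div_iff₀ (by positivity)] at h3
    nlinarith
  have ht1θ : t ^ (1 + θ) = t * s := by rw [Real.rpow_add ht, Real.rpow_one]
  have ht1θ' : t ^ (1 + θ) ≤ t := by rw [ht1θ]; nlinarith
  have ht2 : t ^ 2 ≤ t ^ (1 + θ) := by
    rw [← Real.rpow_natCast]
    exact Real.rpow_le_rpow_of_exponent_ge ht htle1 (by push_cast; linarith)
  have ht2' : t ^ 2 ≤ t := by nlinarith
  have htκ : t ≤ t ^ κ := by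
    have := Real.rpow_le_rpow_of_exponent_ge ht htle1 hκ1
    rwa [Real.rpow_one] at this
  have htθ0 : 0 ≤ t ^ (1 + θ) := Real.rpow_nonneg ht.le _
  have htκ0 : 0 ≤ t ^ κ := Real.rpow_nonneg ht.le _
  obtain ⟨gr, hh, Aq, Hq, κ', hgr0, hgr, hAs, hAb, hHq, hhd, hinv, hst⟩ := hS t ht htt0
  have hdi := disp hC ht htle1 hθ hθ1 hNb hgr0 hgr (fun q hq => (hHq q (hsub hq)).2)
  have hHB : ∀ q ∈ ball (0 : E) (1 / 2), ‖Hq q - q‖ ≤ B * t := fun q hq => (hdi q hq).2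
  have hHm : ∀ q ∈ ball (0 : E) (1 / 2), Hq q ∈ ball (0 : E) 1 := by
    intro q hq
    rw [mem_ball_zero_iff]
    have h1 := hHB q hq
    have h2 : ‖q‖ < 1 / 2 := mem_ball_zero_iff.1 hq
    have h3 : ‖Hq q‖ ≤ ‖Hq q - q‖ + ‖q‖ := by
      have := norm_add_le (Hq q - q) q
      simpa using this
    linarith
  -- the affine chart
  have hfg : ∀ y ∈ ball (0 : E) 1, ‖fderiv ℝ (fun q => Aq q - q) y‖ ≤ |Ck 1| * s := by
    intro y hy
    have h1 := hAb 1 le_rfl y hy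
    rw [norm_iteratedFDeriv_one] at h1
    exact h1.trans (mul_le_mul_of_nonneg_right (le_abs_self _) hs0.le)
  have hfg2 : ∀ y ∈ ball (0 : E) 1, ‖fderiv ℝ (fderiv ℝ (fun q => Aq q - q)) y‖ ≤ |Ck 2| * s := by
    intro y hy
    have h1 := hAb 2 (by norm_num) y hy
    rw [← norm_iteratedFDeriv_fderiv, norm_iteratedFDeriv_one] at h1
    exact h1.trans (mul_le_mul_of_nonneg_right (le_abs_self _) hs0.le)
  have hcd := comp_der (Aq := Aq) (Hq := Hq) (hh := hh) (a := |Ck 2| * s) (b := B * t)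
    (c := C * t ^ κ) (by positivity) hAs (fun y hy => (hfg y hy).trans hsm) hfg2 hHm hHB
    (fun q hq => (hHq q (hsub hq)).1) (fun q hq => hhd q (hsub hq))
  set g : E → E := fun q => Aq q - q with hg
  have hgs : ContDiffOn ℝ ∞ g (ball 0 1) := hAs.sub contDiffOn_id
  have hfgs : ContDiffOn ℝ ∞ (fderiv ℝ g) (ball 0 1) := by
    have := hgs.fderiv_of_isOpen isOpen_ball (m := ∞) (by simp)
    exact this
  have hDH : ∀ q ∈ ball (0 : E) (1 / 2), ‖fderiv ℝ Hq q - 1‖ ≤ 2 * (C + |Ck 2| * B) * t ^ κ := by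
    intro q hq
    refine (hcd q hq).2.2.trans ?_
    have h1 : |Ck 2| * s * (B * t) ≤ |Ck 2| * B * t ^ κ := by
      calc |Ck 2| * s * (B * t) ≤ |Ck 2| * 1 * (B * t) := by gcongr
        _ = |Ck 2| * B * t := by ring
        _ ≤ |Ck 2| * B * t ^ κ := mul_le_mul_of_nonneg_left htκ hKB
    linarith
  have hchain : ∀ q ∈ ball (0 : E) (1 / 2), (fderiv ℝ g (Hq q) + 1) * fderiv ℝ Hq q = fderiv ℝ hh q :=
    fun q hq => (hcd q hq).2.1
  have h0h : (0 : E) ∈ ball (0 : E) (1 / 2) := mem_ball_self (by norm_num)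
  refine ⟨Hq, fun q => fderiv ℝ g q + 1, κ', ?_, ?_, ?_, ?_, ?_, ?_, ?_, ?_, ?_⟩
  · intro q hq
    exact (hcd q hq).1.differentiableWithinAt
  · intro q hq
    refine (hdi q hq).1.trans (mul_le_mul_of_nonneg_right ?_ htθ0)
    rw [hK]; linarith
  · intro q hq
    refine (hDH q hq).trans (mul_le_mul_of_nonneg_right ?_ htκ0)
    have : 0 ≤ C ^ 2 := sq_nonneg C
    rw [hK]; linarith
  · exact hfgs.add contDiffOn_const
  · intro q hq
    rw [add_sub_cancel_right]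
    refine (hfg q hq).trans (mul_le_mul_of_nonneg_right ?_ hs0.le)
    have : 0 ≤ C ^ 2 := sq_nonneg C
    rw [hK]; linarith
  · intro q hq
    rw [fderiv_add_const]
    refine (hfg2 q hq).trans (mul_le_mul_of_nonneg_right ?_ hs0.le)
    have : 0 ≤ C ^ 2 := sq_nonneg C
    rw [hK]; linarith
  · intro k q hq
    have h1 := hAb (k + 1) (by omega) q hq
    have h2 : Ck (k + 1) * t ^ θ ≤ |Ck (k + 1)| := by
      have h3 : Ck (k + 1) * s ≤ |Ck (k + 1)| * s :=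
        mul_le_mul_of_nonneg_right (le_abs_self _) hs0.le
      have h4 : |Ck (k + 1)| * s ≤ |Ck (k + 1)| * 1 :=
        mul_le_mul_of_nonneg_left hs1 (abs_nonneg _)
      linarith
    exact iter_add_one hfgs k hq (h1.trans h2)
  · rw [hchain 0 h0h]; exact hinv
  · intro q hq
    have h1 : κ' * (fderiv ℝ g (Hq q) + 1) * fderiv ℝ Hq q = κ' * fderiv ℝ hh q := by
      rw [mul_assoc, hchain q hq]
    rw [h1]
    exact hst q hq

/-- inverses near `1` -/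
theorem exists_inv_near {g : E →L[ℝ] E} (hg : ‖g - 1‖ ≤ 1 / 2) :
    ∃ g' : E →L[ℝ] E, g' * g = 1 ∧ g * g' = 1 ∧ ‖g'‖ ≤ 2 := by
  haveI : CompleteSpace E := FiniteDimensional.complete ℝ E
  have h1 : ‖(1 : E →L[ℝ] E) - g‖ < 1 := by rw [norm_sub_rev]; linarith
  set U := Units.oneSub ((1 : E →L[ℝ] E) - g) h1 with hU
  have hUv : (U : E →L[ℝ] E) = g := by rw [hU, Units.val_oneSub]; abel
  refine ⟨(↑U⁻¹ : E →L[ℝ] E), ?_, ?_, ?_⟩
  · rw [← hUv]; exact Units.inv_mul U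
  · rw [← hUv]; exact Units.mul_inv U
  · have h2 : (↑U⁻¹ : E →L[ℝ] E) = (↑U⁻¹ : E →L[ℝ] E) * (1 - g) + 1 := by
      rw [mul_sub, mul_one, ← hUv, Units.inv_mul]; abel
    have h3 : ‖(1 : E →L[ℝ] E)‖ ≤ 1 := ContinuousLinearMap.norm_id_le
    have h4 : ‖(↑U⁻¹ : E →L[ℝ] E)‖ ≤ ‖(↑U⁻¹ : E →L[ℝ] E)‖ * ‖1 - g‖ + 1 := by
      calc ‖(↑U⁻¹ : E →L[ℝ] E)‖ = ‖(↑U⁻¹ : E →L[ℝ] E) * (1 - g) + 1‖ := by rw [← h2]
        _ ≤ ‖(↑U⁻¹ : E →L[ℝ] E) * (1 - g)‖ + ‖(1 : E →L[ℝ] E)‖ := norm_add_le _ _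
        _ ≤ _ := add_le_add (norm_mul_le _ _) h3
    have h5 : ‖(↑U⁻¹ : E →L[ℝ] E)‖ * ‖1 - g‖ ≤ ‖(↑U⁻¹ : E →L[ℝ] E)‖ * (1 / 2) := by
      apply mul_le_mul_of_nonneg_left _ (norm_nonneg _)
      rw [norm_sub_rev]; exact hg
    linarith

/-- derivatives of order at least two of `L' ∘ A - id` -/
theorem iter_left {A : E → E} (hA : ContDiffOn ℝ ∞ A (ball 0 1)) (L' : E →L[ℝ] E) {j : ℕ} (hj : 1 ≤ j)
    {q : E} (hq : q ∈ ball (0 : E) 1) :
    ‖iteratedFDeriv ℝ (j + 1) (fun q => L' (A q) - q) q‖ ≤ ‖L'‖ * ‖iteratedFDeriv ℝ (j + 1) A q‖ := by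
  have hA' : ContDiffAt ℝ ∞ A q := hA.contDiffAt (isOpen_ball.mem_nhds hq)
  have h1 : (fun q => L' (A q) - q) = (fun q => L' (A q)) - fun q => q := rfl
  have h2 : ContDiffAt ℝ ((j + 1 : ℕ) : WithTop ℕ∞) (fun q => L' (A q)) q :=
    (L'.contDiff.contDiffAt.comp q hA').of_le (by exact_mod_cast le_top)
  have hid : ContDiffAt ℝ ((j + 1 : ℕ) : WithTop ℕ∞) (fun q : E => q) q := contDiffAt_id
  rw [h1, iteratedFDeriv_sub_apply h2 hid]
  have h3 : iteratedFDeriv ℝ (j + 1) (fun q : E => q) q = 0 := by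
    rw [← norm_eq_zero, ← norm_iteratedFDeriv_fderiv]
    have h4 : (fderiv ℝ fun q : E => q) = fun _ => ContinuousLinearMap.id ℝ E := by
      funext x; exact fderiv_id'
    rw [h4, iteratedFDeriv_const_of_ne (by omega : j ≠ 0), Pi.zero_apply, norm_zero]
  rw [h3, sub_zero]
  have h5 := ContinuousLinearMap.iteratedFDeriv_comp_left L' hA' (i := j + 1)
    (by exact_mod_cast le_top)
  have h6 : (fun q => L' (A q)) = L' ∘ A := rfl
  rw [h6, h5]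
  exact ContinuousLinearMap.norm_compContinuousMultilinearMap_le _ _

/-- **L-GLUE** with the first derivative of the affine chart only close to the identity -/
theorem lglue2 (S : Submodule ℝ (E →L[ℝ] E →L[ℝ] ℝ)) {N0 : E → (E →L[ℝ] E)} {α : E}
    {C θ κ t₀ : ℝ} {Ck : ℕ → ℝ} (hC : 0 ≤ C) (hθ : 0 < θ) (hκ1 : κ ≤ 1) (hθ1 : θ ≤ 1) (hκ2 : 1 < 2 * κ)
    (hθκ : 1 < θ + κ) (ht₀ : 0 < t₀)
    (hN : ContinuousOn (fun q => N0 q α) (ball 0 (1 / 2))) (hNb : ∀ q ∈ ball (0 : E) (1 / 2), ‖N0 q‖ ≤ C)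
    (hS : ∀ t, 0 < t → t < t₀ → ∃ (gr hh Aq Hq : E → E) (κ' : E →L[ℝ] E),
      gr 0 = t • α ∧
      (∀ q ∈ ball (0 : E) 1, DifferentiableAt ℝ gr q ∧ ‖fderiv ℝ gr q‖ ≤ C * t ^ (1 + θ)) ∧
      ContDiffOn ℝ ∞ Aq (ball 0 1) ∧
      (∀ q ∈ ball (0 : E) 1, ‖fderiv ℝ Aq q - 1‖ ≤ 1 / 2) ∧
      (∀ k, 2 ≤ k → ∀ q ∈ ball (0 : E) 1, ‖iteratedFDeriv ℝ k Aq q‖ ≤ Ck k * t ^ θ) ∧
      (∀ q ∈ ball (0 : E) 1, hh q = Aq (Hq q) ∧ ‖Hq q - q + N0 q (gr q)‖ ≤ C * t ^ 2) ∧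
      (∀ q ∈ ball (0 : E) 1, DifferentiableAt ℝ hh q ∧
        ‖fderiv ℝ hh q - fderiv ℝ Aq q‖ ≤ C * t ^ κ) ∧
      κ' * fderiv ℝ hh 0 = 1 ∧ ∀ q ∈ ball (0 : E) (1 / 2), H61.Stab S (κ' * fderiv ℝ hh q)) :
    ContDiffOn ℝ ∞ (fun q => N0 q α) (ball 0 (1 / 2)) ∨
      ∃ ζ w : E, ζ ≠ 0 ∧ w ≠ 0 ∧ H253.rk ζ w ∈ H61.J S := by
  refine lglue S (C := 2 * C) (θ := θ) (κ := κ) (t₀ := t₀) (Ck := fun k => 2 * (|Ck 2| + |Ck k|))
    (by positivity) hθ hκ1 hθ1 hκ2 hθκ ht₀ hN (fun q hq => (hNb q hq).trans (by linarith)) ?_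
  intro t ht ht'
  obtain ⟨gr, hh, Aq, Hq, κ', h1, h2, h3, h4, h5, h6, h7, h8, h9⟩ := hS t ht ht'
  have h01 : (0 : E) ∈ ball (0 : E) 1 := mem_ball_self one_pos
  obtain ⟨L', hL1, hL2, hL3⟩ := exists_inv_near (h4 0 h01)
  set L := fderiv ℝ Aq 0 with hL
  have hs0 : 0 ≤ t ^ θ := Real.rpow_nonneg ht.le _
  have hw0 : 0 ≤ t ^ κ := Real.rpow_nonneg ht.le _
  have hp0 : 0 ≤ t ^ (1 + θ) := Real.rpow_nonneg ht.le _
  have hAd : ∀ y ∈ ball (0 : E) 1, DifferentiableAt ℝ Aq y := fun y hy =>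
    (h3.contDiffAt (isOpen_ball.mem_nhds hy)).differentiableAt (by simp)
  have hdA : ∀ y ∈ ball (0 : E) 1, fderiv ℝ (fun q => L' (Aq q)) y = L' * fderiv ℝ Aq y := by
    intro y hy
    exact (L'.hasFDerivAt.comp y (hAd y hy).hasFDerivAt).fderiv
  have hdh : ∀ y ∈ ball (0 : E) 1, fderiv ℝ (fun q => L' (hh q)) y = L' * fderiv ℝ hh y := by
    intro y hy
    exact (L'.hasFDerivAt.comp y (h7 y hy).1.hasFDerivAt).fderiv
  have hassoc : ∀ G : E →L[ℝ] E, κ' * L * (L' * G) = κ' * G := by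
    intro G
    rw [mul_assoc, ← mul_assoc L L' G, hL2, one_mul]
  refine ⟨gr, fun q => L' (hh q), fun q => L' (Aq q), Hq, κ' * L, h1, ?_, ?_, ?_, ?_, ?_, ?_, ?_⟩
  · intro q hq
    refine ⟨(h2 q hq).1, (h2 q hq).2.trans (mul_le_mul_of_nonneg_right (by linarith) hp0)⟩
  · exact L'.contDiff.comp_contDiffOn h3
  · intro k hk q hq
    obtain ⟨j, rfl⟩ : ∃ j, k = j + 1 := ⟨k - 1, by omega⟩
    rcases Nat.eq_zero_or_pos j with hj | hj
    · subst hj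
      rw [zero_add, norm_iteratedFDeriv_one]
      have e1 : HasFDerivAt (fun q => L' (Aq q) - q) (L' * fderiv ℝ Aq q - 1) q :=
        (L'.hasFDerivAt.comp q (hAd q hq).hasFDerivAt).sub (hasFDerivAt_id q)
      rw [e1.fderiv]
      have e2 : L' * fderiv ℝ Aq q - 1 = L' * (fderiv ℝ Aq q - L) := by
        rw [mul_sub, hL1]
      rw [e2]
      have e3 : ContDiffOn ℝ ∞ (fderiv ℝ Aq) (ball 0 1) := by
        have := h3.fderiv_of_isOpen isOpen_ball (m := ∞) (by simp)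
        exact this
      have e4 := (convex_ball (0 : E) 1).norm_image_sub_le_of_norm_fderiv_le
        (f := fderiv ℝ Aq) (C := |Ck 2| * t ^ θ)
        (fun y hy => (e3.contDiffAt (isOpen_ball.mem_nhds hy)).differentiableAt (by simp))
        (fun y hy => by
          have e5 := h5 2 le_rfl y hy
          rw [← norm_iteratedFDeriv_fderiv, norm_iteratedFDeriv_one] at e5
          exact e5.trans (mul_le_mul_of_nonneg_right (le_abs_self _) hs0)) h01 hq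
      rw [sub_zero] at e4
      have e6 : ‖q‖ ≤ 1 := (mem_ball_zero_iff.1 hq).le
      have e7 : |Ck 2| * t ^ θ * ‖q‖ ≤ |Ck 2| * t ^ θ * 1 :=
        mul_le_mul_of_nonneg_left e6 (by positivity)
      have e8 : ‖L' * (fderiv ℝ Aq q - L)‖ ≤ 2 * (|Ck 2| * t ^ θ) :=
        (norm_mul_le _ _).trans (mul_le_mul hL3 (e4.trans (by linarith)) (norm_nonneg _) (by norm_num))
      have e9 : 0 ≤ |Ck 1| * t ^ θ := by positivity
      have e10 : 2 * (|Ck 2| + |Ck 1|) * t ^ θ = 2 * (|Ck 2| * t ^ θ) + 2 * (|Ck 1| * t ^ θ) := by ring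
      rw [e10]
      linarith
    · refine (iter_left h3 L' hj hq).trans ?_
      have e1 : ‖iteratedFDeriv ℝ (j + 1) Aq q‖ ≤ |Ck (j + 1)| * t ^ θ :=
        (h5 (j + 1) (by omega) q hq).trans (mul_le_mul_of_nonneg_right (le_abs_self _) hs0)
      have e2 : ‖L'‖ * ‖iteratedFDeriv ℝ (j + 1) Aq q‖ ≤ 2 * (|Ck (j + 1)| * t ^ θ) :=
        mul_le_mul hL3 e1 (norm_nonneg _) (by norm_num)
      have e3 : 0 ≤ |Ck 2| * t ^ θ := by positivity
      have e4 : 2 * (|Ck 2| + |Ck (j + 1)|) * t ^ θ =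
        2 * (|Ck 2| * t ^ θ) + 2 * (|Ck (j + 1)| * t ^ θ) := by ring
      rw [e4]
      linarith
  · intro q hq
    refine ⟨?_, (h6 q hq).2.trans (mul_le_mul_of_nonneg_right (by linarith) (by positivity))⟩
    show L' (hh q) = L' (Aq (Hq q))
    rw [(h6 q hq).1]
  · intro q hq
    refine ⟨L'.differentiableAt.comp q (h7 q hq).1, ?_⟩
    rw [hdA q hq, hdh q hq, ← mul_sub]
    have e1 : ‖L' * (fderiv ℝ hh q - fderiv ℝ Aq q)‖ ≤ 2 * (C * t ^ κ) :=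
      (norm_mul_le _ _).trans (mul_le_mul hL3 (h7 q hq).2 (norm_nonneg _) (by norm_num))
    linarith
  · rw [hdh 0 h01, hassoc]; exact h8
  · intro q hq
    rw [hdh q (ball_subset_ball (by norm_num) hq), hassoc]
    exact h9 q hq

end Vale.Agent.P207.H376
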