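import Mathlib

/-! Local logarithm of a Banach algebra, and: the logarithm of an element of the stabiliser of a
space of bilinear forms which is close to 1 lies in the stabiliser algebra. -/

namespace Vale.Agent.P207.H376

open Set Filter Topology Metric

section Log

variable (𝔸 : Type*) [NormedRing 𝔸] [NormedAlgebra ℝ 𝔸] [CompleteSpace 𝔸]

theorem strict_exp : HasStrictFDerivAt (NormedSpace.exp : 𝔸 → 𝔸)
    ((ContinuousLinearEquiv.refl ℝ 𝔸 : 𝔸 ≃L[ℝ] 𝔸) : 𝔸 →L[ℝ] 𝔸) 0 :=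
  hasStrictFDerivAt_exp_zero

variable {𝔸}

/-- the local logarithm: the local inverse of the exponential at `0` -/
noncomputable def lg : 𝔸 → 𝔸 := (strict_exp 𝔸).localInverse _ _ _

theorem lg_one : lg (1 : 𝔸) = 0 := by
  have h := (strict_exp 𝔸).localInverse_apply_image
  rw [NormedSpace.exp_zero] at h
  exact h

theorem exp_lg : ∀ᶠ g in 𝓝 (1 : 𝔸), NormedSpace.exp (lg g) = g := by
  have h := (strict_exp 𝔸).eventually_right_inverse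
  rw [NormedSpace.exp_zero] at h
  exact h

theorem lg_exp : ∀ᶠ X in 𝓝 (0 : 𝔸), lg (NormedSpace.exp X) = X :=
  (strict_exp 𝔸).eventually_left_inverse

theorem lg_contDiffAt : ContDiffAt ℝ ⊤ (lg : 𝔸 → 𝔸) 1 := by
  have h1 : ContDiffAt ℝ ⊤ (NormedSpace.exp : 𝔸 → 𝔸) 0 :=
    (NormedSpace.exp_analytic (𝕂 := ℝ) (0 : 𝔸)).contDiffAt
  have h2 := h1.to_localInverse (f' := ContinuousLinearEquiv.refl ℝ 𝔸)
    (strict_exp 𝔸).hasFDerivAt (by simp)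
  rw [NormedSpace.exp_zero] at h2
  exact h2

theorem lg_fderiv : HasFDerivAt (lg : 𝔸 → 𝔸) (ContinuousLinearMap.id ℝ 𝔸) 1 := by
  have h := (strict_exp 𝔸).to_localInverse.hasFDerivAt
  rw [NormedSpace.exp_zero] at h
  exact h

/-- first package: a ball on which the logarithm is analytic with Lipschitz derivative -/
theorem lg_ball : ∃ e : ℝ, 0 < e ∧ e ≤ 1 ∧ ∃ K : ℝ, 0 ≤ K ∧
    ContDiffOn ℝ ⊤ (lg : 𝔸 → 𝔸) (ball 1 e) ∧
    (∀ g ∈ ball (1 : 𝔸) e, NormedSpace.exp (lg g) = g) ∧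
    (∀ g ∈ ball (1 : 𝔸) e, ‖fderiv ℝ (lg : 𝔸 → 𝔸) g - ContinuousLinearMap.id ℝ 𝔸‖ ≤ K * ‖g - 1‖) ∧
    (∀ g ∈ ball (1 : 𝔸) e, ∀ g' ∈ ball (1 : 𝔸) e,
      ‖fderiv ℝ (lg : 𝔸 → 𝔸) g - fderiv ℝ (lg : 𝔸 → 𝔸) g'‖ ≤ K * ‖g - g'‖) := by
  have h1 : ∀ᶠ g in 𝓝 (1 : 𝔸), ContDiffAt ℝ ⊤ (lg : 𝔸 → 𝔸) g := by
    have h := (lg_contDiffAt (𝔸 := 𝔸)).analyticAt.eventually_analyticAt
    exact h.mono fun g hg => hg.contDiffAt
  have h2 : ContDiffAt ℝ 1 (fderiv ℝ (lg : 𝔸 → 𝔸)) 1 :=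
    (lg_contDiffAt (𝔸 := 𝔸)).fderiv_right (m := 1) le_top
  obtain ⟨K, t, ht, hK⟩ := h2.exists_lipschitzOnWith
  obtain ⟨e0, he0, hb⟩ := Metric.eventually_nhds_iff_ball.1
    ((h1.and (exp_lg (𝔸 := 𝔸))).and (Filter.eventually_mem_set.2 ht))
  have hmem : (1 : 𝔸) ∈ t := mem_of_mem_nhds ht
  refine ⟨min e0 1, lt_min he0 one_pos, min_le_right _ _, K, K.2, ?_, ?_, ?_, ?_⟩
  · intro g hg
    exact ((hb g (ball_subset_ball (min_le_left _ _) hg)).1.1).contDiffWithinAt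
  · intro g hg
    exact (hb g (ball_subset_ball (min_le_left _ _) hg)).1.2
  · intro g hg
    have h3 := hK.dist_le_mul g (hb g (ball_subset_ball (min_le_left _ _) hg)).2 1 hmem
    rw [dist_eq_norm, dist_eq_norm, (lg_fderiv (𝔸 := 𝔸)).fderiv] at h3
    exact h3
  · intro g hg g' hg'
    have h3 := hK.dist_le_mul g (hb g (ball_subset_ball (min_le_left _ _) hg)).2 g'
      (hb g' (ball_subset_ball (min_le_left _ _) hg')).2
    rw [dist_eq_norm, dist_eq_norm] at h3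
    exact h3

/-- all the estimates used later, on one ball -/
theorem lg_spec : ∃ e : ℝ, 0 < e ∧ e ≤ 1 ∧ ∃ C : ℝ, 0 ≤ C ∧
    ContDiffOn ℝ ⊤ (lg : 𝔸 → 𝔸) (ball 1 e) ∧
    (∀ g ∈ ball (1 : 𝔸) e, NormedSpace.exp (lg g) = g) ∧
    (∀ g ∈ ball (1 : 𝔸) e, ‖lg g - (g - 1)‖ ≤ C * ‖g - 1‖ ^ 2) ∧
    (∀ g ∈ ball (1 : 𝔸) e, ∀ g' ∈ ball (1 : 𝔸) e, ‖lg g - lg g'‖ ≤ C * ‖g - g'‖) ∧
    (∀ g ∈ ball (1 : 𝔸) e, ∀ g' ∈ ball (1 : 𝔸) e,
      ‖lg (g * g') - lg g - lg g'‖ ≤ C * ‖g - 1‖ * ‖g' - 1‖) := by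
  obtain ⟨e, he, he1, K, hK0, hcd, hexp, hD1, hDL⟩ := lg_ball (𝔸 := 𝔸)
  have hdiff : ∀ g ∈ ball (1 : 𝔸) e, HasFDerivAt (lg : 𝔸 → 𝔸) (fderiv ℝ lg g) g := by
    intro g hg
    exact ((hcd.contDiffAt (isOpen_ball.mem_nhds hg)).differentiableAt (by simp)).hasFDerivAt
  have hDM : ∀ g ∈ ball (1 : 𝔸) e, ‖fderiv ℝ (lg : 𝔸 → 𝔸) g‖ ≤ K + 1 := by
    intro g hg
    have h1 := hD1 g hg
    have h2 : ‖g - 1‖ ≤ 1 := by
      have := mem_ball_iff_norm.1 hg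
      linarith
    have h3 : ‖ContinuousLinearMap.id ℝ 𝔸‖ ≤ 1 := ContinuousLinearMap.norm_id_le
    have h4 : ‖fderiv ℝ (lg : 𝔸 → 𝔸) g‖ ≤
        ‖fderiv ℝ (lg : 𝔸 → 𝔸) g - ContinuousLinearMap.id ℝ 𝔸‖ + ‖ContinuousLinearMap.id ℝ 𝔸‖ := by
      have := norm_add_le (fderiv ℝ (lg : 𝔸 → 𝔸) g - ContinuousLinearMap.id ℝ 𝔸)
        (ContinuousLinearMap.id ℝ 𝔸)
      simpa using this
    have h5 : K * ‖g - 1‖ ≤ K * 1 := mul_le_mul_of_nonneg_left h2 hK0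
    linarith
  have hsub : ball (1 : 𝔸) (e / 3) ⊆ ball 1 e := ball_subset_ball (by linarith)
  have hN0 : 0 ≤ ‖(1 : 𝔸)‖ := norm_nonneg _
  have hKC : K ≤ 2 * (K + 1) * (‖(1 : 𝔸)‖ + 1) := by nlinarith
  have hKC1 : K + 1 ≤ 2 * (K + 1) * (‖(1 : 𝔸)‖ + 1) := by nlinarith
  refine ⟨e / 3, by positivity, by linarith, 2 * (K + 1) * (‖(1 : 𝔸)‖ + 1), by positivity,
    hcd.mono hsub, fun g hg => hexp g (hsub hg), ?_, ?_, ?_⟩
  · intro g hg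
    have hg' := hsub hg
    set ρ := ‖g - 1‖ with hρ
    have hcb : closedBall (1 : 𝔸) ρ ⊆ ball 1 e := by
      apply closedBall_subset_ball
      exact mem_ball_iff_norm.1 hg'
    have h1 : ∀ x ∈ closedBall (1 : 𝔸) ρ, HasFDerivWithinAt (fun x : 𝔸 => lg x - x)
        (fderiv ℝ (lg : 𝔸 → 𝔸) x - ContinuousLinearMap.id ℝ 𝔸) (closedBall (1 : 𝔸) ρ) x := by
      intro x hx
      exact ((hdiff x (hcb hx)).sub (hasFDerivAt_id x)).hasFDerivWithinAt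
    have h2 : ∀ x ∈ closedBall (1 : 𝔸) ρ,
        ‖fderiv ℝ (lg : 𝔸 → 𝔸) x - ContinuousLinearMap.id ℝ 𝔸‖ ≤ K * ρ := by
      intro x hx
      refine (hD1 x (hcb hx)).trans ?_
      exact mul_le_mul_of_nonneg_left (mem_closedBall_iff_norm.1 hx) hK0
    have h3 := (convex_closedBall (1 : 𝔸) ρ).norm_image_sub_le_of_norm_hasFDerivWithin_le h1 h2
      (mem_closedBall_self (norm_nonneg _)) (mem_closedBall_iff_norm.2 le_rfl : g ∈ closedBall 1 ρ)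
    have h4 : lg g - g - (lg (1 : 𝔸) - 1) = lg g - (g - 1) := by
      rw [lg_one]; abel
    rw [h4] at h3
    calc ‖lg g - (g - 1)‖ ≤ K * ρ * ‖g - 1‖ := h3
      _ = K * ρ ^ 2 := by rw [← hρ]; ring
      _ ≤ 2 * (K + 1) * (‖(1 : 𝔸)‖ + 1) * ρ ^ 2 :=
          mul_le_mul_of_nonneg_right hKC (sq_nonneg _)
  · intro g hg g' hg'
    have h1 : ∀ x ∈ ball (1 : 𝔸) e, HasFDerivWithinAt (lg : 𝔸 → 𝔸)
        (fderiv ℝ (lg : 𝔸 → 𝔸) x) (ball (1 : 𝔸) e) x :=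
      fun x hx => (hdiff x hx).hasFDerivWithinAt
    have h3 := (convex_ball (1 : 𝔸) e).norm_image_sub_le_of_norm_hasFDerivWithin_le h1 hDM
      (hsub hg') (hsub hg)
    exact h3.trans (mul_le_mul_of_nonneg_right hKC1 (norm_nonneg _))
  · intro g hg g' hg'
    have hgn : ‖g - 1‖ < e / 3 := mem_ball_iff_norm.1 hg
    have hprod : ∀ x ∈ ball (1 : 𝔸) (e / 3), g * x ∈ ball (1 : 𝔸) e := by
      intro x hx
      have hxn : ‖x - 1‖ < e / 3 := mem_ball_iff_norm.1 hx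
      rw [mem_ball_iff_norm]
      have h1 : g * x - 1 = (g - 1) * (x - 1) + (g - 1) + (x - 1) := by noncomm_ring
      rw [h1]
      have h2 : ‖(g - 1) * (x - 1)‖ ≤ ‖g - 1‖ * ‖x - 1‖ := norm_mul_le _ _
      have h3 : ‖g - 1‖ * ‖x - 1‖ ≤ ‖g - 1‖ * 1 :=
        mul_le_mul_of_nonneg_left (by linarith) (norm_nonneg _)
      have h4 := norm_add_le ((g - 1) * (x - 1) + (g - 1)) (x - 1)
      have h5 := norm_add_le ((g - 1) * (x - 1)) (g - 1)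
      linarith
    have hLg : ‖(ContinuousLinearMap.mul ℝ 𝔸 g) - ContinuousLinearMap.id ℝ 𝔸‖ ≤ ‖g - 1‖ := by
      apply ContinuousLinearMap.opNorm_le_bound _ (norm_nonneg _)
      intro x
      have h1 : ((ContinuousLinearMap.mul ℝ 𝔸 g) - ContinuousLinearMap.id ℝ 𝔸) x = (g - 1) * x := by
        simp [sub_mul]
      rw [h1]
      exact norm_mul_le _ _
    have h1 : ∀ x ∈ ball (1 : 𝔸) (e / 3), HasFDerivWithinAt (fun x : 𝔸 => lg (g * x) - lg x)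
        ((fderiv ℝ (lg : 𝔸 → 𝔸) (g * x)).comp (ContinuousLinearMap.mul ℝ 𝔸 g) -
          fderiv ℝ (lg : 𝔸 → 𝔸) x) (ball (1 : 𝔸) (e / 3)) x := by
      intro x hx
      have h2 : HasFDerivAt (fun x : 𝔸 => g * x) (ContinuousLinearMap.mul ℝ 𝔸 g) x := by
        exact (ContinuousLinearMap.mul ℝ 𝔸 g).hasFDerivAt
      exact (((hdiff _ (hprod x hx)).comp x h2).sub (hdiff x (hsub hx))).hasFDerivWithinAt
    have h2 : ∀ x ∈ ball (1 : 𝔸) (e / 3),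
        ‖(fderiv ℝ (lg : 𝔸 → 𝔸) (g * x)).comp (ContinuousLinearMap.mul ℝ 𝔸 g) -
          fderiv ℝ (lg : 𝔸 → 𝔸) x‖ ≤ 2 * (K + 1) * (‖(1 : 𝔸)‖ + 1) * ‖g - 1‖ := by
      intro x hx
      have hxn : ‖x - 1‖ < e / 3 := mem_ball_iff_norm.1 hx
      have h3 : (fderiv ℝ (lg : 𝔸 → 𝔸) (g * x)).comp (ContinuousLinearMap.mul ℝ 𝔸 g) -
          fderiv ℝ (lg : 𝔸 → 𝔸) x = (fderiv ℝ (lg : 𝔸 → 𝔸) (g * x)).comp
            ((ContinuousLinearMap.mul ℝ 𝔸 g) - ContinuousLinearMap.id ℝ 𝔸) +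
            (fderiv ℝ (lg : 𝔸 → 𝔸) (g * x) - fderiv ℝ (lg : 𝔸 → 𝔸) x) := by
        rw [ContinuousLinearMap.comp_sub, ContinuousLinearMap.comp_id]
        abel
      rw [h3]
      have h4 : ‖(fderiv ℝ (lg : 𝔸 → 𝔸) (g * x)).comp
            ((ContinuousLinearMap.mul ℝ 𝔸 g) - ContinuousLinearMap.id ℝ 𝔸)‖ ≤
            (K + 1) * ‖g - 1‖ := by
        refine (ContinuousLinearMap.opNorm_comp_le _ _).trans ?_
        exact mul_le_mul (hDM _ (hprod x hx)) hLg (norm_nonneg _) (by linarith)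
      have h5 : ‖g * x - x‖ ≤ ‖g - 1‖ * (‖(1 : 𝔸)‖ + 1) := by
        have h6 : g * x - x = (g - 1) * x := by rw [sub_mul, one_mul]
        rw [h6]
        refine (norm_mul_le _ _).trans (mul_le_mul_of_nonneg_left ?_ (norm_nonneg _))
        have h7 : ‖x‖ ≤ ‖x - 1‖ + ‖(1 : 𝔸)‖ := by
          have := norm_add_le (x - 1) (1 : 𝔸)
          simpa using this
        linarith
      have h8 : ‖fderiv ℝ (lg : 𝔸 → 𝔸) (g * x) - fderiv ℝ (lg : 𝔸 → 𝔸) x‖ ≤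
          K * (‖g - 1‖ * (‖(1 : 𝔸)‖ + 1)) :=
        (hDL _ (hprod x hx) _ (hsub hx)).trans (mul_le_mul_of_nonneg_left h5 hK0)
      refine (norm_add_le _ _).trans ((add_le_add h4 h8).trans ?_)
      have h9 : 0 ≤ ‖g - 1‖ := norm_nonneg _
      have h10 : (K + 1) * ‖g - 1‖ ≤ (K + 1) * (‖(1 : 𝔸)‖ + 1) * ‖g - 1‖ := by
        apply mul_le_mul_of_nonneg_right _ h9
        nlinarith
      have h11 : K * (‖g - 1‖ * (‖(1 : 𝔸)‖ + 1)) ≤ (K + 1) * (‖(1 : 𝔸)‖ + 1) * ‖g - 1‖ := by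
        have : 0 ≤ ‖g - 1‖ * (‖(1 : 𝔸)‖ + 1) := by positivity
        nlinarith
      linarith
    have h3 := (convex_ball (1 : 𝔸) (e / 3)).norm_image_sub_le_of_norm_hasFDerivWithin_le h1 h2
      (mem_ball_self (by positivity)) hg'
    have h4 : lg (g * g') - lg g' - (lg (g * 1) - lg 1) = lg (g * g') - lg g - lg g' := by
      rw [lg_one, mul_one]; abel
    rw [h4] at h3
    exact h3

end Log

end Vale.Agent.P207.H376
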