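import Mathlib

/-! Puncture lemma (step 4 of #16123): a map between punctured finite dimensional spaces which
sends the point at infinity to the puncture cannot respect a proper constant subspace field. -/

namespace Vale.Agent.P207.H376

open Set Filter Topology

variable {E E' : Type*} [NormedAddCommGroup E] [NormedSpace ℝ E] [FiniteDimensional ℝ E]
  [NormedAddCommGroup E'] [NormedSpace ℝ E'] [FiniteDimensional ℝ E']

omit [NormedSpace ℝ E'] [FiniteDimensional ℝ E'] in
/-- a continuous map with a limit at infinity is bounded -/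
theorem bounded_of_tendsto_cocompact {X : Type*} [TopologicalSpace X] {f : X → E'} (hf : Continuous f)
    {p : E'} (hl : Tendsto f (cocompact X) (𝓝 p)) : ∃ R : ℝ, ∀ x, ‖f x‖ ≤ R := by
  have h1 : ∀ᶠ x in cocompact X, ‖f x‖ ≤ ‖p‖ + 1 := by
    have h2 : ∀ᶠ y in 𝓝 p, ‖y‖ ≤ ‖p‖ + 1 := by
      have h3 : Continuous (fun y : E' => ‖y‖) := continuous_norm
      have h4 : ∀ᶠ y in 𝓝 p, ‖y‖ < ‖p‖ + 1 :=
        h3.continuousAt.eventually_lt continuousAt_const (by simp)
      exact h4.mono fun y hy => hy.le
    exact hl.eventually h2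
  obtain ⟨K, hK, hKs⟩ := mem_cocompact.1 h1
  obtain ⟨R, hR⟩ := (hK.image_of_continuousOn (f := fun x => ‖f x‖)
    (hf.norm.continuousOn)).bddAbove
  refine ⟨max R (‖p‖ + 1), fun x => ?_⟩
  by_cases hx : x ∈ K
  · exact le_max_of_le_left (hR ⟨x, hx, rfl⟩)
  · exact le_max_of_le_right (hKs hx)

theorem punct (h : E → E') (p' : E) (p : E')
    (hc : ∀ x, x ≠ p' → ContDiffAt ℝ 1 h x)
    (hinf : Tendsto h (cocompact E) (𝓝 p)) (hne : ∀ x, x ≠ p' → h x ≠ p)
    (hinj : ∀ x, x ≠ p' → Function.Injective (fderiv ℝ h x))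
    (F : Submodule ℝ E) (F' : Submodule ℝ E') (h0 : F ≠ ⊥) (h1 : F ≠ ⊤)
    (hF : ∀ x, x ≠ p' → F.map (fderiv ℝ h x : E →ₗ[ℝ] E') = F') : False := by
  -- the base point
  obtain ⟨w, hw⟩ : ∃ w : E, w ∉ F := by
    by_contra hcon
    push Not at hcon
    exact h1 (eq_top_iff.2 fun x _ => hcon x)
  set x0 : E := p' + w with hx0
  have hav : ∀ v : F, x0 + (v : E) ≠ p' := by
    intro v hv
    apply hw
    have h2 : w = -(v : E) := by
      have : w + (v : E) = 0 := by
        have h3 : p' + (w + (v : E)) = p' + 0 := by rw [add_zero, ← add_assoc]; exact hv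
        exact add_left_cancel h3
      exact eq_neg_of_add_eq_zero_left this
    rw [h2]
    exact F.neg_mem v.2
  have hx0' : x0 ≠ p' := by
    have := hav 0
    simpa using this
  -- projections
  obtain ⟨G, hG⟩ := Submodule.exists_isCompl F'
  set r : E' →L[ℝ] F' := LinearMap.toContinuousLinearMap (F'.projectionOnto G hG) with hr
  set q : E' →L[ℝ] G := LinearMap.toContinuousLinearMap (G.projectionOnto F' hG.symm) with hq
  have hrq : ∀ y : E', (r y : E') + (q y : E') = y := by
    intro y
    exact Submodule.projection_add_projection_eq_self hG y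
  have hrF : ∀ y : F', r (y : E') = y := by
    intro y
    exact Submodule.projectionOnto_apply_left hG y
  have hqF : ∀ y : F', q (y : E') = 0 := by
    intro y
    exact Submodule.projectionOnto_apply_right hG.symm y
  -- the restricted map
  set f : F → E' := fun v => h (x0 + (v : E)) with hf
  have hsd : ∀ v : F, HasStrictFDerivAt f ((fderiv ℝ h (x0 + (v : E))).comp F.subtypeL) v := by
    intro v
    have h2 : HasStrictFDerivAt h (fderiv ℝ h (x0 + (v : E))) (x0 + (v : E)) :=
      (hc _ (hav v)).hasStrictFDerivAt (by norm_num)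
    have h3 : HasStrictFDerivAt (fun v : F => x0 + (v : E)) F.subtypeL v := by
      have := (F.subtypeL.hasStrictFDerivAt (x := v)).const_add x0
      simpa using this
    exact h2.comp v h3
  have hDF : ∀ v : F, ∀ a : F, fderiv ℝ h (x0 + (v : E)) (a : E) ∈ F' := by
    intro v a
    rw [← hF _ (hav v)]
    exact Submodule.mem_map_of_mem a.2
  have hcont : Continuous f := by
    rw [continuous_iff_continuousAt]
    exact fun v => (hsd v).hasFDerivAt.continuousAt
  -- the complementary part is constant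
  have hqc : ∀ v : F, q (f v) = q (f 0) := by
    intro v
    have hd : ∀ v : F, HasFDerivAt (fun v : F => q (f v)) (0 : F →L[ℝ] G) v := by
      intro v
      have h4 := q.hasFDerivAt.comp v (hsd v).hasFDerivAt
      have h5 : q.comp ((fderiv ℝ h (x0 + (v : E))).comp F.subtypeL) = 0 := by
        ext a
        have := hqF ⟨_, hDF v a⟩
        simpa using congrArg Subtype.val this
      rw [h5] at h4
      exact h4
    exact is_const_of_fderiv_eq_zero (𝕜 := ℝ) (fun v => (hd v).differentiableAt)
      (fun v => (hd v).fderiv) v 0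
  set c : E' := (q (f 0) : E') with hcdef
  set k : F → F' := fun v => r (f v) with hk
  have hfk : ∀ v, f v = (k v : E') + c := by
    intro v
    rw [hk, hcdef, ← hqc v]
    exact (hrq (f v)).symm
  -- the range of k is open
  have hksd : ∀ v : F, HasStrictFDerivAt k
      (r.comp ((fderiv ℝ h (x0 + (v : E))).comp F.subtypeL)) v := by
    intro v
    exact r.hasStrictFDerivAt.comp v (hsd v)
  have hsurj : ∀ v : F, (r.comp ((fderiv ℝ h (x0 + (v : E))).comp F.subtypeL)).range = ⊤ := by
    intro v
    rw [eq_top_iff]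
    intro y _
    have hy : (y : E') ∈ F.map (fderiv ℝ h (x0 + (v : E)) : E →ₗ[ℝ] E') := by
      rw [hF _ (hav v)]; exact y.2
    obtain ⟨a, ha, hay⟩ := hy
    refine ⟨⟨a, ha⟩, ?_⟩
    have h6 : r (fderiv ℝ h (x0 + (v : E)) a) = y := by
      have h7 : fderiv ℝ h (x0 + (v : E)) a = (y : E') := hay
      rw [h7]
      exact hrF y
    exact h6
  have hopen : IsOpen (range k) := by
    rw [isOpen_iff_mem_nhds]
    rintro _ ⟨v, rfl⟩
    rw [← (hksd v).map_nhds_eq_of_surj (hsurj v)]
    exact range_mem_map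
  -- closedness away from the puncture
  have hinfF : Tendsto f (cocompact F) (𝓝 p) := by
    have h8 : Tendsto (fun v : F => x0 + (v : E)) (cocompact F) (cocompact E) := by
      have h9 : Topology.IsClosedEmbedding (fun v : F => x0 + (v : E)) := by
        have h10 : Topology.IsClosedEmbedding (fun v : F => (v : E)) :=
          (Submodule.closed_of_finiteDimensional F).isClosedEmbedding_subtypeVal
        exact (Homeomorph.addLeft x0).isClosedEmbedding.comp h10
      exact h9.tendsto_cocompact
    exact hinf.comp h8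
  have hclos : ∀ z : F', z ∈ closure (range k) → (z : E') + c ≠ p → z ∈ range k := by
    intro z hz hzp
    have hnb : NeBot (comap k (𝓝 z)) := by
      rw [comap_neBot_iff]
      intro t ht
      obtain ⟨y, hy, ⟨v, hv⟩⟩ := mem_closure_iff_nhds.1 hz t ht
      exact ⟨v, by rw [hv]; exact hy⟩
    obtain ⟨u, hu⟩ := Ultrafilter.exists_le (comap k (𝓝 z))
    have htk : Tendsto k u (𝓝 z) := tendsto_comap.mono_left hu
    by_cases hco : (u : Filter F) ≤ cocompact F
    · exfalso
      apply hzp
      have h11 : Tendsto f u (𝓝 p) := hinfF.mono_left hco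
      have h12 : Tendsto f u (𝓝 ((z : E') + c)) := by
        have h13 : Tendsto (fun v => (k v : E') + c) u (𝓝 ((z : E') + c)) :=
          ((continuous_subtype_val.tendsto z).comp htk).add_const c
        exact h13.congr fun v => (hfk v).symm
      exact tendsto_nhds_unique h12 h11
    · have h14 : ∃ K : Set F, IsCompact K ∧ K ∈ u := by
        by_contra hcon
        push Not at hcon
        apply hco
        intro s hs
        obtain ⟨K, hK, hKs⟩ := mem_cocompact.1 hs
        exact mem_of_superset (Ultrafilter.compl_mem_iff_notMem.2 (hcon K hK)) hKs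
      obtain ⟨K, hK, hKu⟩ := h14
      obtain ⟨v, _, hv⟩ := hK.ultrafilter_le_nhds u (le_principal_iff.2 hKu)
      have h15 : Tendsto k u (𝓝 (k v)) := (hksd v).hasFDerivAt.continuousAt.tendsto.mono_left hv
      exact ⟨v, tendsto_nhds_unique h15 htk⟩
  -- a ray which avoids the puncture
  obtain ⟨R, hR⟩ := bounded_of_tendsto_cocompact hcont hinfF
  obtain ⟨a, ha, ha0⟩ : ∃ a ∈ F, a ≠ 0 := by
    by_contra hcon
    push Not at hcon
    exact h0 (eq_bot_iff.2 fun x hx => by simpa using hcon x hx)
  have hDF0 : fderiv ℝ h x0 a ∈ F' := by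
    rw [← hF _ hx0']
    exact Submodule.mem_map_of_mem ha
  set b : F' := ⟨fderiv ℝ h x0 a, hDF0⟩ with hb
  have hb0 : b ≠ 0 := by
    intro hb'
    apply ha0
    apply hinj _ hx0'
    have := congrArg Subtype.val hb'
    simpa [hb] using this
  have hbase : (k 0 : E') + c ≠ p := by
    rw [← hfk 0]
    exact hne _ (hav 0)
  have hray : ∃ b' : F', b' ≠ 0 ∧ ∀ t : ℝ, (((k 0 + (t ^ 2) • b' : F')) : E') + c ≠ p := by
    by_cases h16 : ∀ t : ℝ, (((k 0 + (t ^ 2) • b : F')) : E') + c ≠ p
    · exact ⟨b, hb0, h16⟩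
    · push Not at h16
      obtain ⟨t1, ht1⟩ := h16
      refine ⟨-b, neg_ne_zero.2 hb0, fun t2 ht2 => ?_⟩
      have h17 : (k 0 + (t1 ^ 2) • b : F') = (k 0 + (t2 ^ 2) • (-b) : F') := by
        apply Subtype.ext
        exact add_right_cancel (ht1.trans ht2.symm)
      have h18 : (t1 ^ 2 + t2 ^ 2) • b = 0 := by
        have h19 := add_left_cancel h17
        rw [add_smul, h19]
        simp
      rcases smul_eq_zero.1 h18 with h20 | h20
      · have h21 : t1 = 0 := by nlinarith [sq_nonneg t1, sq_nonneg t2]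
        apply hbase
        rw [h21] at ht1
        simpa using ht1
      · exact hb0 h20
  obtain ⟨b', hb', hav'⟩ := hray
  set g : ℝ → F' := fun t => k 0 + (t ^ 2) • b' with hg
  have hgc : Continuous g := by
    rw [hg]; fun_prop
  have hT : {t : ℝ | g t ∈ range k} = univ := by
    apply IsClopen.eq_univ
    · constructor
      · rw [← closure_subset_iff_isClosed]
        intro t ht
        apply hclos _ _ (hav' t)
        exact closure_mono (image_subset_iff.2 fun s hs => hs)
          (image_closure_subset_closure_image hgc ⟨t, ht, rfl⟩)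
      · exact hopen.preimage hgc
    · exact ⟨0, 0, by simp [hg]⟩
  -- unboundedness
  have hbn : 0 < ‖b'‖ := norm_pos_iff.2 hb'
  set T : ℝ := (R + ‖(k 0 : E')‖ + ‖c‖ + 1) / ‖b'‖ with hTdef
  have hR0 : 0 ≤ R := (norm_nonneg _).trans (hR 0)
  have hT0 : 0 ≤ T := by positivity
  have h22 : g (Real.sqrt T) ∈ range k := by
    have : Real.sqrt T ∈ {t : ℝ | g t ∈ range k} := by rw [hT]; exact mem_univ _
    exact this
  obtain ⟨v, hv⟩ := h22
  have h23 := hR v
  rw [hfk v, hv] at h23
  have h24 : ((g (Real.sqrt T) : F') : E') = (k 0 : E') + T • (b' : E') := by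
    simp [hg, Real.sq_sqrt hT0]
  rw [h24] at h23
  have h25 : ‖T • (b' : E')‖ ≤ ‖(k 0 : E') + T • (b' : E') + c‖ + ‖(k 0 : E')‖ + ‖c‖ := by
    have h26 : T • (b' : E') = ((k 0 : E') + T • (b' : E') + c) - (k 0 : E') - c := by abel
    calc ‖T • (b' : E')‖ = ‖((k 0 : E') + T • (b' : E') + c) - (k 0 : E') - c‖ := by rw [← h26]
      _ ≤ ‖((k 0 : E') + T • (b' : E') + c) - (k 0 : E')‖ + ‖c‖ := norm_sub_le _ _
      _ ≤ ‖(k 0 : E') + T • (b' : E') + c‖ + ‖(k 0 : E')‖ + ‖c‖ := by
          gcongr
          exact norm_sub_le _ _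
  have h27 : ‖T • (b' : E')‖ = R + ‖(k 0 : E')‖ + ‖c‖ + 1 := by
    rw [norm_smul, Real.norm_of_nonneg hT0, hTdef]
    have h28 : ‖(b' : E')‖ = ‖b'‖ := rfl
    rw [h28]
    field_simp
  linarith

end Vale.Agent.P207.H376
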