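import Vale.Agent.P207.H376.TY

/-! S-INV for `b < 2 a` (USE 2 of 80 #19622), abstract part. Mathlib only.

`S`, `S'` are two spaces of forms; pushed forward by the flow to the times `T n` they are `ε n`-close
and both of the same type (in the orbit of the linear group). The defect of `B n S'` from `B n S` is
then `ρ X` up to `O(ε²)`, `X ∈ gl E`, and this is killed by the pull back. -/

set_option linter.all false

namespace Vale.Agent.P207.H376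

open Set Filter Topology Metric
open scoped ContDiff

variable {E W : Type*} [NormedAddCommGroup E] [NormedSpace ℝ E] [NormedAddCommGroup W]
  [NormedSpace ℝ W]

/-- the conclusion of the type lemma at the tuple `θ₀`: `Z` = the tuples which span a space of the
type -/
def TypeAt (ρ : (E →L[ℝ] E) →L[ℝ] W →L[ℝ] W) {k : ℕ} (θ₀ : Fin k → W) (Z : Set (Fin k → W)) : Prop :=
  ∃ C δ : ℝ, 0 < C ∧ 0 < δ ∧ ∀ θ ∈ Z, ‖θ - θ₀‖ ≤ δ → ∀ w : Fin k → W, ‖w‖ ≤ δ → θ + w ∈ Z →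
    ∃ (X : E →L[ℝ] E) (c : Fin k → Fin k → ℝ), ‖X‖ ≤ C * ‖w‖ ∧ (∀ i j, |c i j| ≤ C * ‖w‖) ∧
      ∀ i, ‖w i - ρ X (θ i) - ∑ j, c i j • θ j‖ ≤ C * ‖w‖ ^ 2

/-- coefficients with respect to a basis near `θ₀` -/
theorem coeff_near [FiniteDimensional ℝ W] {k : ℕ} {θ₀ : Fin k → W} (h : LinearIndependent ℝ θ₀) :
    ∃ K δ : ℝ, 0 < K ∧ 0 < δ ∧ ∀ θ : Fin k → W, ‖θ - θ₀‖ ≤ δ → ∀ a : Fin k → ℝ,
      ‖a‖ ≤ K * ‖∑ i, a i • θ i‖ := by
  set L : (Fin k → ℝ) →ₗ[ℝ] W := Fintype.linearCombination ℝ θ₀ with hL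
  have hLa : ∀ a, L a = ∑ i, a i • θ₀ i := fun a => rfl
  have hker : LinearMap.ker L = ⊥ := by
    rw [LinearMap.ker_eq_bot']
    intro a ha
    rw [hLa] at ha
    funext i
    exact Fintype.linearIndependent_iff.1 h a ha i
  obtain ⟨g, hg⟩ := L.exists_leftInverse_of_injective hker
  set G : W →L[ℝ] (Fin k → ℝ) := LinearMap.toContinuousLinearMap g with hG
  have hGL : ∀ a, G (L a) = a := fun a => by
    have := congrArg (fun T : (Fin k → ℝ) →ₗ[ℝ] (Fin k → ℝ) => T a) hg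
    exact this
  set K : ℝ := ‖G‖ + 1 with hK
  have hK0 : 0 < K := by positivity
  refine ⟨2 * K, 1 / (2 * K * (k + 1)), by positivity, by positivity, ?_⟩
  intro θ hθ a
  have h1 : ‖a‖ ≤ K * ‖L a‖ := by
    have h2 : ‖a‖ ≤ ‖G‖ * ‖L a‖ := by
      have := G.le_opNorm (L a)
      rwa [hGL] at this
    have h3 : 0 ≤ ‖L a‖ := norm_nonneg _
    rw [hK]; linarith
  have h2 : ‖∑ i, a i • (θ i - θ₀ i)‖ ≤ k * (‖a‖ * (1 / (2 * K * (k + 1)))) := by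
    refine (norm_sum_le _ _).trans ?_
    have h3 : ∀ i ∈ Finset.univ, ‖a i • (θ i - θ₀ i)‖ ≤ ‖a‖ * (1 / (2 * K * (k + 1))) := by
      intro i _
      rw [norm_smul]
      exact mul_le_mul (norm_le_pi_norm a i) ((norm_le_pi_norm (θ - θ₀) i).trans hθ)
        (norm_nonneg _) (norm_nonneg _)
    refine (Finset.sum_le_sum h3).trans ?_
    simp
  have h3 : L a = ∑ i, a i • θ i - ∑ i, a i • (θ i - θ₀ i) := by
    rw [hLa, ← Finset.sum_sub_distrib]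
    refine Finset.sum_congr rfl fun i _ => ?_
    rw [smul_sub]; abel
  have h4 : ‖L a‖ ≤ ‖∑ i, a i • θ i‖ + k * (‖a‖ * (1 / (2 * K * (k + 1)))) := by
    rw [h3]
    exact (norm_sub_le _ _).trans (add_le_add_right h2 _)
  have h5 : K * (k * (‖a‖ * (1 / (2 * K * (k + 1))))) ≤ ‖a‖ / 2 := by
    have e1 : K * (k * (‖a‖ * (1 / (2 * K * (k + 1))))) = ‖a‖ / 2 * (k / (k + 1)) := by
      field_simp
    rw [e1]
    have e2 : (k : ℝ) / (k + 1) ≤ 1 := by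
      rw [div_le_one (by positivity)]; linarith
    have e3 : 0 ≤ ‖a‖ / 2 := by positivity
    nlinarith
  have h6 := mul_le_mul_of_nonneg_left h4 hK0.le
  nlinarith

/-- solve `b (1 + c) = a` -/
theorem solve_near {k : ℕ} {c : Fin k → Fin k → ℝ} {m : ℝ} (hm : 0 ≤ m) (hc : ∀ i j, |c i j| ≤ m)
    (hkm : k * m ≤ 1 / 2) (a : Fin k → ℝ) :
    ∃ b : Fin k → ℝ, (∀ j, b j + ∑ i, b i * c i j = a j) ∧ ‖b‖ ≤ 2 * ‖a‖ := by
  set Q : (Fin k → ℝ) →ₗ[ℝ] (Fin k → ℝ) :=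
    { toFun := fun b j => ∑ i, b i * c i j
      map_add' := by
        intro b b'; funext j; simp only [Pi.add_apply, add_mul, Finset.sum_add_distrib]
      map_smul' := by
        intro r b; funext j
        simp only [Pi.smul_apply, smul_eq_mul, RingHom.id_apply, Finset.mul_sum, mul_assoc] } with hQ
  set T : (Fin k → ℝ) →L[ℝ] (Fin k → ℝ) := 1 + LinearMap.toContinuousLinearMap Q with hT
  have hT1 : ‖T - 1‖ ≤ 1 / 2 := by
    refine ContinuousLinearMap.opNorm_le_bound _ (by norm_num) fun b => ?_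
    have e1 : (T - 1) b = fun j => ∑ i, b i * c i j := by
      rw [hT, add_sub_cancel_left]; rfl
    rw [e1]
    refine (pi_norm_le_iff_of_nonneg (by positivity)).2 fun j => ?_
    refine (norm_sum_le _ _).trans ?_
    have e2 : ∀ i ∈ Finset.univ, ‖b i * c i j‖ ≤ ‖b‖ * m := by
      intro i _
      rw [norm_mul]
      exact mul_le_mul (norm_le_pi_norm b i) (hc i j) (norm_nonneg _) (norm_nonneg _)
    refine (Finset.sum_le_sum e2).trans ?_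
    rw [Finset.sum_const, Finset.card_univ, Fintype.card_fin, nsmul_eq_mul]
    have e3 : 0 ≤ ‖b‖ := norm_nonneg _
    nlinarith
  obtain ⟨b, hb, hbn⟩ := onto_near hT1 a
  refine ⟨b, fun j => ?_, hbn⟩
  have := congrFun hb j
  exact this

/-- one time -/
theorem sinvq_step (ρ : (E →L[ℝ] E) →L[ℝ] W →L[ℝ] W) {k : ℕ} {θ : Fin k → W} {Z : Set (Fin k → W)}
    {C δ K M ε : ℝ} (hC : 0 < C) (hK : 0 < K) (hε : 0 ≤ ε) (hM : ‖θ‖ ≤ M)
    (hT : ∀ w : Fin k → W, ‖w‖ ≤ δ → θ + w ∈ Z → ∃ (X : E →L[ℝ] E) (c : Fin k → Fin k → ℝ),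
      ‖X‖ ≤ C * ‖w‖ ∧ (∀ i j, |c i j| ≤ C * ‖w‖) ∧
      ∀ i, ‖w i - ρ X (θ i) - ∑ j, c i j • θ j‖ ≤ C * ‖w‖ ^ 2)
    (hcoef : ∀ a : Fin k → ℝ, ‖a‖ ≤ K * ‖∑ i, a i • θ i‖) (U : Submodule ℝ W)
    (hclose : ∀ i, ∃ s' ∈ U, ‖s' - θ i‖ ≤ ε * M) (hZ : ∀ η : Fin k → W, (∀ i, η i ∈ U) → η ∈ Z)
    (h1 : ε * M ≤ δ) (h2 : k * (C * (ε * M)) ≤ 1 / 2) :
    ∃ X : E →L[ℝ] E, ‖X‖ ≤ C * (ε * M) ∧ ∀ a : Fin k → ℝ, ∃ u ∈ U,
      ‖u - (∑ i, a i • θ i) - ρ X (∑ i, a i • θ i)‖ ≤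
        (‖ρ‖ * (2 * k ^ 2) * C ^ 2 * M ^ 3 * K + 2 * k * C * M ^ 2 * K) * ε ^ 2 *
          ‖∑ i, a i • θ i‖ := by
  have hM0 : 0 ≤ M := (norm_nonneg _).trans hM
  have hεM : 0 ≤ ε * M := mul_nonneg hε hM0
  choose η hηU hη using hclose
  set w : Fin k → W := fun i => η i - θ i with hw
  have hwn : ‖w‖ ≤ ε * M := (pi_norm_le_iff_of_nonneg hεM).2 hη
  have hθw : θ + w = η := by funext i; simp [hw]
  obtain ⟨X, c, hX, hc, hr⟩ := hT w (hwn.trans h1) (by rw [hθw]; exact hZ η hηU)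
  set m : ℝ := C * (ε * M) with hm
  have hm0 : 0 ≤ m := by positivity
  have hX' : ‖X‖ ≤ m := hX.trans (mul_le_mul_of_nonneg_left hwn hC.le)
  have hc' : ∀ i j, |c i j| ≤ m := fun i j => (hc i j).trans (mul_le_mul_of_nonneg_left hwn hC.le)
  refine ⟨X, hX', fun a => ?_⟩
  obtain ⟨b, hb, hbn⟩ := solve_near hm0 hc' h2 a
  set s : W := ∑ i, a i • θ i with hs
  have hak : ‖a‖ ≤ K * ‖s‖ := hcoef a
  refine ⟨∑ i, b i • η i, U.sum_mem fun i _ => U.smul_mem _ (hηU i), ?_⟩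
  set r : Fin k → W := fun i => w i - ρ X (θ i) - ∑ j, c i j • θ j with hrdef
  have hrn : ∀ i, ‖r i‖ ≤ C * (ε * M) ^ 2 := by
    intro i
    refine (hr i).trans (mul_le_mul_of_nonneg_left ?_ hC.le)
    exact pow_le_pow_left₀ (norm_nonneg _) hwn 2
  have hηi : ∀ i, η i = θ i + (ρ X (θ i) + ∑ j, c i j • θ j) + r i := by
    intro i
    simp only [hrdef, hw]; abel
  have hsum1 : ∑ i, b i • (θ i + ∑ j, c i j • θ j) = s := by
    have e1 : ∑ i, b i • (θ i + ∑ j, c i j • θ j) =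
        ∑ i, b i • θ i + ∑ i, ∑ j, (b i * c i j) • θ j := by
      rw [← Finset.sum_add_distrib]
      refine Finset.sum_congr rfl fun i _ => ?_
      rw [smul_add, Finset.smul_sum]
      congr 1
      refine Finset.sum_congr rfl fun j _ => ?_
      rw [smul_smul]
    rw [e1, Finset.sum_comm, ← Finset.sum_add_distrib, hs]
    refine Finset.sum_congr rfl fun j _ => ?_
    rw [← Finset.sum_smul, ← add_smul, hb j]
  have hdec : (∑ i, b i • η i) - s - ρ X s = ρ X (∑ i, (b i - a i) • θ i) + ∑ i, b i • r i := by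
    have e1 : ∑ i, b i • η i = s + ρ X (∑ i, b i • θ i) + ∑ i, b i • r i := by
      rw [← hsum1, map_sum, ← Finset.sum_add_distrib, ← Finset.sum_add_distrib]
      refine Finset.sum_congr rfl fun i _ => ?_
      rw [hηi i, map_smul]
      simp only [smul_add]
      abel
    have e2 : ∑ i, (b i - a i) • θ i = ∑ i, b i • θ i - s := by
      rw [hs, ← Finset.sum_sub_distrib]
      refine Finset.sum_congr rfl fun i _ => ?_
      rw [sub_smul]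
    rw [e1, e2, map_sub]
    abel
  rw [hdec]
  have hba : ∀ i, |b i - a i| ≤ k * (2 * ‖a‖ * m) := by
    intro j
    have e1 : b j - a j = -∑ i, b i * c i j := by rw [← hb j]; ring
    rw [e1, abs_neg]
    refine (Finset.abs_sum_le_sum_abs _ _).trans ?_
    have e2 : ∀ i ∈ Finset.univ, |b i * c i j| ≤ 2 * ‖a‖ * m := by
      intro i _
      rw [abs_mul]
      exact mul_le_mul ((norm_le_pi_norm b i).trans hbn) (hc' i j) (abs_nonneg _) (by positivity)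
    refine (Finset.sum_le_sum e2).trans ?_
    rw [Finset.sum_const, Finset.card_univ, Fintype.card_fin, nsmul_eq_mul]
  have g1 : ‖∑ i, (b i - a i) • θ i‖ ≤ k * (k * (2 * ‖a‖ * m) * M) := by
    refine (norm_sum_le _ _).trans ?_
    have e2 : ∀ i ∈ Finset.univ, ‖(b i - a i) • θ i‖ ≤ k * (2 * ‖a‖ * m) * M := by
      intro i _
      rw [norm_smul]
      exact mul_le_mul (hba i) ((norm_le_pi_norm θ i).trans hM) (norm_nonneg _) (by positivity)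
    refine (Finset.sum_le_sum e2).trans ?_
    rw [Finset.sum_const, Finset.card_univ, Fintype.card_fin, nsmul_eq_mul]
  have g2 : ‖ρ X (∑ i, (b i - a i) • θ i)‖ ≤ ‖ρ‖ * m * (k * (k * (2 * ‖a‖ * m) * M)) := by
    refine (ρ.le_opNorm₂ X _).trans ?_
    exact mul_le_mul (mul_le_mul_of_nonneg_left hX' (norm_nonneg ρ)) g1 (norm_nonneg _)
      (mul_nonneg (norm_nonneg ρ) hm0)
  have g3 : ‖∑ i, b i • r i‖ ≤ k * (2 * ‖a‖ * (C * (ε * M) ^ 2)) := by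
    refine (norm_sum_le _ _).trans ?_
    have e2 : ∀ i ∈ Finset.univ, ‖b i • r i‖ ≤ 2 * ‖a‖ * (C * (ε * M) ^ 2) := by
      intro i _
      rw [norm_smul]
      exact mul_le_mul ((norm_le_pi_norm b i).trans hbn) (hrn i) (norm_nonneg _) (by positivity)
    refine (Finset.sum_le_sum e2).trans ?_
    rw [Finset.sum_const, Finset.card_univ, Fintype.card_fin, nsmul_eq_mul]
  have g4 : ‖ρ X (∑ i, (b i - a i) • θ i) + ∑ i, b i • r i‖ ≤
      (‖ρ‖ * (2 * k ^ 2) * C ^ 2 * M ^ 3 + 2 * k * C * M ^ 2) * ε ^ 2 * ‖a‖ := by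
    refine (norm_add_le _ _).trans ((add_le_add g2 g3).trans (le_of_eq ?_))
    rw [hm]; ring
  refine g4.trans ?_
  have g5 : 0 ≤ (‖ρ‖ * (2 * k ^ 2) * C ^ 2 * M ^ 3 + 2 * k * C * M ^ 2) * ε ^ 2 := by positivity
  calc (‖ρ‖ * (2 * k ^ 2) * C ^ 2 * M ^ 3 + 2 * k * C * M ^ 2) * ε ^ 2 * ‖a‖
      ≤ (‖ρ‖ * (2 * k ^ 2) * C ^ 2 * M ^ 3 + 2 * k * C * M ^ 2) * ε ^ 2 * (K * ‖s‖) :=
        mul_le_mul_of_nonneg_left hak g5
    _ = _ := by ring

/-- **S-INV for `b < 2 a`**, abstract -/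
theorem sinvq [FiniteDimensional ℝ W] (ρ : (E →L[ℝ] E) →L[ℝ] W →L[ℝ] W) {k : ℕ} {θ₀ : Fin k → W}
    {Z : Set (Fin k → W)} (hty : TypeAt ρ θ₀ Z) (hlin : LinearIndependent ℝ θ₀)
    {S S' : Submodule ℝ W} (B : ℕ → W ≃L[ℝ] W) (A : ℕ → E ≃L[ℝ] E) (θ : ℕ → Fin k → W)
    (hθ : Tendsto θ atTop (𝓝 θ₀)) (hθZ : ∀ n, θ n ∈ Z)
    (hspan : ∀ n, ∀ s ∈ S, ∃ a : Fin k → ℝ, B n s = ∑ i, a i • θ n i)
    (hθS : ∀ n i, ∃ s ∈ S, B n s = θ n i) {ε : ℕ → ℝ}
    (hε0 : ∀ n, 0 ≤ ε n) (hε : Tendsto ε atTop (𝓝 0))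
    (hclose : ∀ n, ∀ s ∈ S, ∃ s' ∈ S', ‖B n s' - B n s‖ ≤ ε n * ‖B n s‖)
    (hZ' : ∀ n, ∀ η : Fin k → W, (∀ i, ∃ s' ∈ S', B n s' = η i) → η ∈ Z)
    (hequiv : ∀ n X s, (B n).symm (ρ X (B n s)) =
      ρ (((A n).symm : E →L[ℝ] E) ∘L X ∘L (A n : E →L[ℝ] E)) s)
    (h1 : Tendsto (fun n => ‖(A n : E →L[ℝ] E)‖ * ‖((A n).symm : E →L[ℝ] E)‖ * ε n) atTop (𝓝 0))
    (h2 : Tendsto (fun n => ‖(B n : W →L[ℝ] W)‖ * ‖((B n).symm : W →L[ℝ] W)‖ * ε n ^ 2) atTop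
      (𝓝 0)) : S ≤ S' := by
  obtain ⟨C, δ, hC, hδ, hT⟩ := hty
  obtain ⟨K, δ', hK, hδ', hcoef⟩ := coeff_near hlin
  intro s hs
  set M : ℝ := ‖θ₀‖ + 1 with hM
  have hM0 : 0 < M := by positivity
  set C₅ : ℝ := ‖ρ‖ * (2 * k ^ 2) * C ^ 2 * M ^ 3 * K + 2 * k * C * M ^ 2 * K with hC₅
  have hC₅0 : 0 ≤ C₅ := by positivity
  have hcl : IsClosed (S' : Set W) := S'.closed_of_finiteDimensional
  have hmem : s ∈ closure (S' : Set W) := by
    rw [Metric.mem_closure_iff]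
    intro e he
    -- the two errors
    have l1 : Tendsto (fun n => ‖ρ‖ * (C * M) * ‖s‖ *
        (‖(A n : E →L[ℝ] E)‖ * ‖((A n).symm : E →L[ℝ] E)‖ * ε n)) atTop (𝓝 0) := by
      simpa using h1.const_mul (‖ρ‖ * (C * M) * ‖s‖)
    have l2 : Tendsto (fun n => C₅ * ‖s‖ *
        (‖(B n : W →L[ℝ] W)‖ * ‖((B n).symm : W →L[ℝ] W)‖ * ε n ^ 2)) atTop (𝓝 0) := by
      simpa using h2.const_mul (C₅ * ‖s‖)
    have l3 : ∀ᶠ n in atTop, ‖ρ‖ * (C * M) * ‖s‖ *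
        (‖(A n : E →L[ℝ] E)‖ * ‖((A n).symm : E →L[ℝ] E)‖ * ε n) < e / 2 :=
      l1.eventually_lt_const (by positivity)
    have l4 : ∀ᶠ n in atTop, C₅ * ‖s‖ *
        (‖(B n : W →L[ℝ] W)‖ * ‖((B n).symm : W →L[ℝ] W)‖ * ε n ^ 2) < e / 2 :=
      l2.eventually_lt_const (by positivity)
    have l5 : ∀ᶠ n in atTop, ‖θ n - θ₀‖ < min (min δ δ') 1 := by
      have h3 : Tendsto (fun n => ‖θ n - θ₀‖) atTop (𝓝 0) := tendsto_iff_norm_sub_tendsto_zero.1 hθ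
      exact h3.eventually_lt_const (lt_min (lt_min hδ hδ') one_pos)
    have l6 : ∀ᶠ n in atTop, ε n * M < δ := by
      have : Tendsto (fun n => ε n * M) atTop (𝓝 0) := by simpa using hε.mul_const M
      exact this.eventually_lt_const hδ
    have l7 : ∀ᶠ n in atTop, k * (C * (ε n * M)) < 1 / 2 := by
      have : Tendsto (fun n => (k : ℝ) * (C * (ε n * M))) atTop (𝓝 0) := by
        simpa using ((hε.mul_const M).const_mul C).const_mul (k : ℝ)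
      exact this.eventually_lt_const (by norm_num)
    obtain ⟨n, m3, m4, m5, m6, m7⟩ := (l3.and (l4.and (l5.and (l6.and l7)))).exists
    have k1 : ‖θ n - θ₀‖ ≤ δ := (m5.trans_le ((min_le_left _ _).trans (min_le_left _ _))).le
    have k2 : ‖θ n - θ₀‖ ≤ δ' := (m5.trans_le ((min_le_left _ _).trans (min_le_right _ _))).le
    have k3 : ‖θ n‖ ≤ M := by
      have h3 : ‖θ n - θ₀‖ ≤ 1 := (m5.trans_le (min_le_right _ _)).le
      have h4 : ‖θ n‖ ≤ ‖θ n - θ₀‖ + ‖θ₀‖ := by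
        have := norm_add_le (θ n - θ₀) θ₀
        simpa using this
      rw [hM]; linarith
    obtain ⟨X, hX, hstep⟩ := sinvq_step ρ (θ := θ n) (Z := Z) (δ := δ) hC hK (hε0 n) k3
      (fun w hw hwZ => hT (θ n) (hθZ n) k1 w hw hwZ) (hcoef (θ n) k2)
      (S'.map ((B n : W ≃L[ℝ] W) : W →ₗ[ℝ] W)) (by
        intro i
        obtain ⟨t, ht, hBt⟩ := hθS n i
        obtain ⟨t', ht', hc⟩ := hclose n t ht
        refine ⟨B n t', ⟨t', ht', rfl⟩, ?_⟩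
        rw [hBt] at hc
        exact hc.trans (mul_le_mul_of_nonneg_left ((norm_le_pi_norm (θ n) i).trans k3) (hε0 n)))
      (by
        intro η hη
        refine hZ' n η fun i => ?_
        obtain ⟨t, ht, hBt⟩ := hη i
        exact ⟨t, ht, hBt⟩) m6.le m7.le
    obtain ⟨a, ha⟩ := hspan n s hs
    obtain ⟨u, hu, hun⟩ := hstep a
    obtain ⟨v, hv, hBv⟩ := hu
    have hBv' : B n v = u := hBv
    rw [← ha] at hun
    refine ⟨v, hv, ?_⟩
    rw [dist_eq_norm]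
    have e1 : s - v = -((B n).symm (ρ X (B n s)) + (B n).symm (u - B n s - ρ X (B n s))) := by
      rw [← map_add, show ρ X (B n s) + (u - B n s - ρ X (B n s)) = u - B n s by abel, map_sub,
        ← hBv', ContinuousLinearEquiv.symm_apply_apply, ContinuousLinearEquiv.symm_apply_apply]
      abel
    have e2 : ‖(B n).symm (ρ X (B n s))‖ ≤ ‖ρ‖ * (C * M) * ‖s‖ *
        (‖(A n : E →L[ℝ] E)‖ * ‖((A n).symm : E →L[ℝ] E)‖ * ε n) := by
      rw [hequiv]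
      refine (ρ.le_opNorm₂ _ _).trans ?_
      have e3 : ‖((A n).symm : E →L[ℝ] E) ∘L X ∘L (A n : E →L[ℝ] E)‖ ≤
          ‖((A n).symm : E →L[ℝ] E)‖ * ((C * (ε n * M)) * ‖(A n : E →L[ℝ] E)‖) := by
        refine (ContinuousLinearMap.opNorm_comp_le _ _).trans ?_
        refine mul_le_mul_of_nonneg_left ?_ (norm_nonneg _)
        exact (ContinuousLinearMap.opNorm_comp_le _ _).trans
          (mul_le_mul_of_nonneg_right hX (norm_nonneg _))
      calc ‖ρ‖ * ‖((A n).symm : E →L[ℝ] E) ∘L X ∘L (A n : E →L[ℝ] E)‖ * ‖s‖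
          ≤ ‖ρ‖ * (‖((A n).symm : E →L[ℝ] E)‖ * ((C * (ε n * M)) * ‖(A n : E →L[ℝ] E)‖)) * ‖s‖ := by
            gcongr
        _ = _ := by ring
    have e3 : ‖(B n).symm (u - B n s - ρ X (B n s))‖ ≤ C₅ * ‖s‖ *
        (‖(B n : W →L[ℝ] W)‖ * ‖((B n).symm : W →L[ℝ] W)‖ * ε n ^ 2) := by
      have e4 : ‖(B n).symm (u - B n s - ρ X (B n s))‖ ≤ ‖((B n).symm : W →L[ℝ] W)‖ *
          ‖u - B n s - ρ X (B n s)‖ := ((B n).symm : W →L[ℝ] W).le_opNorm _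
      have e5 : ‖B n s‖ ≤ ‖(B n : W →L[ℝ] W)‖ * ‖s‖ := (B n : W →L[ℝ] W).le_opNorm _
      have e6 : 0 ≤ C₅ * ε n ^ 2 := by positivity
      calc ‖(B n).symm (u - B n s - ρ X (B n s))‖
          ≤ ‖((B n).symm : W →L[ℝ] W)‖ * (C₅ * ε n ^ 2 * ‖B n s‖) :=
            e4.trans (mul_le_mul_of_nonneg_left hun (norm_nonneg _))
        _ ≤ ‖((B n).symm : W →L[ℝ] W)‖ * (C₅ * ε n ^ 2 * (‖(B n : W →L[ℝ] W)‖ * ‖s‖)) := by
            gcongr
        _ = _ := by ring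
    rw [e1, norm_neg]
    have e7 := norm_add_le ((B n).symm (ρ X (B n s))) ((B n).symm (u - B n s - ρ X (B n s)))
    linarith
  rwa [hcl.closure_eq] at hmem

section TypeOf

variable [FiniteDimensional ℝ E] [FiniteDimensional ℝ W]

/-- the action of `gl E × gl k` on tuples -/
noncomputable def rhoT (ρ : (E →L[ℝ] E) →L[ℝ] W →L[ℝ] W) (k : ℕ) :
    ((E →L[ℝ] E) × (Fin k → Fin k → ℝ)) →L[ℝ] (Fin k → W) →L[ℝ] (Fin k → W) :=
  LinearMap.toContinuousLinearMap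
    { toFun := fun g => LinearMap.toContinuousLinearMap
        { toFun := fun θ i => ρ g.1 (θ i) + ∑ j, g.2 i j • θ j
          map_add' := by
            intro θ θ'; funext i
            simp only [Pi.add_apply, map_add, smul_add, Finset.sum_add_distrib]
            abel
          map_smul' := by
            intro r θ; funext i
            simp only [Pi.smul_apply, map_smul, RingHom.id_apply, smul_add, Finset.smul_sum]
            congr 1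
            refine Finset.sum_congr rfl fun j _ => ?_
            rw [smul_comm] }
      map_add' := by
        intro g g'; ext θ i
        simp only [Prod.fst_add, Prod.snd_add, map_add, Pi.add_apply, add_smul,
          Finset.sum_add_distrib, LinearMap.coe_toContinuousLinearMap', LinearMap.coe_mk,
          AddHom.coe_mk, ContinuousLinearMap.add_apply]
        abel
      map_smul' := by
        intro r g; ext θ i
        simp only [Prod.smul_fst, Prod.smul_snd, map_smul, Pi.smul_apply, smul_eq_mul, mul_smul,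
          LinearMap.coe_toContinuousLinearMap', LinearMap.coe_mk, AddHom.coe_mk,
          ContinuousLinearMap.smul_apply, RingHom.id_apply, smul_add, Finset.smul_sum] }

theorem rhoT_apply (ρ : (E →L[ℝ] E) →L[ℝ] W →L[ℝ] W) (k : ℕ) (X : E →L[ℝ] E)
    (c : Fin k → Fin k → ℝ) (θ : Fin k → W) (i : Fin k) :
    rhoT ρ k (X, c) θ i = ρ X (θ i) + ∑ j, c i j • θ j := rfl

/-- **the type lemma at `θ₀`** from functions `f i` with the right kernel at `θ₀` -/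
theorem typeAt_of (ρ : (E →L[ℝ] E) →L[ℝ] W →L[ℝ] W) {k : ℕ} {ι : Type*} [Fintype ι]
    (f : ι → (Fin k → W) → ℝ) (hf : ∀ i, ContDiff ℝ 2 (f i)) (θ₀ : Fin k → W)
    (hker : ∀ v : Fin k → W, (∀ i, fderiv ℝ (f i) θ₀ v = 0) →
      ∃ (X : E →L[ℝ] E) (c : Fin k → Fin k → ℝ), ∀ i, v i = ρ X (θ₀ i) + ∑ j, c i j • θ₀ j) :
    TypeAt ρ θ₀ {θ | (∀ i, f i θ = 0) ∧ ∀ i (X : E →L[ℝ] E) (c : Fin k → Fin k → ℝ),
      fderiv ℝ (f i) θ (fun l => ρ X (θ l) + ∑ j, c l j • θ j) = 0} := by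
  obtain ⟨C, δ, hC, hδ, h⟩ := ty_local (rhoT ρ k) f hf θ₀ (by
    intro v hv
    obtain ⟨X, c, hXc⟩ := hker v hv
    refine ⟨(X, c), ?_⟩
    funext i
    rw [rhoT_apply, hXc])
  refine ⟨C, δ, hC, hδ, ?_⟩
  rintro θ ⟨h1, h2⟩ hθ w hw ⟨h3, -⟩
  obtain ⟨ξ, h4, h5⟩ := h θ hθ h1 (by
    rintro i ⟨X, c⟩
    exact h2 i X c) w hw h3
  refine ⟨ξ.1, ξ.2, (norm_fst_le ξ).trans h4, ?_, ?_⟩
  · intro i j
    have e1 : |ξ.2 i j| ≤ ‖ξ.2‖ := (norm_le_pi_norm (ξ.2 i) j).trans (norm_le_pi_norm ξ.2 i)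
    exact (e1.trans (norm_snd_le ξ)).trans h4
  · intro i
    have e1 := (norm_le_pi_norm (w - rhoT ρ k ξ θ) i).trans h5
    have e2 : (w - rhoT ρ k ξ θ) i = w i - ρ ξ.1 (θ i) - ∑ j, ξ.2 i j • θ j := by
      rw [Pi.sub_apply, show rhoT ρ k ξ θ i = ρ ξ.1 (θ i) + ∑ j, ξ.2 i j • θ j from rfl]
      abel
    rwa [e2] at e1

/-- the first order form: a tangent vector of the set of zeros is an orbit direction, exactly -/
theorem tangent_of (ρ : (E →L[ℝ] E) →L[ℝ] W →L[ℝ] W) {k : ℕ} {ι : Type*} [Fintype ι]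
    (f : ι → (Fin k → W) → ℝ) (hf : ∀ i, ContDiff ℝ 1 (f i)) (θ₀ : Fin k → W)
    (hker : ∀ v : Fin k → W, (∀ i, fderiv ℝ (f i) θ₀ v = 0) →
      ∃ (X : E →L[ℝ] E) (c : Fin k → Fin k → ℝ), ∀ i, v i = ρ X (θ₀ i) + ∑ j, c i j • θ₀ j) :
    ∃ C δ : ℝ, 0 < C ∧ 0 < δ ∧ ∀ θ : Fin k → W, ‖θ - θ₀‖ ≤ δ →
      (∀ i (X : E →L[ℝ] E) (c : Fin k → Fin k → ℝ),
        fderiv ℝ (f i) θ (fun l => ρ X (θ l) + ∑ j, c l j • θ j) = 0) →
      ∀ v : Fin k → W, (∀ i, fderiv ℝ (f i) θ v = 0) →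
        ∃ (X : E →L[ℝ] E) (c : Fin k → Fin k → ℝ), ‖X‖ ≤ C * ‖v‖ ∧ (∀ i j, |c i j| ≤ C * ‖v‖) ∧
          ∀ i, v i = ρ X (θ i) + ∑ j, c i j • θ j := by
  set g : (Fin k → W) → (ι → ℝ) := fun θ i => f i θ with hg
  have hgc : ContDiff ℝ 1 g := contDiff_pi.2 hf
  have hgd : ∀ θ v i, fderiv ℝ g θ v i = fderiv ℝ (f i) θ v := by
    intro θ v i
    have h1 : HasFDerivAt g (ContinuousLinearMap.pi fun i => fderiv ℝ (f i) θ) θ :=
      hasFDerivAt_pi.2 fun i => (((hf i).differentiable (by norm_num)) θ).hasFDerivAt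
    rw [h1.fderiv]
    rfl
  obtain ⟨C, δ, hC, hδ, hex⟩ := exact_near ((rhoT ρ k).flip θ₀) (fderiv ℝ g θ₀) (by
    intro v hv
    obtain ⟨X, c, hXc⟩ := hker v (fun i => by rw [← hgd θ₀ v i, hv]; rfl)
    refine ⟨(X, c), ?_⟩
    funext i
    rw [ContinuousLinearMap.flip_apply, rhoT_apply, hXc])
  have hDc : ∀ᶠ θ in 𝓝 θ₀, ‖fderiv ℝ g θ - fderiv ℝ g θ₀‖ ≤ δ := by
    have h1 : ContinuousAt (fderiv ℝ g) θ₀ := (hgc.continuous_fderiv (by norm_num)).continuousAt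
    have h3 := (h1.sub_const (fderiv ℝ g θ₀)).norm
    have h4 : ‖fderiv ℝ g θ₀ - fderiv ℝ g θ₀‖ < δ := by rw [sub_self, norm_zero]; exact hδ
    filter_upwards [h3.eventually_lt continuousAt_const h4] with θ hθ using hθ.le
  have hRc : ∀ᶠ θ in 𝓝 θ₀, ‖(rhoT ρ k).flip θ - (rhoT ρ k).flip θ₀‖ ≤ δ := by
    have h1 : ContinuousAt (rhoT ρ k).flip θ₀ := ((rhoT ρ k).flip.continuous).continuousAt
    have h3 := (h1.sub_const ((rhoT ρ k).flip θ₀)).norm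
    have h4 : ‖(rhoT ρ k).flip θ₀ - (rhoT ρ k).flip θ₀‖ < δ := by
      rw [sub_self, norm_zero]; exact hδ
    filter_upwards [h3.eventually_lt continuousAt_const h4] with θ hθ using hθ.le
  obtain ⟨e, he, hb⟩ := Metric.eventually_nhds_iff_ball.1 (hDc.and hRc)
  refine ⟨C, e / 2, hC, by positivity, ?_⟩
  intro θ hθ htan v hv
  obtain ⟨h1, h2⟩ := hb θ (by rw [mem_ball_iff_norm]; linarith)
  obtain ⟨ξ, h3, h4⟩ := hex ((rhoT ρ k).flip θ) (fderiv ℝ g θ) h2 h1 (by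
    rintro ⟨X, c⟩
    funext i
    rw [hgd]
    exact htan i X c) v
  have h5 : fderiv ℝ g θ v = 0 := by funext i; rw [hgd]; exact hv i
  rw [h5, norm_zero, mul_zero] at h4
  have h6 : v = rhoT ρ k ξ θ := by
    have := norm_le_zero_iff.1 h4
    rwa [sub_eq_zero] at this
  refine ⟨ξ.1, ξ.2, (norm_fst_le ξ).trans h3, ?_, ?_⟩
  · intro i j
    have e1 : |ξ.2 i j| ≤ ‖ξ.2‖ := (norm_le_pi_norm (ξ.2 i) j).trans (norm_le_pi_norm ξ.2 i)
    exact (e1.trans (norm_snd_le ξ)).trans h3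
  · intro i
    exact congrFun h6 i

end TypeOf

end Vale.Agent.P207.H376
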