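import Vale.Agent.P207.H734.TyB

/-!
# P207, strict quarter pinching: invariance of a subspace, from the return times

`sinv_quad`: `S`, `S'` are subspaces of `W`; at the time `n` the image of `S` under `Q n : E ≃ E` is
`F n`; the pull back of `G n` under `H n` is the image of `S'`, and it is
`{p + d Y p + O(ε²)}`, `‖Y‖ ≤ C ε`. If `‖Q‖ ‖Q⁻¹‖ ε → 0` and `‖rep Q‖ ‖rep Q⁻¹‖ ε² → 0` then `S ≤ S'`.
-/

open Metric Set Filter Topology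

namespace Vale.Agent.P207.H376

open Vale.Agent.P207.H734

variable {E W : Type*} [NormedAddCommGroup E] [NormedSpace ℝ E] [NormedAddCommGroup W]
  [NormedSpace ℝ W] (ρ : PRep E W)

/-- equivariance of the derived action -/
theorem rep_d {Q R : E →L[ℝ] E} (h' : R * Q = 1) (Y : E →L[ℝ] E) (s : W) :
    ρ.rep Q (ρ.d Y (ρ.rep R s)) = ρ.d (R * Y * Q) s := by
  have h1 : HasDerivAt (fun t : ℝ => ρ.rep Q (ρ.rep (1 + t • Y) (ρ.rep R s)))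
      (ρ.rep Q (ρ.d Y (ρ.rep R s))) 0 := by
    have h2 := (ρ.der Y).clm_apply (hasDerivAt_const (0 : ℝ) (ρ.rep R s))
    have h3 : HasDerivAt (fun t : ℝ => ρ.rep (1 + t • Y) (ρ.rep R s)) (ρ.d Y (ρ.rep R s)) 0 := by
      simpa using h2
    exact (ρ.rep Q).hasFDerivAt.comp_hasDerivAt 0 h3
  have h4 : HasDerivAt (fun t : ℝ => ρ.rep (1 + t • (R * Y * Q)) s) (ρ.d (R * Y * Q) s) 0 := by
    simpa using (ρ.der (R * Y * Q)).clm_apply (hasDerivAt_const (0 : ℝ) s)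
  have h5 : (fun t : ℝ => ρ.rep Q (ρ.rep (1 + t • Y) (ρ.rep R s))) =
      fun t => ρ.rep (1 + t • (R * Y * Q)) s := by
    funext t
    have h6 : (1 + t • (R * Y * Q) : E →L[ℝ] E) = R * (1 + t • Y) * Q := by
      rw [mul_add, add_mul, mul_one, h', mul_smul_comm, smul_mul_assoc]
    rw [h6, ρ.mul, ρ.mul]
    rfl
  rw [h5] at h1
  exact h1.unique h4

theorem repQ_symm (Q : E ≃L[ℝ] E) (s : W) :
    ρ.rep (Q : E →L[ℝ] E) (ρ.rep (Q.symm : E →L[ℝ] E) s) = s := by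
  refine ρ.rep_inv ?_ s
  ext v
  simp

theorem rep_symmQ (Q : E ≃L[ℝ] E) (s : W) :
    ρ.rep (Q.symm : E →L[ℝ] E) (ρ.rep (Q : E →L[ℝ] E) s) = s := by
  refine ρ.rep_inv ?_ s
  ext v
  simp

/-- **the invariance of a subspace** -/
theorem sinv_quad [FiniteDimensional ℝ W] {S S' : Submodule ℝ W} (Q H : ℕ → E ≃L[ℝ] E)
    (F G : ℕ → Submodule ℝ W)
    (hF : ∀ n, ∀ s ∈ S, ρ.rep ((Q n).symm : E →L[ℝ] E) s ∈ F n)
    (hG : ∀ n, ∀ q ∈ G n, ρ.rep (Q n : E →L[ℝ] E) (ρ.rep (H n : E →L[ℝ] E) q) ∈ S')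
    {C : ℝ} (hC : 0 ≤ C) (ε : ℕ → ℝ)
    (hq : ∀ᶠ n in atTop, ∃ Y : E →L[ℝ] E, ‖Y‖ ≤ C * ε n ∧ ∀ p ∈ F n, ∃ q ∈ G n,
      ‖ρ.rep (H n : E →L[ℝ] E) q - (p + ρ.d Y p)‖ ≤ C * ε n ^ 2 * ‖p‖)
    (h1 : Tendsto (fun n => ‖(Q n : E →L[ℝ] E)‖ * ‖((Q n).symm : E →L[ℝ] E)‖ * ε n) atTop (𝓝 0))
    (h2 : Tendsto (fun n => ‖ρ.rep (Q n : E →L[ℝ] E)‖ * ‖ρ.rep ((Q n).symm : E →L[ℝ] E)‖ *
      ε n ^ 2) atTop (𝓝 0)) : S ≤ S' := by
  intro s hs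
  -- the approximations
  have key : ∀ᶠ n in atTop, ∃ s' ∈ S', ‖s' - s‖ ≤
      (‖ρ.d‖ * C * (‖(Q n : E →L[ℝ] E)‖ * ‖((Q n).symm : E →L[ℝ] E)‖ * ε n) +
        C * (‖ρ.rep (Q n : E →L[ℝ] E)‖ * ‖ρ.rep ((Q n).symm : E →L[ℝ] E)‖ * ε n ^ 2)) * ‖s‖ := by
    filter_upwards [hq] with n hn
    obtain ⟨Y, hY1, hY2⟩ := hn
    set p := ρ.rep ((Q n).symm : E →L[ℝ] E) s with hp
    obtain ⟨q, hq1, hq2⟩ := hY2 p (hF n s hs)
    refine ⟨_, hG n q hq1, ?_⟩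
    have h3 : ρ.rep (Q n : E →L[ℝ] E) (ρ.d Y p) =
        ρ.d (((Q n).symm : E →L[ℝ] E) * Y * (Q n : E →L[ℝ] E)) s := by
      refine rep_d ρ ?_ Y s
      ext v
      simp
    have h4 : ρ.rep (Q n : E →L[ℝ] E) (ρ.rep (H n : E →L[ℝ] E) q) - s =
        ρ.d (((Q n).symm : E →L[ℝ] E) * Y * (Q n : E →L[ℝ] E)) s +
          ρ.rep (Q n : E →L[ℝ] E) (ρ.rep (H n : E →L[ℝ] E) q - (p + ρ.d Y p)) := by
      have h5 : ρ.rep (Q n : E →L[ℝ] E) p = s := repQ_symm ρ (Q n) s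
      rw [map_sub, map_add, h3, h5]
      abel
    rw [h4]
    have h7 : ‖ρ.d (((Q n).symm : E →L[ℝ] E) * Y * (Q n : E →L[ℝ] E)) s‖ ≤
        ‖ρ.d‖ * C * (‖(Q n : E →L[ℝ] E)‖ * ‖((Q n).symm : E →L[ℝ] E)‖ * ε n) * ‖s‖ := by
      calc _ ≤ ‖ρ.d (((Q n).symm : E →L[ℝ] E) * Y * (Q n : E →L[ℝ] E))‖ * ‖s‖ :=
            ContinuousLinearMap.le_opNorm _ _
        _ ≤ (‖ρ.d‖ * (‖((Q n).symm : E →L[ℝ] E)‖ * (C * ε n) * ‖(Q n : E →L[ℝ] E)‖)) * ‖s‖ := by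
            refine mul_le_mul_of_nonneg_right ((ρ.d.le_opNorm _).trans ?_) (norm_nonneg _)
            refine mul_le_mul_of_nonneg_left ?_ (norm_nonneg _)
            refine (norm_mul_le _ _).trans ?_
            refine mul_le_mul_of_nonneg_right ((norm_mul_le _ _).trans ?_) (norm_nonneg _)
            exact mul_le_mul_of_nonneg_left hY1 (norm_nonneg _)
        _ = _ := by ring
    have h8 : ‖ρ.rep (Q n : E →L[ℝ] E) (ρ.rep (H n : E →L[ℝ] E) q - (p + ρ.d Y p))‖ ≤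
        C * (‖ρ.rep (Q n : E →L[ℝ] E)‖ * ‖ρ.rep ((Q n).symm : E →L[ℝ] E)‖ * ε n ^ 2) * ‖s‖ := by
      calc _ ≤ ‖ρ.rep (Q n : E →L[ℝ] E)‖ * ‖ρ.rep (H n : E →L[ℝ] E) q - (p + ρ.d Y p)‖ :=
            ContinuousLinearMap.le_opNorm _ _
        _ ≤ ‖ρ.rep (Q n : E →L[ℝ] E)‖ * (C * ε n ^ 2 *
            (‖ρ.rep ((Q n).symm : E →L[ℝ] E)‖ * ‖s‖)) := by
            refine mul_le_mul_of_nonneg_left (hq2.trans ?_) (norm_nonneg _)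
            exact mul_le_mul_of_nonneg_left (ContinuousLinearMap.le_opNorm _ _) (by positivity)
        _ = _ := by ring
    calc _ ≤ _ := norm_add_le _ _
      _ ≤ _ := add_le_add h7 h8
      _ = _ := by ring
  have hlim : Tendsto (fun n => (‖ρ.d‖ * C * (‖(Q n : E →L[ℝ] E)‖ *
      ‖((Q n).symm : E →L[ℝ] E)‖ * ε n) + C * (‖ρ.rep (Q n : E →L[ℝ] E)‖ *
      ‖ρ.rep ((Q n).symm : E →L[ℝ] E)‖ * ε n ^ 2)) * ‖s‖) atTop (𝓝 0) := by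
    have h3 := ((h1.const_mul (‖ρ.d‖ * C)).add (h2.const_mul C)).mul_const ‖s‖
    simpa using h3
  have hcl : IsClosed (S' : Set W) := S'.closed_of_finiteDimensional
  rw [← SetLike.mem_coe, ← hcl.closure_eq, Metric.mem_closure_iff]
  intro r hr
  obtain ⟨n, ⟨s', hs', hn⟩, hn'⟩ := (key.and (hlim.eventually (gt_mem_nhds hr))).exists
  exact ⟨s', hs', by rw [dist_comm, dist_eq_norm]; exact hn.trans_lt hn'⟩

end Vale.Agent.P207.H376
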