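import Vale.Agent.P207.H376.EllJ

/-! SYS and ELL once more, with the weaker hypothesis `‖Dh - 1‖ ≤ C t ^ κ`, `θ + κ > 1`, `2κ > 1`,
and with radii `r < R`. -/

set_option linter.all false

namespace Vale.Agent.P207.H376

open Set Filter Topology Metric
open scoped ContDiff Nat

variable {E : Type*}

section
variable [NormedAddCommGroup E] [NormedSpace ℝ E] [FiniteDimensional ℝ E]

theorem mul_sub_one_le {𝔸 : Type*} [NormedRing 𝔸] {X Y : 𝔸} {a b : ℝ} (hX : ‖X - 1‖ ≤ a)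
    (hY : ‖Y - 1‖ ≤ b) : ‖X * Y - 1‖ ≤ a * b + a + b := by
  have h1 : X * Y - 1 = (X - 1) * (Y - 1) + (X - 1) + (Y - 1) := by noncomm_ring
  rw [h1]
  have h2 : ‖(X - 1) * (Y - 1)‖ ≤ a * b :=
    (norm_mul_le _ _).trans (mul_le_mul hX hY (norm_nonneg _) ((norm_nonneg _).trans hX))
  exact (norm_add_le _ _).trans (add_le_add ((norm_add_le _ _).trans (add_le_add h2 hX)) hY)

theorem fin_est {Cl C C1 a b c s t w T : ℝ} (hCl : 0 ≤ Cl) (hC : 0 ≤ C) (hC1 : 0 ≤ C1) (ha0 : 0 ≤ a)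
    (hc0 : 0 ≤ c) (hw0 : 0 ≤ w) (hs0 : 0 ≤ s) (ht0 : 0 ≤ t) (ha : a ≤ C * w)
    (hb : b ≤ (1 + C) * (C * s * (C * t))) (hc : c ≤ C1 * s) (h1 : w * w ≤ T) (h2 : t * s ≤ T)
    (h3 : w * s ≤ T) :
    Cl * a ^ 2 + Cl * b + Cl * c * a ≤
      (Cl * (C ^ 2) + Cl * ((1 + C) * (C * C)) + Cl * (C1 * C)) * T := by
  have f1 : Cl * a ^ 2 ≤ Cl * (C ^ 2) * T := by
    have h1' : a ^ 2 ≤ (C * w) * (C * w) := by
      rw [sq]
      exact mul_le_mul ha ha ha0 (by positivity)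
    calc Cl * a ^ 2 ≤ Cl * ((C * w) * (C * w)) := mul_le_mul_of_nonneg_left h1' hCl
      _ = Cl * (C ^ 2) * (w * w) := by ring
      _ ≤ Cl * (C ^ 2) * T := mul_le_mul_of_nonneg_left h1 (by positivity)
  have f2 : Cl * b ≤ Cl * ((1 + C) * (C * C)) * T := by
    calc Cl * b ≤ Cl * ((1 + C) * (C * s * (C * t))) := mul_le_mul_of_nonneg_left hb hCl
      _ = Cl * ((1 + C) * (C * C)) * (t * s) := by ring
      _ ≤ Cl * ((1 + C) * (C * C)) * T := mul_le_mul_of_nonneg_left h2 (by positivity)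
  have f3 : Cl * c * a ≤ Cl * (C1 * C) * T := by
    have h1' : c * a ≤ (C1 * s) * (C * w) := mul_le_mul hc ha ha0 (by positivity)
    calc Cl * c * a = Cl * (c * a) := by ring
      _ ≤ Cl * ((C1 * s) * (C * w)) := mul_le_mul_of_nonneg_left h1' hCl
      _ = Cl * (C1 * C) * (w * s) := by ring
      _ ≤ Cl * (C1 * C) * T := mul_le_mul_of_nonneg_left h3 (by positivity)
  have f4 : (Cl * (C ^ 2) + Cl * ((1 + C) * (C * C)) + Cl * (C1 * C)) * T =
      Cl * (C ^ 2) * T + Cl * ((1 + C) * (C * C)) * T + Cl * (C1 * C) * T := by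
    ring
  rw [f4]
  linarith

/-- SYS: the approximate system from the holonomy in the stabiliser. `κ' = κ⁻¹`. -/
theorem sys2 (S : Submodule ℝ (E →L[ℝ] E →L[ℝ] ℝ)) (J : Submodule ℝ (E →L[ℝ] E))
    (hJ : ∃ e : ℝ, 0 < e ∧ ∀ g : E →L[ℝ] E, ‖g - 1‖ < e → H61.Stab S g → lg g ∈ J)
    (C θ κ η : ℝ) (Ck : ℕ → ℝ) (hC : 0 ≤ C) (hCk : ∀ k, 0 ≤ Ck k) (hθ : 0 < θ) (hθκ : θ ≤ κ)
    (hκ1 : κ ≤ 1) (hη : 1 + η ≤ θ + κ) {r R : ℝ} (hrR : r < R) :
    ∃ t1 : ℝ, 0 < t1 ∧ t1 ≤ 1 ∧ ∃ C' : ℝ, 0 ≤ C' ∧ ∃ Ck' : ℕ → ℝ, (∀ k, 0 ≤ Ck' k) ∧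
      ∀ t, 0 < t → t < t1 → ∀ (h : E → E) (A : E → (E →L[ℝ] E)) (κ' : E →L[ℝ] E),
        ‖κ' - 1‖ ≤ C * t ^ θ →
        (∀ x ∈ ball (0 : E) r, ‖h x - x‖ ≤ C * t) →
        (∀ x ∈ ball (0 : E) r, ‖fderiv ℝ h x - 1‖ ≤ C * t ^ κ) →
        ContDiffOn ℝ ∞ A (ball 0 R) →
        (∀ x ∈ ball (0 : E) R, ‖A x - 1‖ ≤ C * t ^ θ) →
        (∀ x ∈ ball (0 : E) R, ‖fderiv ℝ A x‖ ≤ C * t ^ θ) →
        (∀ k, ∀ x ∈ ball (0 : E) R, ‖iteratedFDeriv ℝ k A x‖ ≤ Ck k) →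
        (∀ x ∈ ball (0 : E) r, H61.Stab S (κ' * A (h x) * fderiv ℝ h x)) →
        ∃ F : E → (E →L[ℝ] E), ContDiffOn ℝ ∞ F (ball 0 r) ∧
          (∀ k, ∀ x ∈ ball (0 : E) r, ‖iteratedFDeriv ℝ k F x‖ ≤ Ck' k) ∧
          ∀ x ∈ ball (0 : E) r, ∃ j ∈ J, ‖fderiv ℝ h x - 1 - F x - j‖ ≤ C' * t ^ (1 + η) := by
  obtain ⟨eJ, heJ, hJm⟩ := hJ
  obtain ⟨e, he, he1, Cl, hCl, M, hM, hcd, hq1, hq2, hq3, hMk⟩ := lg_bounds (E := E)
  set C1 : ℝ := C * (2 + C) with hC1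
  set C2 : ℝ := C1 * (1 + C) + C with hC2
  have hC10 : 0 ≤ C1 := by positivity
  have hC20 : 0 ≤ C2 := by positivity
  set m : ℝ := min e eJ / (C1 + C2 + C + 1) with hm
  have hm0 : 0 < m := by
    have : 0 < min e eJ := lt_min he heJ
    positivity
  set t1 : ℝ := min (min 1 ((R - r) / (C + 1))) (m ^ (1 / θ)) with ht1
  have hRr : 0 < R - r := by linarith
  have ht10 : 0 < t1 := by
    apply lt_min (lt_min one_pos (by positivity))
    exact Real.rpow_pos_of_pos hm0 _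
  refine ⟨t1, ht10, (min_le_left _ _).trans (min_le_left _ _), Cl * (C ^ 2) + Cl * ((1 + C) * (C * C)) + Cl * (C1 * C), by positivity,
    fun k => k ! * (∑ i ∈ Finset.range (k + 1), M i) *
      (1 + ∑ i ∈ Finset.range (k + 1), (1 + C) * Ck i) ^ k, ?_, ?_⟩
  · intro k
    have h1 : 0 ≤ ∑ i ∈ Finset.range (k + 1), M i := Finset.sum_nonneg fun i _ => hM i
    have h2 : 0 ≤ ∑ i ∈ Finset.range (k + 1), (1 + C) * Ck i :=
      Finset.sum_nonneg fun i _ => mul_nonneg (by linarith) (hCk i)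
    positivity
  intro t ht ht' h A κ' hκ hh hDh hA hA1 hDA hAk hst
  have htle1 : t ≤ 1 := (ht'.le.trans (min_le_left _ _)).trans (min_le_left _ _)
  have htC : C * t ≤ R - r := by
    have h1 : t ≤ (R - r) / (C + 1) := (ht'.le.trans (min_le_left _ _)).trans (min_le_right _ _)
    have h2 : t * (C + 1) ≤ R - r := by
      rwa [le_div_iff₀ (by positivity)] at h1
    nlinarith
  set s : ℝ := t ^ θ with hs
  set w : ℝ := t ^ κ with hw
  have hs0 : 0 < s := Real.rpow_pos_of_pos ht _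
  have hw0 : 0 < w := Real.rpow_pos_of_pos ht _
  have hs1 : s ≤ 1 := Real.rpow_le_one ht.le htle1 hθ.le
  have htw : t ≤ w := by
    have := Real.rpow_le_rpow_of_exponent_ge ht htle1 hκ1
    rwa [Real.rpow_one] at this
  have hws : w ≤ s := Real.rpow_le_rpow_of_exponent_ge ht htle1 hθκ
  set T : ℝ := t ^ (1 + η) with hT
  have hswT : w * s ≤ T := by
    rw [hw, hs, hT, ← Real.rpow_add ht]
    exact Real.rpow_le_rpow_of_exponent_ge ht htle1 (by linarith)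
  have hwwT : w * w ≤ T := (mul_le_mul_of_nonneg_left hws hw0.le).trans hswT
  have htsT : t * s ≤ T := (mul_le_mul_of_nonneg_right htw hs0.le).trans hswT
  have hsm : s < m := by
    have h1 : t < m ^ (1 / θ) := lt_of_lt_of_le ht' (min_le_right _ _)
    have h2 : t ^ θ < (m ^ (1 / θ)) ^ θ := Real.rpow_lt_rpow ht.le h1 hθ
    rwa [← Real.rpow_mul hm0.le, one_div, inv_mul_cancel₀ hθ.ne', Real.rpow_one] at h2
  have hsm' : (C1 + C2 + C + 1) * s < min e eJ := by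
    have h1 : s < min e eJ / (C1 + C2 + C + 1) := hsm
    rw [lt_div_iff₀ (by positivity)] at h1
    linarith
  have hsC1 : C1 * s < e := by
    have := min_le_left e eJ
    nlinarith
  have hsC : C * s < e := by
    have := min_le_left e eJ
    nlinarith
  have hsC2 : C2 * s < eJ := by
    have := min_le_right e eJ
    nlinarith
  have hone : ‖(1 : E →L[ℝ] E)‖ ≤ 1 := ContinuousLinearMap.norm_id_le
  have hκn : ‖κ'‖ ≤ 1 + C := by
    have h1 : ‖κ'‖ ≤ ‖κ' - 1‖ + ‖(1 : E →L[ℝ] E)‖ := by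
      have := norm_add_le (κ' - 1) (1 : E →L[ℝ] E)
      simpa using this
    have h2 : C * s ≤ C * 1 := mul_le_mul_of_nonneg_left hs1 hC
    linarith
  have hsub12 : ball (0 : E) r ⊆ ball 0 R := ball_subset_ball hrR.le
  have hκA : ∀ y ∈ ball (0 : E) R, ‖κ' * A y - 1‖ ≤ C1 * s := by
    intro y hy
    refine (mul_sub_one_le hκ (hA1 y hy)).trans ?_
    rw [hC1]
    have h2 : C * s * (C * s) ≤ C * s * (C * 1) :=
      mul_le_mul_of_nonneg_left (mul_le_mul_of_nonneg_left hs1 hC) (by positivity)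
    linarith
  have hhx : ∀ x ∈ ball (0 : E) r, h x ∈ ball (0 : E) R := by
    intro x hx
    have h1 := hh x hx
    have h2 : ‖x‖ < r := mem_ball_zero_iff.1 hx
    rw [mem_ball_zero_iff]
    have h3 : ‖h x‖ ≤ ‖h x - x‖ + ‖x‖ := by
      have := norm_add_le (h x - x) x
      simpa using this
    linarith
  refine ⟨fun x => -lg (κ' * A x), ?_, ?_, ?_⟩
  · have h1 : ContDiffOn ℝ ∞ (fun x => κ' * A x) (ball 0 r) :=
      (ContinuousLinearMap.mul ℝ (E →L[ℝ] E) κ').contDiff.comp_contDiffOn (hA.mono hsub12)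
    have h2 : ContDiffOn ℝ ∞ (lg : (E →L[ℝ] E) → (E →L[ℝ] E)) (ball 1 e) :=
      hcd.of_le le_top
    refine (h2.comp h1 ?_).neg
    intro x hx
    rw [mem_ball_iff_norm]
    exact (hκA x (hsub12 hx)).trans_lt hsC1
  · intro k x hx
    have h1 : ContDiffOn ℝ ∞ (fun x => κ' * A x) (ball 0 r) :=
      (ContinuousLinearMap.mul ℝ (E →L[ℝ] E) κ').contDiff.comp_contDiffOn (hA.mono hsub12)
    have h2 : ContDiffOn ℝ ∞ (lg : (E →L[ℝ] E) → (E →L[ℝ] E)) (ball 1 e) :=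
      hcd.of_le le_top
    have h3 : MapsTo (fun x => κ' * A x) (ball (0 : E) r) (ball 1 e) := by
      intro x hx
      rw [mem_ball_iff_norm]
      exact (hκA x (hsub12 hx)).trans_lt hsC1
    have h4 := norm_iter_comp isOpen_ball isOpen_ball h2 h1 h3 M (fun i => (1 + C) * Ck i)
      (fun i => mul_nonneg (by linarith) (hCk i)) hM hMk (fun i y hy => by
        refine (norm_iter_mul_left isOpen_ball κ' hA i (hsub12 hy)).trans ?_
        exact mul_le_mul hκn (hAk i y (hsub12 hy)) (norm_nonneg _) (by linarith)) k hx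
    have h5 : (fun x => -lg (κ' * A x)) = -((lg : (E →L[ℝ] E) → (E →L[ℝ] E)) ∘ fun x => κ' * A x) := rfl
    rw [h5, iteratedFDeriv_neg_apply, norm_neg]
    exact h4
  · intro x hx
    have hx2 := hsub12 hx
    have hX1 : ‖κ' * A (h x) - 1‖ ≤ C1 * s := hκA _ (hhx x hx)
    have hY := hDh x hx
    have hYs : ‖fderiv ℝ h x - 1‖ ≤ C * s := hY.trans (mul_le_mul_of_nonneg_left hws hC)
    have hg : ‖κ' * A (h x) * fderiv ℝ h x - 1‖ < eJ := by
      refine (mul_sub_one_le hX1 hYs).trans_lt ?_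
      have h2 : C1 * s * (C * s) ≤ C1 * s * (C * 1) :=
        mul_le_mul_of_nonneg_left (mul_le_mul_of_nonneg_left hs1 hC) (by positivity)
      have h5 : C1 * s * (C * 1) + C1 * s + C * s = C2 * s := by rw [hC2]; ring
      linarith
    refine ⟨lg (κ' * A (h x) * fderiv ℝ h x), hJm _ hg (hst x hx), ?_⟩
    have hX1b : κ' * A (h x) ∈ ball (1 : E →L[ℝ] E) e := by
      rw [mem_ball_iff_norm]; exact hX1.trans_lt hsC1
    have hX0b : κ' * A x ∈ ball (1 : E →L[ℝ] E) e := by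
      rw [mem_ball_iff_norm]; exact (hκA x hx2).trans_lt hsC1
    have hYb : fderiv ℝ h x ∈ ball (1 : E →L[ℝ] E) e := by
      rw [mem_ball_iff_norm]; exact hYs.trans_lt hsC
    have e1 := hq1 _ hYb
    have e2 := hq2 _ hX0b _ hX1b
    have e3 := hq3 _ hX1b _ hYb
    have hAA : ‖A x - A (h x)‖ ≤ C * s * (C * t) := by
      have h1 := (convex_ball (0 : E) R).norm_image_sub_le_of_norm_fderiv_le
        (f := A) (C := C * s) (fun y hy => (hA.contDiffAt (isOpen_ball.mem_nhds hy)).differentiableAt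
          (by simp)) hDA (hhx x hx) hx2
      refine h1.trans ?_
      apply mul_le_mul_of_nonneg_left _ (by positivity)
      rw [norm_sub_rev]
      exact hh x hx
    have hX01 : ‖κ' * A x - κ' * A (h x)‖ ≤ (1 + C) * (C * s * (C * t)) := by
      rw [← mul_sub]
      exact (norm_mul_le _ _).trans (mul_le_mul hκn hAA (norm_nonneg _) (by linarith))
    have hdec : fderiv ℝ h x - 1 - (-lg (κ' * A x)) - lg (κ' * A (h x) * fderiv ℝ h x) =
        -(lg (fderiv ℝ h x) - (fderiv ℝ h x - 1)) + (lg (κ' * A x) - lg (κ' * A (h x))) -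
        (lg (κ' * A (h x) * fderiv ℝ h x) - lg (κ' * A (h x)) - lg (fderiv ℝ h x)) := by abel
    have hfin : ‖fderiv ℝ h x - 1 - (-lg (κ' * A x)) - lg (κ' * A (h x) * fderiv ℝ h x)‖ ≤
        Cl * ‖fderiv ℝ h x - 1‖ ^ 2 + Cl * ‖κ' * A x - κ' * A (h x)‖ +
        Cl * ‖κ' * A (h x) - 1‖ * ‖fderiv ℝ h x - 1‖ := by
      rw [hdec]
      refine (norm_sub_le _ _).trans (add_le_add ((norm_add_le _ _).trans (add_le_add ?_ e2)) e3)
      rw [norm_neg]; exact e1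
    exact hfin.trans (fin_est hCl hC hC10 (norm_nonneg _) (norm_nonneg _) hw0.le hs0.le ht.le hY hX01 hX1
      hwwT htsT hswT)

end

section
variable [NormedAddCommGroup E] [InnerProductSpace ℝ E] [FiniteDimensional ℝ E]

/-- **ELL-J** with `‖Dh - 1‖ ≤ C t ^ κ`, `1 < θ + κ`, `1 < 2 κ`, radii `r < R` -/
theorem ellJ2 (S : Submodule ℝ (E →L[ℝ] E →L[ℝ] ℝ)) {r R : ℝ} (hr : 0 < r) (hrR : r < R) {u : E → E}
    (hu : ContinuousOn u (ball 0 r))
    {C θ κ t₀ : ℝ} {Ck : ℕ → ℝ} (hC : 0 ≤ C) (hub : ∀ x ∈ ball (0 : E) r, ‖u x‖ ≤ C) (hθ : 0 < θ)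
    (hκ2 : 1 < 2 * κ) (hθκ : 1 < θ + κ) (ht₀ : 0 < t₀)
    (hS : ∀ t, 0 < t → t < t₀ → ∃ (h : E → E) (A : E → (E →L[ℝ] E)) (κ' : E →L[ℝ] E),
      DifferentiableOn ℝ h (ball 0 r) ∧
      (∀ x ∈ ball (0 : E) r, ‖h x - x - t • u x‖ ≤ C * t ^ (1 + θ)) ∧
      (∀ x ∈ ball (0 : E) r, ‖fderiv ℝ h x - 1‖ ≤ C * t ^ κ) ∧
      ContDiffOn ℝ ∞ A (ball 0 R) ∧
      (∀ x ∈ ball (0 : E) R, ‖A x - 1‖ ≤ C * t ^ θ) ∧
      (∀ x ∈ ball (0 : E) R, ‖fderiv ℝ A x‖ ≤ C * t ^ θ) ∧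
      (∀ k, ∀ x ∈ ball (0 : E) R, ‖iteratedFDeriv ℝ k A x‖ ≤ Ck k) ∧
      κ' * (A (h 0) * fderiv ℝ h 0) = 1 ∧
      ∀ x ∈ ball (0 : E) r, H61.Stab S (κ' * A (h x) * fderiv ℝ h x)) :
    ContDiffOn ℝ ∞ u (ball 0 r) ∨ ∃ ζ w : E, ζ ≠ 0 ∧ w ≠ 0 ∧ H253.rk ζ w ∈ H61.J S := by
  by_cases hJ : ∀ ζ w : E, ζ ≠ 0 → w ≠ 0 → H253.rk ζ w ∉ H61.J S
  swap
  · right
    push Not at hJ
    exact hJ
  left
  letI : MeasurableSpace E := borel E
  haveI : BorelSpace E := ⟨rfl⟩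
  -- exponents at most one
  set μ : ℝ := min κ 1 with hμ
  set η : ℝ := min θ μ with hη
  have hμ0 : 0 < μ := lt_min (by linarith) one_pos
  have hη0 : 0 < η := lt_min hθ hμ0
  have hμ1 : μ ≤ 1 := min_le_right _ _
  have hμκ : μ ≤ κ := min_le_left _ _
  have hημ : η ≤ μ := min_le_right _ _
  have hηθ : η ≤ θ := min_le_left _ _
  set δ : ℝ := η + μ - 1 with hδ
  have hδ0 : 0 < δ := by
    rw [hδ, hη, hμ]
    rcases le_total κ 1 with h1 | h1
    · rw [min_eq_left h1]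
      rcases le_total θ κ with h2 | h2
      · rw [min_eq_left h2]; linarith
      · rw [min_eq_right h2]; linarith
    · rw [min_eq_right h1]
      rcases le_total θ 1 with h2 | h2
      · rw [min_eq_left h2]; linarith
      · rw [min_eq_right h2]; linarith
  have hδη : δ ≤ η := by rw [hδ]; linarith
  set D : ℝ := 8 * (C + 1) ^ 2 with hD
  have hD0 : 0 ≤ D := by positivity
  have hCD : C ≤ D := by rw [hD]; nlinarith
  have hCD2 : 2 * C ≤ D := by rw [hD]; nlinarith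
  obtain ⟨eJ, heJ, hJm⟩ := lg_mem_J (E := E)
  obtain ⟨t1, ht1, ht11, C', hC', Ck', hCk', hs⟩ := sys2 (E := E) S (H61.J S)
    ⟨eJ, heJ, fun g hg hS => hJm g hg S hS⟩ D η μ δ (fun k => |Ck k|) hD0
    (fun k => abs_nonneg _) hη0 hημ hμ1 (by rw [hδ]; linarith) hrR
  -- smallness for the inverse of κ
  have hRr : 0 < R - r := by linarith
  set m : ℝ := min (min 1 (R - r)) (1 / (4 * (C + 1) ^ 2) * min 1 (R - r)) with hm
  have hm0 : 0 < m := by
    have h1 : 0 < min 1 (R - r) := lt_min one_pos hRr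
    exact lt_min h1 (by positivity)
  set t2 : ℝ := min (min t1 t₀) (m ^ (1 / η)) with ht2
  have ht20 : 0 < t2 := by
    apply lt_min (lt_min ht1 ht₀)
    exact Real.rpow_pos_of_pos hm0 _
  refine H253.ell (J := H61.J S) (θ := δ) (t₀ := t2) (C := C' + D + 1) (Ck := Ck') isOpen_ball hu hJ
    hδ0 ht20 (by positivity) ?_
  intro t ht ht'
  have htt1 : t < t1 := (ht'.trans_le (min_le_left _ _)).trans_le (min_le_left _ _)
  have htt0 : t < t₀ := (ht'.trans_le (min_le_left _ _)).trans_le (min_le_right _ _)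
  have htle1 : t ≤ 1 := htt1.le.trans ht11
  obtain ⟨h, A, κ', hd, hu', hDh, hA, hA1, hDA, hAk, hκ, hst⟩ := hS t ht htt0
  set s : ℝ := t ^ η with hsdef
  have hs0 : 0 < s := Real.rpow_pos_of_pos ht _
  have hθη : t ^ θ ≤ s := Real.rpow_le_rpow_of_exponent_ge ht htle1 hηθ
  have hκμ : t ^ κ ≤ t ^ μ := Real.rpow_le_rpow_of_exponent_ge ht htle1 hμκ
  have hμη : t ^ μ ≤ s := Real.rpow_le_rpow_of_exponent_ge ht htle1 hημ
  have hθη1 : t ^ (1 + θ) ≤ t ^ (1 + δ) :=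
    Real.rpow_le_rpow_of_exponent_ge ht htle1 (by linarith)
  have hts : t ≤ s := by
    have := Real.rpow_le_rpow_of_exponent_ge ht htle1 (hημ.trans hμ1)
    rwa [Real.rpow_one] at this
  have hs1 : s ≤ 1 := Real.rpow_le_one ht.le htle1 hη0.le
  have hsm : s ≤ m := by
    have h1 : t ≤ m ^ (1 / η) := ht'.le.trans (min_le_right _ _)
    have h2 : t ^ η ≤ (m ^ (1 / η)) ^ η :=
      Real.rpow_le_rpow ht.le h1 hη0.le
    rwa [← Real.rpow_mul hm0.le, one_div_mul_cancel hη0.ne', Real.rpow_one] at h2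
  have hsq' : 4 * (C + 1) ^ 2 * s ≤ min 1 (R - r) := by
    have h3 : s ≤ 1 / (4 * (C + 1) ^ 2) * min 1 (R - r) := hsm.trans (min_le_right _ _)
    have h4 : 4 * (C + 1) ^ 2 * (1 / (4 * (C + 1) ^ 2) * min 1 (R - r)) = min 1 (R - r) := by
      have : (C + 1) ^ 2 ≠ 0 := by positivity
      field_simp
    have h5 := mul_le_mul_of_nonneg_left h3 (by positivity : 0 ≤ 4 * (C + 1) ^ 2)
    linarith
  have hsq : 4 * (C + 1) ^ 2 * s ≤ 1 := hsq'.trans (min_le_left _ _)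
  have hsqR : 4 * (C + 1) ^ 2 * s ≤ R - r := hsq'.trans (min_le_right _ _)
  have h0m : (0 : E) ∈ ball (0 : E) r := mem_ball_self hr
  have hhx : ∀ x ∈ ball (0 : E) r, ‖h x - x‖ ≤ 2 * C * t := by
    intro x hx
    have h1 := hu' x hx
    have h2 : t ^ (1 + θ) ≤ t := by
      have := Real.rpow_le_rpow_of_exponent_ge ht htle1 (by linarith : (1 : ℝ) ≤ 1 + θ)
      rwa [Real.rpow_one] at this
    have h3 : ‖h x - x‖ ≤ ‖h x - x - t • u x‖ + ‖t • u x‖ := by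
      have := norm_add_le (h x - x - t • u x) (t • u x)
      simpa using this
    have h4 : ‖t • u x‖ ≤ t * C := by
      rw [norm_smul, Real.norm_of_nonneg ht.le]
      exact mul_le_mul_of_nonneg_left (hub x hx) ht.le
    have h5 : C * t ^ (1 + θ) ≤ C * t := mul_le_mul_of_nonneg_left h2 hC
    linarith
  have h0in : h 0 ∈ ball (0 : E) R := by
    have h1 := hhx 0 h0m
    rw [mem_ball_zero_iff]
    rw [sub_zero] at h1
    have h2 : 2 * C * t ≤ 2 * C * s := mul_le_mul_of_nonneg_left hts (by positivity)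
    have h3 : 2 * C * s ≤ 4 * (C + 1) ^ 2 * s := mul_le_mul_of_nonneg_right (by nlinarith) hs0.le
    linarith
  have hone : ‖(1 : E →L[ℝ] E)‖ ≤ 1 := ContinuousLinearMap.norm_id_le
  have hκ1 : ‖A (h 0) * fderiv ℝ h 0 - 1‖ ≤ 2 * (C + 1) ^ 2 * s := by
    have h1 : A (h 0) * fderiv ℝ h 0 - 1 = (A (h 0) - 1) * (fderiv ℝ h 0 - 1) + (A (h 0) - 1) +
        (fderiv ℝ h 0 - 1) := by noncomm_ring
    have h2 : ‖A (h 0) - 1‖ ≤ C * s := (hA1 _ h0in).trans (mul_le_mul_of_nonneg_left hθη hC)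
    have h3 : ‖fderiv ℝ h 0 - 1‖ ≤ C * s :=
      (hDh 0 h0m).trans (mul_le_mul_of_nonneg_left (hκμ.trans hμη) hC)
    have h4 : ‖(A (h 0) - 1) * (fderiv ℝ h 0 - 1)‖ ≤ (C * s) * (C * 1) := by
      refine (norm_mul_le _ _).trans ?_
      apply mul_le_mul h2 _ (norm_nonneg _) (by positivity)
      exact h3.trans (mul_le_mul_of_nonneg_left hs1 hC)
    rw [h1]
    have h5 := norm_add_le ((A (h 0) - 1) * (fderiv ℝ h 0 - 1) + (A (h 0) - 1)) (fderiv ℝ h 0 - 1)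
    have h6 := norm_add_le ((A (h 0) - 1) * (fderiv ℝ h 0 - 1)) (A (h 0) - 1)
    have h7 : C * s * (C * 1) + C * s + C * s ≤ 2 * (C + 1) ^ 2 * s := by nlinarith
    linarith
  have hκ' : ‖κ' - 1‖ ≤ D * s := by
    set K := A (h 0) * fderiv ℝ h 0 with hK
    have h1 : κ' - 1 = -(κ' - 1) * (K - 1) - (K - 1) := by
      have : -(κ' - 1) * (K - 1) - (K - 1) = -(κ' * K) + κ' := by noncomm_ring
      rw [this, hκ]; abel
    have h2 : ‖κ' - 1‖ ≤ ‖κ' - 1‖ * ‖K - 1‖ + ‖K - 1‖ := by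
      calc ‖κ' - 1‖ = ‖-(κ' - 1) * (K - 1) - (K - 1)‖ := by rw [← h1]
        _ ≤ ‖-(κ' - 1) * (K - 1)‖ + ‖K - 1‖ := norm_sub_le _ _
        _ ≤ ‖κ' - 1‖ * ‖K - 1‖ + ‖K - 1‖ := by
            have := norm_mul_le (-(κ' - 1)) (K - 1)
            rw [norm_neg] at this
            linarith
    have h3 : ‖K - 1‖ ≤ 1 / 2 := by
      have : 2 * (C + 1) ^ 2 * s = (4 * (C + 1) ^ 2 * s) / 2 := by ring
      linarith
    have h4 : ‖κ' - 1‖ * ‖K - 1‖ ≤ ‖κ' - 1‖ * (1 / 2) := mul_le_mul_of_nonneg_left h3 (norm_nonneg _)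
    have h5 : ‖κ' - 1‖ ≤ 2 * ‖K - 1‖ := by linarith
    have h6 : D * s = 8 * (C + 1) ^ 2 * s := rfl
    have h7 : 0 ≤ (C + 1) ^ 2 * s := by positivity
    rw [h6]
    linarith
  obtain ⟨F, e3, e4, e6⟩ := hs t ht htt1 h A κ' hκ'
    (fun x hx => (hhx x hx).trans (mul_le_mul_of_nonneg_right hCD2 ht.le))
    (fun x hx => (hDh x hx).trans (mul_le_mul hCD hκμ (Real.rpow_nonneg ht.le _) hD0)) hA
    (fun x hx => (hA1 x hx).trans (mul_le_mul hCD hθη (Real.rpow_nonneg ht.le _) hD0))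
    (fun x hx => (hDA x hx).trans (mul_le_mul hCD hθη (Real.rpow_nonneg ht.le _) hD0))
    (fun k x hx => (hAk k x hx).trans (le_abs_self _)) hst
  have hTp : 0 ≤ t ^ (1 + δ) := Real.rpow_nonneg ht.le _
  refine ⟨h, F, hd, ?_, e3, e4, ?_, ?_⟩
  · intro x hx
    have h1 := hDh x hx
    have h2 : ‖fderiv ℝ h x‖ ≤ ‖fderiv ℝ h x - 1‖ + ‖(1 : E →L[ℝ] E)‖ := by
      have := norm_add_le (fderiv ℝ h x - 1) (1 : E →L[ℝ] E)
      simpa using this
    have h4 : C * t ^ κ ≤ C * 1 := mul_le_mul_of_nonneg_left ((hκμ.trans hμη).trans hs1) hC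
    linarith
  · intro x hx
    refine (hu' x hx).trans (mul_le_mul (by linarith) hθη1 (Real.rpow_nonneg ht.le _) (by positivity))
  · intro x hx
    obtain ⟨j, hj, hj'⟩ := e6 x hx
    refine ⟨j, hj, hj'.trans (mul_le_mul_of_nonneg_right ?_ hTp)⟩
    linarith

end

end Vale.Agent.P207.H376
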